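import Vale.Agent.P253.R2.H156.Esc

/-!
P253: flow box along a holomorphic disc touching the graph of the escape time.
-/

open scoped Manifold ContDiff Topology
open Set Metric Complex Filter IsManifold Vale.Agent.P253.Mfd

set_option maxSynthPendingDepth 3
set_option linter.unusedSectionVars false

noncomputable section

namespace Vale.Agent.P253.R2.H156

variable {E : Type*} [NormedAddCommGroup E] [NormedSpace ℂ E] [FiniteDimensional ℂ E]
  {M : Type*} [MetricSpace M] [ChartedSpace E M]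
  [IsManifold 𝓘(ℂ, E) 1 M] [IsManifold 𝓘(ℝ, E) ∞ M]
  {ρ : ℝ → M → M}

theorem mdiff_chart {e : OpenPartialHomeomorph M E} (he : e ∈ maximalAtlas 𝓘(ℂ, E) 1 M) {x : M}
    (hx : x ∈ e.source) : MDifferentiableAt 𝓘(ℂ, E) 𝓘(ℂ, E) e x :=
  ((contMDiffOn_of_mem_maximalAtlas he).contMDiffAt
    (e.open_source.mem_nhds hx)).mdifferentiableAt (by simp)

theorem mdiff_chart_symm {e : OpenPartialHomeomorph M E} (he : e ∈ maximalAtlas 𝓘(ℂ, E) 1 M) {z : E}
    (hz : z ∈ e.target) : MDifferentiableAt 𝓘(ℂ, E) 𝓘(ℂ, E) e.symm z :=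
  ((contMDiffOn_symm_of_mem_maximalAtlas he).contMDiffAt
    (e.open_target.mem_nhds hz)).mdifferentiableAt (by simp)

/-- the flow in a chart, at time `0` -/
theorem hasFDerivAt_flow (hρ : IsHolFlow E ρ) {e : OpenPartialHomeomorph M E}
    (he : e ∈ maximalAtlas 𝓘(ℂ, E) 1 M) {y : E} (hy : y ∈ e.target)
    (hv : HasDerivAt (fun ζ => e (FF E ρ ζ (e.symm y))) (vF ρ e y) 0) :
    HasFDerivAt (fun u : ℂ × E => e (FF E ρ u.1 (e.symm u.2)))
      ((ContinuousLinearMap.smulRight (1 : ℂ →L[ℂ] ℂ) (vF ρ e y)).coprod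
        (ContinuousLinearMap.id ℂ E)) (0, y) := by
  have h0 : FF E ρ 0 (e.symm y) = e.symm y := FF_zero hρ _
  have h1 : MDifferentiableAt 𝓘(ℂ, E) 𝓘(ℂ, E) e (FF E ρ 0 (e.symm y)) := by
    rw [h0]; exact mdiff_chart he (e.map_target hy)
  have h2 : MDifferentiableAt (𝓘(ℂ, ℂ).prod 𝓘(ℂ, E)) 𝓘(ℂ, E)
      (fun q : ℂ × M => FF E ρ q.1 q.2) (0, e.symm y) := mdiff_FF hρ (zero_mem_DF hρ _)
  have h3 : MDifferentiableAt 𝓘(ℂ, ℂ × E) (𝓘(ℂ, ℂ).prod 𝓘(ℂ, E))
      (fun u : ℂ × E => (u.1, e.symm u.2)) (0, y) := by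
    refine MDifferentiableAt.prodMk differentiableAt_fst.mdifferentiableAt ?_
    exact MDifferentiableAt.comp ((0 : ℂ), y) (g := e.symm) (f := Prod.snd)
      (mdiff_chart_symm he hy) differentiableAt_snd.mdifferentiableAt
  have h4 : MDifferentiableAt 𝓘(ℂ, ℂ × E) 𝓘(ℂ, E)
      (fun u : ℂ × E => e (FF E ρ u.1 (e.symm u.2))) (0, y) :=
    MDifferentiableAt.comp ((0 : ℂ), y) (g := e) (f := fun u : ℂ × E => FF E ρ u.1 (e.symm u.2)) h1
      (MDifferentiableAt.comp ((0 : ℂ), y) (g := fun q : ℂ × M => FF E ρ q.1 q.2)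
        (f := fun u : ℂ × E => (u.1, e.symm u.2)) h2 h3)
  have h5 := h4.differentiableAt.hasFDerivAt
  set L := fderiv ℂ (fun u : ℂ × E => e (FF E ρ u.1 (e.symm u.2))) (0, y) with hL
  have e1 : L.comp (ContinuousLinearMap.inl ℂ ℂ E) =
      ContinuousLinearMap.smulRight (1 : ℂ →L[ℂ] ℂ) (vF ρ e y) := by
    have h6 : HasFDerivAt (fun ζ : ℂ => e (FF E ρ ζ (e.symm y)))
        (L.comp (ContinuousLinearMap.inl ℂ ℂ E)) 0 :=
      HasFDerivAt.comp (g := fun u : ℂ × E => e (FF E ρ u.1 (e.symm u.2)))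
        (f := fun ζ : ℂ => (ζ, y)) (0 : ℂ) h5 (hasFDerivAt_prodMk_left (0 : ℂ) y)
    exact h6.unique hv.hasFDerivAt
  have e2 : L.comp (ContinuousLinearMap.inr ℂ ℂ E) = ContinuousLinearMap.id ℂ E := by
    have h6 : HasFDerivAt (fun w : E => e (FF E ρ 0 (e.symm w)))
        (L.comp (ContinuousLinearMap.inr ℂ ℂ E)) y :=
      HasFDerivAt.comp (g := fun u : ℂ × E => e (FF E ρ u.1 (e.symm u.2)))
        (f := fun w : E => ((0 : ℂ), w)) y h5 (hasFDerivAt_prodMk_right (0 : ℂ) y)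
    refine h6.unique ((hasFDerivAt_id y).congr_of_eventuallyEq ?_)
    filter_upwards [e.open_target.mem_nhds hy] with w hw
    rw [FF_zero hρ, e.right_inv hw, id]
  have e3 : L = (ContinuousLinearMap.smulRight (1 : ℂ →L[ℂ] ℂ) (vF ρ e y)).coprod
      (ContinuousLinearMap.id ℂ E) := by
    rw [← e1, ← e2]
    ext u <;> simp
  rwa [e3] at h5

/-- A holomorphic disc touching the graph of the escape time gives a family of discs in a flow box
which leaves the domain at one point only. -/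
theorem exists_config (hρ : IsHolFlow E ρ) {a : ℂ → M} {h : ℂ → ℂ} {T c r : ℝ} (hc : 0 < c)
    (hr : 0 < r) (ha : ∀ z ∈ closedBall (0:ℂ) r, MDifferentiableAt 𝓘(ℂ, ℂ) 𝓘(ℂ, E) a z)
    (hh : ∀ z ∈ closedBall (0:ℂ) r, DifferentiableAt ℂ h z)
    (hT : ep E ρ (a 0) = T) (h0 : h 0 = 0)
    (hle : ∀ z ∈ closedBall (0:ℂ) r, ((T - (h z).re + c * ‖z‖ ^ 2 : ℝ) : EReal) ≤ ep E ρ (a z)) :
    ∃ (G : Set E) (Φ : E → M) (c0 c1 : ℂ → E) (U : Set ℂ) (r' : ℝ), IsOpen G ∧
      MDifferentiableOn 𝓘(ℂ, E) 𝓘(ℂ, E) Φ G ∧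
      (∀ x ∈ G, Function.Injective (mfderiv 𝓘(ℂ, E) 𝓘(ℂ, E) Φ x)) ∧ 0 < r' ∧ IsOpen U ∧
      closedBall 0 r' ⊆ U ∧ DifferentiableOn ℂ c0 U ∧ DifferentiableOn ℂ c1 U ∧
      (∀ s ∈ Icc (0:ℝ) 1, ∀ z ∈ closedBall (0:ℂ) r', (s, z) ≠ (0, 0) → c0 z + s • c1 z ∈ G) ∧
      c0 0 ∉ G ∧ Tendsto Φ (𝓝[G] (c0 0)) (cocompact M) := by
  set x₀ := a 0 with hx₀def
  have he : chartAt E x₀ ∈ maximalAtlas 𝓘(ℂ, E) 1 M := chart_mem_maximalAtlas x₀
  obtain ⟨δ, hδ, U₀, hU₀, hx₀U, hU₀s, hloc, -, hUv⟩ := exists_local_FF hρ x₀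
  set e := chartAt E x₀ with hedef
  have hx₀ : x₀ ∈ e.source := mem_chart_source E x₀
  have hTpos : 0 < T := by
    have := ep_pos hρ x₀
    rw [hT] at this
    exact_mod_cast this
  set z₀ := e x₀ with hz₀
  set ξ := vF ρ e z₀ with hξdef
  have hξ : ξ ≠ 0 := by
    intro h1
    have h2 := ep_eq_top_of_zero hρ h1
    rw [hT] at h2
    exact EReal.coe_ne_top _ h2
  obtain ⟨l, hl⟩ := SeparatingDual.exists_eq_one (R := ℂ) hξ
  set p : E → E := fun v => z₀ + (v - l v • ξ) with hp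
  set q : E → ℂ × M := fun v => (l v, e.symm (p v)) with hq
  set W₁ : Set E := e.target ∩ e.symm ⁻¹' U₀ with hW₁
  have hW₁o : IsOpen W₁ := e.continuousOn_symm.isOpen_inter_preimage e.open_target hU₀
  have hcv : ContinuousOn (fun y => l (vF ρ e y)) W₁ :=
    l.continuous.comp_continuousOn ((differentiableOn_vF hρ he).continuousOn.mono inter_subset_left)
  set W : Set E := W₁ ∩ (fun y => l (vF ρ e y)) ⁻¹' {0}ᶜ with hW
  have hWo : IsOpen W := hcv.isOpen_inter_preimage hW₁o isOpen_compl_singleton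
  have hz₀W : z₀ ∈ W := by
    refine ⟨⟨e.map_source hx₀, ?_⟩, ?_⟩
    · rw [mem_preimage, hz₀, e.left_inv hx₀]; exact hx₀U
    · simp only [mem_preimage, mem_compl_iff, mem_singleton_iff]
      rw [← hξdef, hl]; exact one_ne_zero
  have hpc : Continuous p := by fun_prop
  have hpd : Differentiable ℂ p := by
    intro v; fun_prop
  have hpW : IsOpen (p ⁻¹' W) := hWo.preimage hpc
  have hqd : ∀ v, p v ∈ W → MDifferentiableAt 𝓘(ℂ, E) (𝓘(ℂ, ℂ).prod 𝓘(ℂ, E)) q v := by
    intro v hv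
    refine MDifferentiableAt.prodMk l.differentiableAt.mdifferentiableAt ?_
    exact MDifferentiableAt.comp v (g := e.symm) (f := p) (mdiff_chart_symm he hv.1.1)
      (hpd v).mdifferentiableAt
  have hqc : ContinuousOn q (p ⁻¹' W) := fun v hv => (hqd v hv).continuousAt.continuousWithinAt
  set G : Set E := p ⁻¹' W ∩ q ⁻¹' DF E ρ with hG
  have hGo : IsOpen G := hqc.isOpen_inter_preimage hpW (isOpen_DF hρ)
  set Φ : E → M := fun v => FF E ρ (l v) (e.symm (p v)) with hΦ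
  have hΦd : ∀ v ∈ G, MDifferentiableAt 𝓘(ℂ, E) 𝓘(ℂ, E) Φ v := fun v hv =>
    MDifferentiableAt.comp v (g := fun q : ℂ × M => FF E ρ q.1 q.2) (f := q) (mdiff_FF hρ hv.2)
      (hqd v hv.1)
  -- derivative of the flow near time zero
  have hK : ∀ y ∈ W, HasFDerivAt (fun u : ℂ × E => e (FF E ρ u.1 (e.symm u.2)))
      ((ContinuousLinearMap.smulRight (1 : ℂ →L[ℂ] ℂ) (vF ρ e y)).coprod
        (ContinuousLinearMap.id ℂ E)) (0, y) := by
    intro y hy
    refine hasFDerivAt_flow hρ he hy.1.1 ?_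
    have h1 := hUv (e.symm y) hy.1.2
    rwa [e.right_inv hy.1.1] at h1
  have hKp : ∀ v, p v ∈ W → HasFDerivAt
      (fun u : E => e (FF E ρ (-l v + l u) (e.symm (p u))))
      (((ContinuousLinearMap.smulRight (1 : ℂ →L[ℂ] ℂ) (vF ρ e (p v))).coprod
        (ContinuousLinearMap.id ℂ E)).comp
        (l.prod (ContinuousLinearMap.id ℂ E - ContinuousLinearMap.smulRight l ξ))) v := by
    intro v hv
    have h1 : HasFDerivAt (fun u : E => (-l v + l u, p u))
        (l.prod (ContinuousLinearMap.id ℂ E - ContinuousLinearMap.smulRight l ξ)) v := by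
      refine HasFDerivAt.prodMk (l.hasFDerivAt.const_add _) ?_
      refine HasFDerivAt.const_add _ ?_
      exact (hasFDerivAt_id v).sub (l.hasFDerivAt.smul_const ξ)
    have h2 := hK (p v) hv
    have h3 : ((-l v + l v, p v) : ℂ × E) = (0, p v) := by rw [neg_add_cancel]
    rw [← h3] at h2
    exact HasFDerivAt.comp (g := fun u : ℂ × E => e (FF E ρ u.1 (e.symm u.2)))
      (f := fun u : E => (-l v + l u, p u)) v h2 h1
  have hKv : ∀ (v : E) (w : E), (((ContinuousLinearMap.smulRight (1 : ℂ →L[ℂ] ℂ)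
      (vF ρ e (p v))).coprod (ContinuousLinearMap.id ℂ E)).comp
        (l.prod (ContinuousLinearMap.id ℂ E - ContinuousLinearMap.smulRight l ξ))) w =
      l w • vF ρ e (p v) + (w - l w • ξ) := by
    intro v w
    simp
  -- injectivity of the differential
  have hinj : ∀ v ∈ G, Function.Injective (mfderiv 𝓘(ℂ, E) 𝓘(ℂ, E) Φ v) := by
    intro v hv
    have hzero : ((-l v + l v), e.symm (p v)) ∈ DF E ρ := by
      rw [neg_add_cancel]; exact zero_mem_DF hρ _
    have hback : (-l v, Φ v) ∈ DF E ρ := DF_sub hv.2 hzero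
    have hbackeq : FF E ρ (-l v) (Φ v) = e.symm (p v) := by
      have := (FF_add hv.2 hback).2
      rw [neg_add_cancel, FF_zero hρ] at this
      exact this.symm
    have hev : (fun u : E => e (FF E ρ (-l v) (Φ u))) =ᶠ[𝓝 v]
        (fun u : E => e (FF E ρ (-l v + l u) (e.symm (p u)))) := by
      have h1 : ContinuousAt (fun u : E => ((-l v + l u), e.symm (p u))) v := by
        have h2 : ContinuousAt (fun u : E => e.symm (p u)) v :=
          (e.continuousAt_symm hv.1.1.1).comp hpc.continuousAt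
        exact ContinuousAt.prodMk (by fun_prop) h2
      filter_upwards [hGo.mem_nhds hv, h1.preimage_mem_nhds ((isOpen_DF hρ).mem_nhds hzero)]
        with u hu hu2
      have h3 := FF_add hu.2 (DF_sub hu.2 hu2)
      rw [h3.2]
    have hd1 := (hKp v hv.1).congr_of_eventuallyEq hev
    have hd2 : MDifferentiableAt 𝓘(ℂ, E) 𝓘(ℂ, E) (fun x => e (FF E ρ (-l v) x)) (Φ v) := by
      refine MDifferentiableAt.comp (Φ v) (g := e) (f := FF E ρ (-l v)) ?_
        (mdiff_slice (DF_subset_QF hρ hback))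
      rw [hbackeq]
      exact mdiff_chart he (e.map_target hv.1.1.1)
    have hd3 := (hd2.hasMFDerivAt.comp v (hΦd v hv).hasMFDerivAt)
    have hd4 : HasMFDerivAt 𝓘(ℂ, E) 𝓘(ℂ, E) (fun u : E => e (FF E ρ (-l v) (Φ u))) v
        (((ContinuousLinearMap.smulRight (1 : ℂ →L[ℂ] ℂ)
      (vF ρ e (p v))).coprod (ContinuousLinearMap.id ℂ E)).comp
        (l.prod (ContinuousLinearMap.id ℂ E - ContinuousLinearMap.smulRight l ξ))) :=
      hd1.hasMFDerivAt
    have hd5 := hasMFDerivAt_unique hd3 hd4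
    rw [injective_iff_map_eq_zero]
    intro (w : E) hw
    have h1 := congrArg (fun A : E →L[ℂ] E => A w) hd5
    have h2 : l w • vF ρ e (p v) + (w - l w • ξ) = 0 := by
      refine (hKv v w).symm.trans (Eq.trans h1.symm ?_)
      change (mfderiv 𝓘(ℂ, E) 𝓘(ℂ, E) (fun x => e (FF E ρ (-l v) x)) (Φ v))
        (mfderiv 𝓘(ℂ, E) 𝓘(ℂ, E) Φ v w) = 0
      rw [hw, map_zero]
    have h3 := congrArg l h2
    simp only [map_add, map_sub, map_smul, hl, smul_eq_mul, mul_one, sub_self, add_zero,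
      map_zero] at h3
    have h4 : l w = 0 := by
      rcases mul_eq_zero.1 h3 with h | h
      · exact h
      · exact absurd h hv.1.2
    rw [h4, zero_smul, zero_smul, sub_zero, zero_add] at h2
    exact h2
  -- the local inverse of the flow box
  have hp0 : p 0 = z₀ := by simp [hp]
  have h0G : (0 : E) ∈ G := by
    refine ⟨?_, ?_⟩
    · rw [mem_preimage, hp0]; exact hz₀W
    · rw [mem_preimage]
      have : q 0 = (0, x₀) := by simp only [hq, hp0, map_zero, hz₀, e.left_inv hx₀]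
      rw [this]; exact zero_mem_DF hρ _
  have hΦ0 : Φ 0 = x₀ := by
    simp only [hΦ, hp0, map_zero, hz₀, e.left_inv hx₀]
    exact FF_zero hρ _
  have hΦc : ContinuousOn Φ G := fun v hv => (hΦd v hv).continuousAt.continuousWithinAt
  set O : Set E := G ∩ Φ ⁻¹' e.source with hO
  have hOo : IsOpen O := hΦc.isOpen_inter_preimage hGo e.open_source
  have h0O : (0 : E) ∈ O := ⟨h0G, by rw [mem_preimage, hΦ0]; exact hx₀⟩
  have hψd : DifferentiableOn ℂ (fun u => e (Φ u)) O := fun u hu =>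
    (MDifferentiableAt.comp u (g := e) (f := Φ) (mdiff_chart he hu.2)
      (hΦd u hu.1)).differentiableAt.differentiableWithinAt
  have hψ0 : HasFDerivAt (fun u => e (Φ u)) (ContinuousLinearMap.id ℂ E) 0 := by
    have h1 := hKp 0 (by rw [hp0]; exact hz₀W)
    have h2 : (((ContinuousLinearMap.smulRight (1 : ℂ →L[ℂ] ℂ)
        (vF ρ e (p 0))).coprod (ContinuousLinearMap.id ℂ E)).comp
        (l.prod (ContinuousLinearMap.id ℂ E - ContinuousLinearMap.smulRight l ξ))) =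
        ContinuousLinearMap.id ℂ E := by
      ext w
      rw [hKv, hp0, ← hξdef]
      simp
    rw [h2] at h1
    refine h1.congr_of_eventuallyEq (Eventually.of_forall fun u => ?_)
    simp only [hΦ, map_zero, neg_zero, zero_add]
  obtain ⟨Ψ, hΨ0, hΨO, hΨe, hΨs⟩ := exists_inverse_chart hOo hψd h0O hψ0
  have hΨ00 : Ψ 0 = z₀ := by rw [hΨe, hΦ0]
  have hz₀T : z₀ ∈ Ψ.target := by rw [← hΨ00]; exact Ψ.map_source hΨ0
  set b : ℂ → E := fun z => Ψ.symm (e (a z)) with hb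
  have hb0 : b 0 = 0 := by
    simp only [hb]
    rw [← hx₀def, ← hz₀, ← hΨ00, Ψ.left_inv hΨ0]
  -- a good neighbourhood of zero
  have hball : closedBall (0:ℂ) r ∈ 𝓝 (0:ℂ) := closedBall_mem_nhds 0 hr
  have h0b : (0:ℂ) ∈ closedBall (0:ℂ) r := mem_closedBall_self hr.le
  have hac : ContinuousAt a 0 := (ha 0 h0b).continuousAt
  have hev1 : ∀ᶠ z in 𝓝 (0:ℂ), a z ∈ e.source := hac.eventually (e.open_source.mem_nhds hx₀)
  have hev2 : ∀ᶠ z in 𝓝 (0:ℂ), e (a z) ∈ Ψ.target := by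
    have h1 : ContinuousAt (fun z => e (a z)) 0 := (e.continuousAt hx₀).comp hac
    exact h1.eventually (Ψ.open_target.mem_nhds hz₀T)
  have hev3 : ∀ᶠ z in 𝓝 (0:ℂ), ‖h z‖ < T / 2 := by
    have h1 : ContinuousAt (fun z => ‖h z‖) 0 := (hh 0 h0b).continuousAt.norm
    have h2 : Tendsto (fun z => ‖h z‖) (𝓝 0) (𝓝 0) := by
      have h3 := h1.tendsto
      rwa [h0, norm_zero] at h3
    exact h2.eventually (gt_mem_nhds (by positivity))
  obtain ⟨r₁, hr₁, hgood⟩ := Metric.eventually_nhds_iff_ball.1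
    (((hev1.and hev2).and hev3).and (show ∀ᶠ z in 𝓝 (0:ℂ), z ∈ closedBall (0:ℂ) r from hball))
  have hbd : ∀ z ∈ ball (0:ℂ) r₁, DifferentiableAt ℂ b z := by
    intro z hz
    obtain ⟨⟨⟨h1, h2⟩, -⟩, h4⟩ := hgood z hz
    have h5 : DifferentiableAt ℂ (fun z => e (a z)) z :=
      (MDifferentiableAt.comp z (g := e) (f := a) (mdiff_chart he h1) (ha z h4)).differentiableAt
    exact DifferentiableAt.comp z (g := Ψ.symm) (f := fun z => e (a z))
      ((hΨs _ h2).differentiableAt (by simp)) h5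
  have hbO : ∀ z ∈ ball (0:ℂ) r₁, b z ∈ O ∧ Φ (b z) = a z := by
    intro z hz
    obtain ⟨⟨⟨h1, h2⟩, -⟩, h4⟩ := hgood z hz
    have h5 : b z ∈ O := hΨO (Ψ.map_target h2)
    refine ⟨h5, ?_⟩
    have h6 : e (Φ (b z)) = e (a z) := by
      rw [← hΨe]
      exact Ψ.right_inv h2
    exact e.injOn h5.2 h1 h6
  refine ⟨G, Φ, fun z => ((T : ℂ) - h z) • ξ + b z, fun _ => -((T / 2 : ℝ) : ℂ) • ξ, ball 0 r₁,
    r₁ / 2, hGo, fun v hv => (hΦd v hv).mdifferentiableWithinAt, hinj, by positivity, isOpen_ball,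
    closedBall_subset_ball (by linarith), ?_, differentiableOn_const _, ?_, ?_, ?_⟩
  · intro z hz
    have h1 := hh z (hgood z hz).2
    exact ((((differentiableAt_const _).sub h1).smul_const ξ).add (hbd z hz)).differentiableWithinAt
  · rintro s hs z hz hsz
    have hz' : z ∈ ball (0:ℂ) r₁ := closedBall_subset_ball (by linarith) hz
    obtain ⟨hbz, hΦb⟩ := hbO z hz'
    obtain ⟨⟨-, h3⟩, h4⟩ := hgood z hz'
    set v : E := ((T : ℂ) - h z) • ξ + b z + s • (-((T / 2 : ℝ) : ℂ) • ξ) with hv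
    set μ : ℂ := (T : ℂ) - h z - (s : ℂ) * ((T / 2 : ℝ) : ℂ) with hμ
    have hveq : v = μ • ξ + b z := by
      have h5 : s • (-((T / 2 : ℝ) : ℂ) • ξ) = ((s : ℂ) * (-((T / 2 : ℝ) : ℂ))) • ξ := by
        rw [mul_smul]; rfl
      rw [hv, h5, hμ]
      rw [sub_smul ((T : ℂ) - h z), mul_neg, neg_smul]
      abel
    have hlv : l v = μ + l (b z) := by
      rw [hveq, map_add, map_smul, hl, smul_eq_mul, mul_one]
    have hpv : p v = p (b z) := by
      simp only [hp]
      rw [hlv, hveq, add_smul]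
      abel_nf
    have hre : μ.re = T - (h z).re - s * (T / 2) := by
      simp [hμ]
    have habs : |(h z).re| < T / 2 := (abs_re_le_norm _).trans_lt h3
    have hs1 : s * (T / 2) ≤ T / 2 := by nlinarith [hs.1, hs.2]
    have hμpos : 0 ≤ μ.re := by
      rw [hre]; have := abs_lt.1 habs; linarith [this.2]
    have hμD : (μ, a z) ∈ DF E ρ := by
      rw [mem_DF_iff hμpos]
      refine lt_of_lt_of_le ?_ (hle z h4)
      rw [hre]
      refine EReal.coe_lt_coe_iff.2 ?_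
      have hs0 : 0 ≤ s * (T / 2) := mul_nonneg hs.1 (by positivity)
      have hz0 : 0 ≤ c * ‖z‖ ^ 2 := by positivity
      rcases hs.1.eq_or_lt with h5 | h5
      · have hzne : z ≠ 0 := by
          rintro rfl
          exact hsz (by rw [← h5])
        have : 0 < c * ‖z‖ ^ 2 := by positivity
        linarith
      · have : 0 < s * (T / 2) := by positivity
        linarith
    refine ⟨?_, ?_⟩
    · rw [mem_preimage, hpv]; exact hbz.1.1
    · rw [mem_preimage]
      have h5 : q v = (μ + l (b z), e.symm (p (b z))) := by simp only [hq, hlv, hpv]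
      rw [h5]
      refine (FF_add hbz.1.2 ?_).1
      have h6 : FF E ρ (q (b z)).1 (q (b z)).2 = a z := hΦb
      have h7 : FF E ρ (l (b z)) (e.symm (p (b z))) = a z := h6
      rw [h7]
      exact hμD
  all_goals
    have hc00 : ((T : ℂ) - h 0) • ξ + b 0 = (T : ℂ) • ξ := by rw [h0, hb0, sub_zero, add_zero]
    have hl0 : l ((T : ℂ) • ξ) = T := by rw [map_smul, hl, smul_eq_mul, mul_one]
    have hp0' : p ((T : ℂ) • ξ) = z₀ := by simp only [hp, hl0, sub_self, add_zero]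
    have hq0 : q ((T : ℂ) • ξ) = ((T : ℂ), x₀) := by
      simp only [hq, hl0, hp0', hz₀, e.left_inv hx₀]
    simp only [hc00]
  · intro hG0
    have h1 := hG0.2
    rw [mem_preimage, hq0, mem_DF_iff (by simpa using hTpos.le), ofReal_re, hT] at h1
    exact lt_irrefl _ h1
  · have h1 : Tendsto q (𝓝[G] ((T : ℂ) • ξ)) (𝓝[DF E ρ] ((T : ℂ), x₀)) := by
      refine tendsto_nhdsWithin_of_tendsto_nhds_of_eventually_within _ ?_ ?_
      · have h2 : ContinuousAt q ((T : ℂ) • ξ) := (hqd _ (by rw [hp0']; exact hz₀W)).continuousAt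
        have h3 := h2.tendsto
        rw [hq0] at h3
        exact h3.mono_left nhdsWithin_le_nhds
      · filter_upwards [self_mem_nhdsWithin] with v hv using hv.2
    exact (tendsto_cocompact hρ (ζ₀ := (T : ℂ)) (x₀ := x₀) (by rw [hT, ofReal_re])).comp h1

end Vale.Agent.P253.R2.H156
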