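import Vale.Agent.P253.R2.H922.Etale
import Vale.Agent.P253.R2.H445.Defs

/-!
P253, VF: a holomorphic action of `ℂ` on a Riemann domain `q : M → E` which is the lift of a
contracting linear flow makes `q` a biholomorphism.
-/

open scoped Manifold ContDiff Topology
open Set Metric Filter Complex Vale.Agent.P253.R2.H922

set_option linter.unusedSectionVars false

noncomputable section

namespace Vale.Agent.P253.R2.H156

section lin

variable {E : Type*} [NormedAddCommGroup E] [NormedSpace ℂ E]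

/-- the linear flow `exp (-ζ A)` -/
def lf (A : E →L[ℂ] E) (ζ : ℂ) : E →L[ℂ] E := NormedSpace.exp (-(ζ • A))

variable [CompleteSpace E]

theorem lf_zero (A : E →L[ℂ] E) : lf A 0 = ContinuousLinearMap.id ℂ E := by
  simp [lf, NormedSpace.exp_zero]; rfl

theorem lf_add (A : E →L[ℂ] E) (s t : ℂ) (z : E) : lf A (s + t) z = lf A s (lf A t z) := by
  let _ : NormedAlgebra ℚ (E →L[ℂ] E) := NormedAlgebra.restrictScalars ℚ ℂ _
  have hc : Commute (-(s • A)) (-(t • A)) :=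
    (((Commute.refl A).smul_right t).smul_left s).neg_left.neg_right
  have := NormedSpace.exp_add_of_commute hc
  unfold lf
  rw [show -((s + t) • A) = -(s • A) + -(t • A) by rw [add_smul]; abel, this]
  rfl

theorem lf_neg_lf (A : E →L[ℂ] E) (s : ℂ) (z : E) : lf A (-s) (lf A s z) = z := by
  rw [← lf_add, neg_add_cancel, lf_zero]; rfl

theorem lf_lf_neg (A : E →L[ℂ] E) (s : ℂ) (z : E) : lf A s (lf A (-s) z) = z := by
  rw [← lf_add, add_neg_cancel, lf_zero]; rfl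

theorem hasDerivAt_lf (A : E →L[ℂ] E) (ζ : ℂ) :
    HasDerivAt (fun w => lf A w) (-A * lf A ζ) ζ := by
  have h1 : HasDerivAt (fun w : ℂ => NormedSpace.exp (w • (-A)))
      (-A * NormedSpace.exp (ζ • (-A))) ζ := hasDerivAt_exp_smul_const' (-A) ζ
  have e1 : (fun w : ℂ => lf A w) = fun w : ℂ => NormedSpace.exp (w • (-A)) := by
    funext w; simp [lf, smul_neg]
  have e2 : lf A ζ = NormedSpace.exp (ζ • (-A)) := by simp [lf, smul_neg]
  rw [e1, e2]; exact h1

/-- uniqueness for the linear equation `f' = -A f` on `ℂ` -/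
theorem eq_lf_of_hasDerivAt {A : E →L[ℂ] E} {f : ℂ → E} (hf : ∀ ζ, HasDerivAt f (-(A (f ζ))) ζ)
    (ζ : ℂ) : f ζ = lf A ζ (f 0) := by
  have h1 : ∀ w, HasDerivAt (fun w => lf A (-w) (f w)) 0 w := by
    intro w
    have h2 : HasDerivAt (fun w : ℂ => lf A (-w)) ((-1 : ℂ) • (-A * lf A (-w))) w :=
      (hasDerivAt_lf A (-w)).scomp w (hasDerivAt_neg w)
    have h3 := h2.clm_apply (hf w)
    convert h3 using 1
    have hcomm : (A * lf A (-w) : E →L[ℂ] E) = lf A (-w) * A := by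
      have : Commute A (-(-w • A)) := ((Commute.refl A).smul_right (-w)).neg_right
      exact (this.exp_right).eq
    have h4 : A (lf A (-w) (f w)) = lf A (-w) (A (f w)) := by
      simpa using congrArg (fun L : E →L[ℂ] E => L (f w)) hcomm
    simp [h4]
  have h5 : (fun w => lf A (-w) (f w)) ζ = (fun w => lf A (-w) (f w)) 0 :=
    is_const_of_deriv_eq_zero (fun w => (h1 w).differentiableAt) (fun w => (h1 w).deriv) ζ 0
  simp only [neg_zero, lf_zero, ContinuousLinearMap.id_apply] at h5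
  rw [← h5, lf_lf_neg]

omit [CompleteSpace E] in
/-- in finite dimension pointwise convergence of operators to `0` is convergence in norm -/
theorem tendsto_norm_of_pointwise [FiniteDimensional ℂ E] {ι : Type*} {l : Filter ι}
    {T : ι → E →L[ℂ] E} (h : ∀ z, Tendsto (fun i => T i z) l (𝓝 0)) :
    Tendsto (fun i => ‖T i‖) l (𝓝 0) := by
  let v := Module.finBasis ℂ E
  obtain ⟨C, hC, hv⟩ := v.exists_opNorm_le (F := E)
  rw [Metric.tendsto_nhds]
  intro ε hε
  have h1 : ∀ᶠ i in l, ∀ j, ‖T i (v j)‖ < ε / (2 * C) := by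
    rw [eventually_all]
    intro j
    have := (h (v j)).norm
    simp only [norm_zero] at this
    exact this.eventually_lt_const (by positivity)
  filter_upwards [h1] with i hi
  have h2 := hv (by positivity) (fun j => (hi j).le)
  rw [dist_zero_right, norm_norm]
  calc ‖T i‖ ≤ C * (ε / (2 * C)) := h2
    _ = ε / 2 := by field_simp
    _ < ε := by linarith

end lin

section flow

variable {E : Type*} [NormedAddCommGroup E] [NormedSpace ℂ E] [FiniteDimensional ℂ E]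
  {M : Type*} [TopologicalSpace M] [ChartedSpace E M] [IsManifold 𝓘(ℂ, E) 1 M]

/-- the flow in the coordinates of `q` solves the linear equation -/
theorem q_flow {q : M → E} (hq : MDifferentiable 𝓘(ℂ, E) 𝓘(ℂ, E) q) {A : E →L[ℂ] E}
    {ψ : ℂ → M → M} (hψ : IsHolCFlow E ψ)
    (hd : ∀ x, mfderiv 𝓘(ℂ, E) 𝓘(ℂ, E) q x
      (mfderiv 𝓘(ℂ, ℂ) 𝓘(ℂ, E) (fun ζ => ψ ζ x) 0 (1 : ℂ)) = -(A (q x)))
    (ζ : ℂ) (x : M) : q (ψ ζ x) = lf A ζ (q x) := by
  have hcurve : ∀ x, MDifferentiableAt 𝓘(ℂ, ℂ) 𝓘(ℂ, E) (fun ζ => ψ ζ x) 0 := by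
    intro x
    have h1 : MDifferentiable (𝓘(ℂ, ℂ).prod 𝓘(ℂ, E)) 𝓘(ℂ, E) (fun q : ℂ × M => ψ q.1 q.2) :=
      hψ.holo.mdifferentiable (by norm_num)
    exact (h1 (0, x)).comp 0 ((mdifferentiableAt_id).prodMk mdifferentiableAt_const)
  have hder : ∀ x, HasDerivAt (fun ζ => q (ψ ζ x)) (-(A (q x))) 0 := by
    intro x
    have h2 := HasMFDerivAt.comp (0 : ℂ) (hq (ψ 0 x)).hasMFDerivAt (hcurve x).hasMFDerivAt
    have key : ∃ L : ℂ →L[ℂ] E, HasFDerivAt (fun ζ => q (ψ ζ x)) L 0 ∧ L 1 = -(A (q x)) := by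
      refine ⟨_, hasMFDerivAt_iff_hasFDerivAt.1 h2, ?_⟩
      have h6 : ψ 0 x = x := hψ.zero x
      have h7 := congrArg (fun y => (mfderiv 𝓘(ℂ, E) 𝓘(ℂ, E) q y : E → E)
        (mfderiv 𝓘(ℂ, ℂ) 𝓘(ℂ, E) (fun ζ => ψ ζ x) 0 (1 : ℂ) : E)) h6
      exact h7.trans (hd x)
    obtain ⟨L, hL, hL1⟩ := key
    rw [← hL1]
    exact hL.hasDerivAt
  have hf : ∀ ζ, HasDerivAt (fun ζ => q (ψ ζ x)) (-(A (q (ψ ζ x)))) ζ := by
    intro ζ
    have h4 := hder (ψ ζ x)
    have h5 : HasDerivAt (fun w : ℂ => w - ζ) 1 ζ := (hasDerivAt_id ζ).sub_const ζ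
    have h6 : HasDerivAt (fun w => q (ψ w (ψ ζ x))) (-(A (q (ψ ζ x)))) (ζ - ζ) := by
      rw [sub_self]; exact h4
    have h7 := HasDerivAt.scomp (h := fun w : ℂ => w - ζ) ζ h6 h5
    rw [one_smul] at h7
    convert h7 using 1
    funext w
    simp only [Function.comp_apply]
    rw [← hψ.add, sub_add_cancel]
  have := eq_lf_of_hasDerivAt hf ζ
  rw [hψ.zero] at this
  exact this

/-- a point over `0` is fixed by the flow -/
theorem flow_fixed [T2Space M] {q : M → E} (hq : IsLocalHomeomorph q) {A : E →L[ℂ] E}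
    {ψ : ℂ → M → M} (hψ : IsHolCFlow E ψ) (hl : ∀ ζ x, q (ψ ζ x) = lf A ζ (q x))
    {p : M} (hp : q p = 0) (ζ : ℂ) : ψ ζ p = p := by
  have hc : Continuous fun ζ => ψ ζ p :=
    hψ.holo.continuous.comp (by fun_prop : Continuous fun ζ : ℂ => (ζ, p))
  have h0 : (fun ζ => ψ ζ p) 0 = (fun _ => p) 0 := hψ.zero p
  have := (T2Space.isSeparatedMap q).eq_of_comp_eq hq.isLocallyInjective hc continuous_const
    (by funext ζ; simp [hl, hp]) 0 h0
  exact congrFun this ζ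

/-- the section radii at a point over `0` are unbounded -/
theorem mem_radii_of_flow [T2Space M] {q : M → E} (hq : IsLocalHomeomorph q) {A : E →L[ℂ] E}
    (hA : ∀ z, Tendsto (fun t : ℝ => lf A t z) atTop (𝓝 0))
    {ψ : ℂ → M → M} (hψ : IsHolCFlow E ψ) (hl : ∀ ζ x, q (ψ ζ x) = lf A ζ (q x))
    {p : M} (hp : q p = 0) (R : ℝ) : R ∈ radii q p := by
  obtain ⟨r, hr, σ, hσ, hσp⟩ := exists_pos_mem_radii hq p
  rw [hp] at hσ hσp
  rcases le_or_gt R 0 with hR | hR
  · exact radii_mono (zero_mem_radii p) hR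
  have h1 := tendsto_norm_of_pointwise hA
  obtain ⟨t, ht⟩ := ((h1.eventually_lt_const (u := r / R) (by positivity)).and
    (eventually_ge_atTop (0 : ℝ))).exists
  have hmap : ∀ z ∈ ball (0 : E) R, lf A t z ∈ ball (0 : E) r := by
    intro z hz
    rw [mem_ball_zero_iff] at hz ⊢
    calc ‖lf A t z‖ ≤ ‖lf A t‖ * ‖z‖ := (lf A t).le_opNorm z
      _ ≤ r / R * ‖z‖ := by gcongr; exact ht.1.le
      _ < r / R * R := by gcongr
      _ = r := by field_simp
  refine ⟨fun z => ψ (-(t : ℂ)) (σ (lf A t z)), ?_, ?_⟩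
  · rw [hp]
    constructor
    · have hc : Continuous (ψ (-(t : ℂ))) :=
        hψ.holo.continuous.comp (by fun_prop : Continuous fun x : M => ((-(t : ℂ)), x))
      exact hc.comp_continuousOn (hσ.1.comp (lf A t).continuous.continuousOn hmap)
    · intro z hz
      rw [hl, hσ.2 _ (hmap z hz), lf_neg_lf]
  · rw [hp]
    simp only [map_zero]
    rw [hσp, flow_fixed hq hψ hl hp]

/-- a Riemann domain with a point over `0` and with a `ℂ`-action lifting a contracting linear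
flow is biholomorphic to `E` -/
theorem diffeo_of_flow [T2Space M] [PreconnectedSpace M] {q : M → E}
    (hq : IsLocalDiffeomorph 𝓘(ℂ, E) 𝓘(ℂ, E) 1 q) {A : E →L[ℂ] E}
    (hA : ∀ z, Tendsto (fun t : ℝ => lf A t z) atTop (𝓝 0))
    {ψ : ℂ → M → M} (hψ : IsHolCFlow E ψ)
    (hd : ∀ x, mfderiv 𝓘(ℂ, E) 𝓘(ℂ, E) q x
      (mfderiv 𝓘(ℂ, ℂ) 𝓘(ℂ, E) (fun ζ => ψ ζ x) 0 (1 : ℂ)) = -(A (q x)))
    {p : M} (hp : q p = 0) :
    ∃ F : M ≃ₘ^1⟮𝓘(ℂ, E), 𝓘(ℂ, E)⟯ E, ∀ x, F x = q x := by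
  have hm : MDifferentiable 𝓘(ℂ, E) 𝓘(ℂ, E) q := hq.contMDiff.mdifferentiable (by norm_num)
  have hl := q_flow hm hψ hd
  refine exists_diffeo_of_not_bddAbove hq (y := p) ?_
  rintro ⟨b, hb⟩
  have := hb (mem_radii_of_flow hq.isLocalHomeomorph hA hψ hl hp (b + 1))
  linarith

end flow

end Vale.Agent.P253.R2.H156
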