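import Vale.Agent.P253.R2.H156.Orb

/-!
P253: the partial complex-time flow is holomorphic on an open domain.
-/

open scoped Manifold ContDiff Topology
open Set Metric Complex Filter IsManifold Vale.Agent.P253.Mfd

set_option maxSynthPendingDepth 3
set_option linter.unusedSectionVars false

noncomputable section

namespace Vale.Agent.P253.R2.H156

variable {E : Type*} [NormedAddCommGroup E] [NormedSpace ℂ E] [FiniteDimensional ℂ E]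
  {M : Type*} [MetricSpace M] [ChartedSpace E M]
  [IsManifold 𝓘(ℂ, E) 1 M] [IsManifold 𝓘(ℝ, E) ∞ M]
  {ρ : ℝ → M → M}

variable (E) in
/-- good points: the partial flow is holomorphic near the point -/
def QF (ρ : ℝ → M → M) : Set (ℂ × M) :=
  {q | ∀ᶠ p in 𝓝 q, p ∈ DF E ρ ∧
    MDifferentiableAt (𝓘(ℂ, ℂ).prod 𝓘(ℂ, E)) 𝓘(ℂ, E) (fun q : ℂ × M => FF E ρ q.1 q.2) p}

theorem isOpen_QF : IsOpen (QF E ρ) := isOpen_setOfPred_eventually_nhds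

theorem exists_local_FF (hρ : IsHolFlow E ρ) (x₀ : M) :
    ∃ δ > 0, ∃ U : Set M, IsOpen U ∧ x₀ ∈ U ∧ U ⊆ (chartAt E x₀).source ∧
      (∀ x ∈ U, ∀ ζ : ℂ, |ζ.re| < δ → (ζ, x) ∈ DF E ρ ∧ (ζ, x) ∈ QF E ρ) ∧
      (∀ x ∈ U, FF E ρ 0 x = x) ∧
      ∀ x ∈ U, HasDerivAt (fun ζ => chartAt E x₀ (FF E ρ ζ x))
        (vF ρ (chartAt E x₀) (chartAt E x₀ x)) 0 := by
  obtain ⟨δ, hδ, U, hU, hx₀, hUs, H, hH0, hHe, hHd, hHv⟩ := exists_local hρ x₀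
  have hs : ∀ {ζ : ℂ}, ζ ∈ strip (-δ) δ ↔ |ζ.re| < δ := fun {ζ} => by rw [abs_lt]; exact Iff.rfl
  have hEq : ∀ x ∈ U, IsEq E ρ (-δ) δ (fun ζ => H ζ x) := by
    intro x hx
    refine ⟨fun ζ hζ => ?_, fun ζ _ θ => hHe x hx ζ θ⟩
    have h1 := hHd ζ (hs.1 hζ) x hx
    have h2 : MDifferentiableAt 𝓘(ℂ, ℂ) (𝓘(ℂ, ℂ).prod 𝓘(ℂ, E)) (fun ζ : ℂ => (ζ, x)) ζ :=
      mdifferentiableAt_id.prodMk mdifferentiableAt_const
    exact MDifferentiableAt.comp ζ (g := fun q : ℂ × M => H q.1 q.2) (f := fun ζ : ℂ => (ζ, x))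
      h1 h2
  have h0 : (0 : ℂ) ∈ strip (-δ) δ := hs.2 (by simpa using hδ)
  have hF : ∀ x ∈ U, ∀ ζ : ℂ, |ζ.re| < δ → (ζ, x) ∈ DF E ρ ∧ FF E ρ ζ x = H ζ x :=
    fun x hx ζ hζ => FF_eq' (hEq x hx) h0 (hH0 x hx) (hs.2 hζ)
  have hopen : IsOpen {q : ℂ × M | |q.1.re| < δ ∧ q.2 ∈ U} :=
    (isOpen_lt (f := fun q : ℂ × M => |q.1.re|) (by fun_prop) continuous_const).inter
      (hU.preimage continuous_snd)
  refine ⟨δ, hδ, U, hU, hx₀, hUs, fun x hx ζ hζ => ⟨(hF x hx ζ hζ).1, ?_⟩, fun x hx => ?_,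
    fun x hx => ?_⟩
  · have h1 : ∀ᶠ p in 𝓝 (ζ, x), p ∈ {q : ℂ × M | |q.1.re| < δ ∧ q.2 ∈ U} :=
      hopen.mem_nhds ⟨hζ, hx⟩
    filter_upwards [h1] with p hp
    refine ⟨(hF p.2 hp.2 p.1 hp.1).1, ?_⟩
    refine (hHd p.1 hp.1 p.2 hp.2).congr_of_eventuallyEq ?_
    filter_upwards [hopen.mem_nhds hp] with q hq
    exact (hF q.2 hq.2 q.1 hq.1).2
  · rw [(hF x hx 0 (by simpa using hδ)).2, hH0 x hx]
  · refine (hHv x hx).congr_of_eventuallyEq ?_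
    filter_upwards [(isOpen_strip (-δ) δ).mem_nhds h0] with ζ hζ
    rw [(hF x hx ζ (hs.1 hζ)).2]

theorem zero_mem_DF (hρ : IsHolFlow E ρ) (x : M) : ((0 : ℂ), x) ∈ DF E ρ := by
  obtain ⟨δ, hδ, U, hU, hx, -, h1, -⟩ := exists_local_FF hρ x
  exact (h1 x hx 0 (by simpa using hδ)).1

theorem FF_zero (hρ : IsHolFlow E ρ) (x : M) : FF E ρ 0 x = x := by
  obtain ⟨δ, hδ, U, hU, hx, -, -, h1, -⟩ := exists_local_FF hρ x
  exact h1 x hx

theorem FF_I (hρ : IsHolFlow E ρ) (θ : ℝ) (x : M) : FF E ρ (θ * I) x = ρ θ x := by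
  have h := FF_im (zero_mem_DF hρ x) θ
  rwa [zero_add, FF_zero hρ] at h

theorem mdiff_slice {ζ : ℂ} {x : M} (h : (ζ, x) ∈ QF E ρ) :
    MDifferentiableAt 𝓘(ℂ, E) 𝓘(ℂ, E) (FF E ρ ζ) x := by
  have h1 := h.self_of_nhds.2
  have h2 : MDifferentiableAt 𝓘(ℂ, E) (𝓘(ℂ, ℂ).prod 𝓘(ℂ, E)) (fun x : M => (ζ, x)) x :=
    mdifferentiableAt_const.prodMk mdifferentiableAt_id
  exact MDifferentiableAt.comp x (g := fun q : ℂ × M => FF E ρ q.1 q.2)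
    (f := fun x : M => (ζ, x)) h1 h2

/-- every point of the domain is good -/
theorem DF_subset_QF (hρ : IsHolFlow E ρ) : DF E ρ ⊆ QF E ρ := by
  rintro ⟨ζ, x⟩ hζx
  obtain ⟨a, b, f, hf, h0, hζ, hx, hF⟩ := exists_orb hζx
  set Z : Set ℝ := {s | ((s : ℂ) * ζ, x) ∈ QF E ρ} with hZ
  have hZo : IsOpen Z := by
    have hc : Continuous (fun s : ℝ => ((s : ℂ) * ζ, x)) := by fun_prop
    exact isOpen_QF.preimage hc
  have hstrip : ∀ s ∈ Icc (0:ℝ) 1, (s : ℂ) * ζ ∈ strip a b := by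
    intro s hs
    rw [mem_strip] at h0 hζ ⊢
    simp only [re_ofReal_mul]
    simp only [zero_re] at h0
    constructor
    · rcases le_or_gt 0 ζ.re with h | h
      · have := mul_nonneg hs.1 h
        linarith [h0.1]
      · nlinarith [hs.1, hs.2, hζ.1]
    · rcases le_or_gt ζ.re 0 with h | h
      · have := mul_nonpos_of_nonneg_of_nonpos hs.1 h
        linarith [h0.2]
      · nlinarith [hs.1, hs.2, hζ.2]
  have hsub : Icc (0:ℝ) 1 ⊆ Z := by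
    refine isPreconnected_Icc.subset_of_closure_inter_subset hZo ⟨0, ⟨le_rfl, zero_le_one⟩, ?_⟩ ?_
    · obtain ⟨δ, hδ, U, hU, hx, -, h1, -⟩ := exists_local_FF hρ x
      simp only [hZ, mem_ofPred_eq, ofReal_zero, zero_mul]
      exact (h1 x hx 0 (by simpa using hδ)).2
    · rintro s₁ ⟨hcl, hs₁⟩
      obtain ⟨δ, hδ, U, hU, hyU, -, hloc, -⟩ := exists_local_FF hρ (f ((s₁ : ℂ) * ζ))
      -- a good time close to `s₁`
      have hfc : ContinuousAt (fun s : ℝ => f ((s : ℂ) * ζ)) s₁ := by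
        have h1 : ContinuousAt f ((s₁ : ℂ) * ζ) := (hf.diff _ (hstrip s₁ hs₁)).continuousAt
        have h2 : ContinuousAt (fun s : ℝ => (s : ℂ) * ζ) s₁ := by fun_prop
        exact ContinuousAt.comp (g := f) (f := fun s : ℝ => (s : ℂ) * ζ) h1 h2
      have hev1 : ∀ᶠ s : ℝ in 𝓝 s₁, f ((s : ℂ) * ζ) ∈ U := hfc.eventually (hU.mem_nhds hyU)
      have hev2 : ∀ᶠ s : ℝ in 𝓝 s₁, |((s₁ : ℂ) * ζ - (s : ℂ) * ζ).re| < δ := by
        have h1 : Continuous (fun s : ℝ => |((s₁ : ℂ) * ζ - (s : ℂ) * ζ).re|) := by fun_prop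
        have h2 := h1.tendsto s₁
        simp only [sub_self, zero_re, abs_zero] at h2
        exact h2.eventually (gt_mem_nhds hδ)
      have hev3 : ∀ᶠ s : ℝ in 𝓝 s₁, (s : ℂ) * ζ ∈ strip a b := by
        have h2 : ContinuousAt (fun s : ℝ => (s : ℂ) * ζ) s₁ := by fun_prop
        exact h2.eventually ((isOpen_strip a b).mem_nhds (hstrip s₁ hs₁))
      obtain ⟨s, ⟨⟨h1, h2⟩, h3⟩, hsZ⟩ :=
        mem_closure_iff_nhds.1 hcl _ ((hev1.and hev2).and hev3)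
      set w₀ : ℂ := (s : ℂ) * ζ with hw₀
      have hFs : FF E ρ w₀ x = f w₀ := (hF _ h3).2
      set R : Set (ℂ × M) := {p | |p.1.re| < δ ∧ p.2 ∈ U} with hR
      have hRo : IsOpen R :=
        (isOpen_lt (f := fun q : ℂ × M => |q.1.re|) (by fun_prop) continuous_const).inter
          (hU.preimage continuous_snd)
      set Q' : Set M := {x' | (w₀, x') ∈ QF E ρ} with hQ'
      have hQ'o : IsOpen Q' := isOpen_QF.preimage (by fun_prop)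
      set Ψ : ℂ × M → ℂ × M := fun q => (q.1 - w₀, FF E ρ w₀ q.2) with hΨ
      have hΨd : ∀ q : ℂ × M, q.2 ∈ Q' →
          MDifferentiableAt (𝓘(ℂ, ℂ).prod 𝓘(ℂ, E)) (𝓘(ℂ, ℂ).prod 𝓘(ℂ, E)) Ψ q := by
        intro q hq
        have h4 : MDifferentiableAt 𝓘(ℂ, ℂ) 𝓘(ℂ, ℂ) (fun ζ : ℂ => ζ - w₀) q.1 :=
          (differentiableAt_id.sub_const w₀).mdifferentiableAt
        exact (MDifferentiableAt.comp q (f := Prod.fst) (g := fun ζ : ℂ => ζ - w₀) h4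
          mdifferentiableAt_fst).prodMk
          (MDifferentiableAt.comp q (f := Prod.snd) (g := FF E ρ w₀) (mdiff_slice hq)
            mdifferentiableAt_snd)
      have hΨc : ContinuousOn Ψ {q | q.2 ∈ Q'} := fun q hq =>
        (hΨd q hq).continuousAt.continuousWithinAt
      have hGo : IsOpen ({q : ℂ × M | q.2 ∈ Q'} ∩ Ψ ⁻¹' R) :=
        hΨc.isOpen_inter_preimage (hQ'o.preimage continuous_snd) hRo
      have hmem : ((s₁ : ℂ) * ζ, x) ∈ {q : ℂ × M | q.2 ∈ Q'} ∩ Ψ ⁻¹' R := by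
        refine ⟨hsZ, h2, ?_⟩
        simp only [hΨ]
        rw [hFs]
        exact h1
      have hDG : ∀ q ∈ {q : ℂ × M | q.2 ∈ Q'} ∩ Ψ ⁻¹' R,
          q ∈ DF E ρ ∧ FF E ρ q.1 q.2 = FF E ρ (Ψ q).1 (Ψ q).2 := by
        rintro q ⟨hq1, hq2⟩
        have h4 : (w₀, q.2) ∈ DF E ρ := (Filter.Eventually.self_of_nhds hq1).1
        have h5 : (q.1 - w₀, FF E ρ w₀ q.2) ∈ DF E ρ := (hloc _ hq2.2 _ hq2.1).1
        have h6 := FF_add h4 h5
        rw [sub_add_cancel] at h6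
        exact h6
      change ∀ᶠ p in 𝓝 ((s₁ : ℂ) * ζ, x), _
      filter_upwards [hGo.mem_nhds hmem] with p hp
      refine ⟨(hDG p hp).1, ?_⟩
      have h4 : MDifferentiableAt (𝓘(ℂ, ℂ).prod 𝓘(ℂ, E)) 𝓘(ℂ, E)
          (fun q : ℂ × M => FF E ρ q.1 q.2) (Ψ p) :=
        (Filter.Eventually.self_of_nhds (hloc _ hp.2.2 _ hp.2.1).2).2
      refine (MDifferentiableAt.comp p (g := fun q : ℂ × M => FF E ρ q.1 q.2) (f := Ψ) h4
        (hΨd p hp.1)).congr_of_eventuallyEq ?_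
      filter_upwards [hGo.mem_nhds hp] with q hq
      exact (hDG q hq).2
  have h1 := hsub (show (1:ℝ) ∈ Icc (0:ℝ) 1 from ⟨zero_le_one, le_rfl⟩)
  simpa only [hZ, mem_ofPred_eq, ofReal_one, one_mul] using h1

theorem isOpen_DF (hρ : IsHolFlow E ρ) : IsOpen (DF E ρ) := by
  rw [isOpen_iff_mem_nhds]
  intro q hq
  filter_upwards [DF_subset_QF hρ hq] with p hp using hp.1

theorem mdiff_FF (hρ : IsHolFlow E ρ) {q : ℂ × M} (hq : q ∈ DF E ρ) :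
    MDifferentiableAt (𝓘(ℂ, ℂ).prod 𝓘(ℂ, E)) 𝓘(ℂ, E) (fun q : ℂ × M => FF E ρ q.1 q.2) q :=
  (Filter.Eventually.self_of_nhds (DF_subset_QF hρ hq)).2

end Vale.Agent.P253.R2.H156
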