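import Vale.Agent.P253.R2.H156.Dom

/-!
P253: escape time of the complex-time flow.
-/

open scoped Manifold ContDiff Topology
open Set Metric Complex Filter IsManifold Vale.Agent.P253.Mfd

set_option maxSynthPendingDepth 3
set_option linter.unusedSectionVars false

noncomputable section

namespace Vale.Agent.P253.R2.H156

variable {E : Type*} [NormedAddCommGroup E] [NormedSpace ℂ E] [FiniteDimensional ℂ E]
  {M : Type*} [MetricSpace M] [ChartedSpace E M]
  [IsManifold 𝓘(ℂ, E) 1 M] [IsManifold 𝓘(ℝ, E) ∞ M]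
  {ρ : ℝ → M → M}

variable (E) in
/-- forward escape time of the complex-time flow -/
def ep (ρ : ℝ → M → M) (x : M) : EReal := ⨆ (t : ℝ) (_ : ((t : ℂ), x) ∈ DF E ρ), (t : EReal)

theorem lt_ep_iff {t : ℝ} (ht : 0 ≤ t) {x : M} :
    (t : EReal) < ep E ρ x ↔ ((t : ℂ), x) ∈ DF E ρ := by
  constructor
  · intro h
    rw [ep, lt_iSup_iff] at h
    obtain ⟨s, hs⟩ := h
    rw [lt_iSup_iff] at hs
    obtain ⟨hD, hs⟩ := hs
    have hts : t < s := by exact_mod_cast hs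
    obtain ⟨a, b, f, hf, h0, hb, hx⟩ := hD
    refine ⟨a, b, f, hf, h0, ?_, hx⟩
    rw [mem_strip] at h0 hb ⊢
    simp only [zero_re, ofReal_re] at h0 hb ⊢
    exact ⟨h0.1.trans_le ht, hts.trans hb.2⟩
  · rintro ⟨a, b, f, hf, h0, hb, hx⟩
    rw [mem_strip, ofReal_re] at hb
    obtain ⟨s, hs1, hs2⟩ := exists_between hb.2
    have hD : ((s : ℂ), x) ∈ DF E ρ := by
      refine ⟨a, b, f, hf, h0, ?_, hx⟩
      rw [mem_strip, ofReal_re]
      exact ⟨hb.1.trans hs1, hs2⟩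
    have h1 : (s : EReal) ≤ ep E ρ x := le_iSup₂ (f := fun (t : ℝ)
      (_ : ((t : ℂ), x) ∈ DF E ρ) => (t : EReal)) s hD
    exact (EReal.coe_lt_coe_iff.2 hs1).trans_le h1

theorem mem_DF_iff {ζ : ℂ} (hζ : 0 ≤ ζ.re) {x : M} :
    (ζ, x) ∈ DF E ρ ↔ (ζ.re : EReal) < ep E ρ x := by
  rw [lt_ep_iff hζ]
  exact ⟨fun h => DF_re h (by simp), fun h => DF_re h (by simp)⟩

theorem ep_pos (hρ : IsHolFlow E ρ) (x : M) : 0 < ep E ρ x := by
  have h := (lt_ep_iff (E := E) (ρ := ρ) (x := x) le_rfl).2 (by simpa using zero_mem_DF hρ x)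
  simpa using h

theorem lsc_ep (hρ : IsHolFlow E ρ) : LowerSemicontinuous (ep E ρ) := by
  intro x y hy
  obtain ⟨t, ht1, ht2⟩ := EReal.lt_iff_exists_real_btwn.1 hy
  have h1 : ((max t 0 : ℝ) : EReal) < ep E ρ x := by
    rcases le_total t 0 with h | h
    · rw [max_eq_right h]
      simpa using ep_pos hρ x
    · rwa [max_eq_left h]
  rw [lt_ep_iff (le_max_right t 0)] at h1
  have h2 : ContinuousAt (fun x' : M => (((max t 0 : ℝ) : ℂ), x')) x := by fun_prop
  filter_upwards [h2.preimage_mem_nhds ((isOpen_DF hρ).mem_nhds h1)] with x' hx'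
  have h3 := (lt_ep_iff (le_max_right t 0)).2 hx'
  refine (ht1.trans_le ?_).trans h3
  exact_mod_cast le_max_left t 0

/-- At the escape time the flow diverges. -/
theorem tendsto_cocompact (hρ : IsHolFlow E ρ) {ζ₀ : ℂ} {x₀ : M}
    (h : ep E ρ x₀ = (ζ₀.re : EReal)) :
    Tendsto (fun q : ℂ × M => FF E ρ q.1 q.2) (𝓝[DF E ρ] (ζ₀, x₀)) (cocompact M) := by
  have hpos : 0 < ζ₀.re := by
    have := ep_pos hρ x₀
    rw [h] at this
    exact_mod_cast this
  by_contra hcon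
  rw [hasBasis_cocompact.tendsto_right_iff] at hcon
  push Not at hcon
  obtain ⟨K, hK, hfr⟩ := hcon
  have hfr' : ∃ᶠ q in 𝓝[DF E ρ] (ζ₀, x₀), FF E ρ q.1 q.2 ∈ K := by
    refine hfr.mono fun q hq => ?_
    simpa using hq
  obtain ⟨y, -, hy⟩ := hK.exists_mapClusterPt_of_frequently hfr'
  obtain ⟨δ, hδ, U, hU, hyU, -, hloc, -⟩ := exists_local_FF hρ y
  set η : ℝ := min δ ζ₀.re / 2 with hη
  have hη0 : 0 < η := by have := lt_min hδ hpos; positivity
  have hηδ : η < δ := by have := min_le_left δ ζ₀.re; linarith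
  have hηζ : η < ζ₀.re := by have := min_le_right δ ζ₀.re; linarith
  -- the point slightly before the escape time
  have hD1 : (ζ₀ - η, x₀) ∈ DF E ρ := by
    rw [mem_DF_iff (by simp; linarith), h]
    simp only [sub_re, ofReal_re]
    exact_mod_cast (by linarith : ζ₀.re - η < ζ₀.re)
  have hym : (((-η : ℝ) : ℂ), y) ∈ DF E ρ ∧ (((-η : ℝ) : ℂ), y) ∈ QF E ρ :=
    hloc y hyU _ (by simpa [abs_of_pos hη0] using hηδ)
  have hyp : (((η : ℝ) : ℂ), y) ∈ DF E ρ :=
    (hloc y hyU _ (by simpa [abs_of_pos hη0] using hηδ)).1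
  -- identification of the two limits
  have hg1 : Tendsto (fun q : ℂ × M => FF E ρ (q.1 - η) q.2) (𝓝[DF E ρ] (ζ₀, x₀))
      (𝓝 (FF E ρ (ζ₀ - η) x₀)) := by
    have h1 : ContinuousAt (fun q : ℂ × M => FF E ρ q.1 q.2) (ζ₀ - η, x₀) :=
      (mdiff_FF hρ hD1).continuousAt
    have h2 : ContinuousAt (fun q : ℂ × M => (q.1 - η, q.2)) (ζ₀, x₀) := by fun_prop
    exact (ContinuousAt.comp (g := fun q : ℂ × M => FF E ρ q.1 q.2)
      (f := fun q : ℂ × M => (q.1 - (η : ℂ), q.2)) h1 h2).tendsto.mono_left nhdsWithin_le_nhds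
  have hg2 : MapClusterPt (FF E ρ ((-η : ℝ) : ℂ) y) (𝓝[DF E ρ] (ζ₀, x₀))
      ((FF E ρ ((-η : ℝ) : ℂ)) ∘ fun q : ℂ × M => FF E ρ q.1 q.2) :=
    hy.continuousAt_comp (mdiff_slice hym.2).continuousAt
  have hev : ((FF E ρ ((-η : ℝ) : ℂ)) ∘ fun q : ℂ × M => FF E ρ q.1 q.2) =ᶠ[𝓝[DF E ρ] (ζ₀, x₀)]
      (fun q : ℂ × M => FF E ρ (q.1 - η) q.2) := by
    have h2 : ContinuousAt (fun q : ℂ × M => (q.1 - η, q.2)) (ζ₀, x₀) := by fun_prop
    have h3 : ∀ᶠ q : ℂ × M in 𝓝[DF E ρ] (ζ₀, x₀), (q.1 - η, q.2) ∈ DF E ρ :=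
      (h2.eventually ((isOpen_DF hρ).mem_nhds hD1)).filter_mono nhdsWithin_le_nhds
    filter_upwards [h3, self_mem_nhdsWithin] with q hq hqD
    have h4 : ((-η : ℝ) : ℂ) + q.1 = q.1 - η := by push_cast; ring
    have h5 : (((-η : ℝ) : ℂ) + q.1, q.2) ∈ DF E ρ := by rw [h4]; exact hq
    have h6 := FF_add hqD (DF_sub hqD h5)
    rw [h4] at h6
    exact h6.2.symm
  rw [hev.mapClusterPt_iff] at hg2
  obtain ⟨W, hW1, hW2⟩ := mapClusterPt_iff_ultrafilter.1 hg2
  have heq : FF E ρ ((-η : ℝ) : ℂ) y = FF E ρ (ζ₀ - η) x₀ :=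
    tendsto_nhds_unique hW2 (hg1.mono_left hW1)
  -- flow further
  have h1 : (((2 * η : ℝ) : ℂ), FF E ρ ((-η : ℝ) : ℂ) y) ∈ DF E ρ := by
    refine DF_sub hym.1 ?_
    have : ((2 * η : ℝ) : ℂ) + ((-η : ℝ) : ℂ) = ((η : ℝ) : ℂ) := by push_cast; ring
    rw [this]
    exact hyp
  rw [heq] at h1
  have h2 := (FF_add hD1 h1).1
  rw [mem_DF_iff (by simp; linarith), h] at h2
  simp only [add_re, ofReal_re, sub_re] at h2
  have h3 : 2 * η + (ζ₀.re - η) < ζ₀.re := by exact_mod_cast h2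
  linarith

/-- at a zero of the generator the escape time is infinite -/
theorem ep_eq_top_of_zero (hρ : IsHolFlow E ρ) {x₀ : M}
    (h : vF ρ (chartAt E x₀) (chartAt E x₀ x₀) = 0) : ep E ρ x₀ = ⊤ := by
  have he : chartAt E x₀ ∈ maximalAtlas 𝓘(ℂ, E) 1 M := chart_mem_maximalAtlas x₀
  set e := chartAt E x₀ with hedef
  have hx₀ : x₀ ∈ e.source := mem_chart_source E x₀
  have hc : Continuous (fun t : ℝ => ρ t x₀) := by
    have h1 : Continuous (fun t : ℝ => (t, x₀)) := by fun_prop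
    exact hρ.smooth.continuous.comp h1
  have hloc : IsLocallyConstant (fun t : ℝ => ρ t x₀) := by
    rw [IsLocallyConstant.iff_eventually_eq]
    intro t
    have he' : chartAt E (ρ t x₀) ∈ maximalAtlas 𝓘(ℂ, E) 1 M := chart_mem_maximalAtlas _
    set e' := chartAt E (ρ t x₀) with he'def
    have hev : ∀ᶠ s in 𝓝 t, ρ s x₀ ∈ e'.source :=
      hc.continuousAt.eventually (e'.open_source.mem_nhds (mem_chart_source E _))
    obtain ⟨r, hr, hball⟩ := Metric.eventually_nhds_iff_ball.1 hev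
    have hHΩ : ∀ s ∈ ball t r, (s, e x₀) ∈ HΩ ρ e e' := fun s hs =>
      ⟨e.map_source hx₀, by
        change ρ s (e.symm (e x₀)) ∈ e'.source
        rw [e.left_inv hx₀]; exact hball s hs⟩
    have hder : ∀ s ∈ ball t r, HasDerivAt (fun s => HF ρ e e' (s, e x₀)) 0 s := by
      intro s hs
      have h1 := hasDerivAt_HF_time hρ he' (hHΩ s hs)
      have h2 := xF_change hρ he he' (hHΩ s hs)
      have h3 : xF ρ e (e x₀) = 0 := by rw [← I_smul_vF, h, smul_zero]
      rw [h3, map_zero] at h2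
      rwa [← h2] at h1
    have hconst : ∀ s ∈ ball t r, HF ρ e e' (s, e x₀) = HF ρ e e' (t, e x₀) := by
      intro s hs
      refine (convex_ball t r).is_const_of_fderivWithin_eq_zero (𝕜 := ℝ)
        (f := fun s => HF ρ e e' (s, e x₀)) ?_ ?_ hs (mem_ball_self hr)
      · exact fun s hs => (hder s hs).differentiableAt.differentiableWithinAt
      · intro s hs
        rw [fderivWithin_of_isOpen isOpen_ball hs]
        have := (hder s hs).hasFDerivAt.fderiv
        rw [this]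
        simp
    filter_upwards [Metric.ball_mem_nhds t hr] with s hs
    have h1 := hconst s hs
    simp only [HF, e.left_inv hx₀] at h1
    exact e'.injOn (hball s hs) (hball t (mem_ball_self hr)) h1
  have hfix : ∀ t : ℝ, ρ t x₀ = x₀ := fun t => by
    rw [hloc.apply_eq_of_preconnectedSpace t 0, hρ.zero]
  have hEq : ∀ a b : ℝ, IsEq E ρ a b (fun _ => x₀) := fun a b =>
    ⟨fun ζ _ => mdifferentiableAt_const, fun ζ _ θ => (hfix θ).symm⟩
  rw [EReal.eq_top_iff_forall_lt]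
  intro t
  have h1 : ((max t 0 : ℝ) : EReal) < ep E ρ x₀ := by
    rw [lt_ep_iff (le_max_right t 0)]
    refine ⟨-1, max t 0 + 1, _, hEq _ _, ?_, ?_, rfl⟩
    · rw [mem_strip]; simp only [zero_re]
      exact ⟨by norm_num, by have := le_max_right t 0; linarith⟩
    · rw [mem_strip]; simp only [ofReal_re]
      exact ⟨by have := le_max_right t 0; linarith, by linarith⟩
  refine lt_of_le_of_lt ?_ h1
  exact_mod_cast le_max_left t 0

end Vale.Agent.P253.R2.H156
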