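import Mathlib

/-!
P253, VF: the gauge `Q ζ = - Re ((-ζ)^(1/4))` on `ℂ ∖ [0, ∞)`.
-/

open Complex Filter Topology Set

noncomputable section

namespace Vale.Agent.P253.R2.H156

/-- `ζ` is not a nonnegative real number -/
def OffRay (ζ : ℂ) : Prop := -ζ ∈ slitPlane

theorem offRay_iff {ζ : ℂ} : OffRay ζ ↔ ∀ t : ℝ, 0 ≤ t → ζ ≠ (t : ℂ) := by
  unfold OffRay
  rw [mem_slitPlane_iff_not_le_zero, Complex.le_def]
  constructor
  · rintro h t ht rfl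
    apply h
    simp [ht]
  · rintro h ⟨h1, h2⟩
    apply h ζ.re (by simpa using h1)
    apply Complex.ext
    · simp
    · simpa using h2

theorem isOpen_offRay : IsOpen {ζ : ℂ | OffRay ζ} :=
  isOpen_slitPlane.preimage continuous_neg

theorem OffRay.ne_zero {ζ : ℂ} (h : OffRay ζ) : ζ ≠ 0 := by
  have := slitPlane_ne_zero h
  simpa using this

theorem OffRay.smul {ζ : ℂ} (h : OffRay ζ) {t : ℝ} (ht : 0 < t) : OffRay ((t : ℂ) * ζ) := by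
  rw [offRay_iff] at h ⊢
  intro s hs he
  apply h (s / t) (by positivity)
  have : (t : ℂ) ≠ 0 := by exact_mod_cast ht.ne'
  push_cast
  rw [eq_div_iff this, mul_comm, he]

/-- the holomorphic function `-(-ζ)^(1/4)` on `ℂ ∖ [0,∞)` -/
def gq (ζ : ℂ) : ℂ := -((-ζ) ^ ((1 / 4 : ℝ) : ℂ))

/-- the gauge `-Re (-ζ)^(1/4)` on `ℂ ∖ [0,∞)` -/
def Qg (ζ : ℂ) : ℝ := (gq ζ).re

theorem hasDerivAt_gq {ζ : ℂ} (h : OffRay ζ) :
    HasDerivAt gq (((1 / 4 : ℝ) : ℂ) * (-ζ) ^ (((1 / 4 : ℝ) : ℂ) - 1)) ζ := by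
  have h1 : HasDerivAt (fun z : ℂ => -z) (-1) ζ := (hasDerivAt_id ζ).neg
  have h2 : HasDerivAt gq _ ζ := (h1.cpow_const (c := ((1 / 4 : ℝ) : ℂ)) h).neg
  convert h2 using 1
  ring

theorem differentiableAt_gq {ζ : ℂ} (h : OffRay ζ) : DifferentiableAt ℂ gq ζ :=
  (hasDerivAt_gq h).differentiableAt

theorem deriv_gq_ne_zero {ζ : ℂ} (h : OffRay ζ) : deriv gq ζ ≠ 0 := by
  rw [(hasDerivAt_gq h).deriv]
  have h0 : -ζ ≠ 0 := neg_ne_zero.2 h.ne_zero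
  refine mul_ne_zero (by norm_num) ?_
  rw [cpow_def_of_ne_zero h0]
  exact exp_ne_zero _

theorem differentiableOn_gq : DifferentiableOn ℂ gq {ζ | OffRay ζ} := fun _ h =>
  (differentiableAt_gq h).differentiableWithinAt

theorem analyticAt_gq {ζ : ℂ} (h : OffRay ζ) : AnalyticAt ℂ gq ζ :=
  differentiableOn_gq.analyticAt (isOpen_offRay.mem_nhds h)

theorem continuousAt_gq {ζ : ℂ} (h : OffRay ζ) : ContinuousAt gq ζ :=
  (differentiableAt_gq h).continuousAt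

theorem continuousAt_Qg {ζ : ℂ} (h : OffRay ζ) : ContinuousAt Qg ζ :=
  continuous_re.continuousAt.comp (continuousAt_gq h)

theorem gq_eq {ζ : ℂ} (h : ζ ≠ 0) :
    gq ζ = -((‖ζ‖ ^ (1 / 4 : ℝ) : ℝ) : ℂ) * exp ((arg (-ζ) / 4 : ℝ) * I) := by
  have h0 : -ζ ≠ 0 := neg_ne_zero.2 h
  have hn : 0 < ‖ζ‖ := norm_pos_iff.2 h
  unfold gq
  rw [cpow_def_of_ne_zero h0, Complex.log, norm_neg, Real.rpow_def_of_pos hn, neg_mul]
  push_cast
  rw [← Complex.exp_add]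
  congr 2
  ring

theorem Qg_eq {ζ : ℂ} (h : ζ ≠ 0) : Qg ζ = -(‖ζ‖ ^ (1 / 4 : ℝ) * Real.cos (arg (-ζ) / 4)) := by
  unfold Qg
  rw [gq_eq h, neg_mul, neg_re, re_ofReal_mul, exp_ofReal_mul_I_re]

theorem cos_arg_div_four (z : ℂ) : 1 / 2 ≤ Real.cos (arg z / 4) := by
  have h1 := neg_pi_lt_arg z
  have h2 := arg_le_pi z
  have hpi := Real.pi_pos
  rw [← Real.cos_pi_div_three, ← Real.cos_abs (arg z / 4)]
  apply Real.cos_le_cos_of_nonneg_of_le_pi (abs_nonneg _) (by linarith)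
  rw [abs_le]
  constructor <;> linarith

/-- the gauge is at most `-|ζ|^(1/4)/2` -/
theorem Qg_le {ζ : ℂ} (h : ζ ≠ 0) : Qg ζ ≤ -(‖ζ‖ ^ (1 / 4 : ℝ) / 2) := by
  rw [Qg_eq h]
  have h1 := cos_arg_div_four (-ζ)
  have h2 : (0 : ℝ) ≤ ‖ζ‖ ^ (1 / 4 : ℝ) := by positivity
  nlinarith

/-- the gauge is at least `-|ζ|^(1/4)` -/
theorem le_Qg {ζ : ℂ} (h : ζ ≠ 0) : -(‖ζ‖ ^ (1 / 4 : ℝ)) ≤ Qg ζ := by
  rw [Qg_eq h]
  have h1 := Real.cos_le_one (arg (-ζ) / 4)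
  have h2 : (0 : ℝ) ≤ ‖ζ‖ ^ (1 / 4 : ℝ) := by positivity
  nlinarith

theorem Qg_neg {ζ : ℂ} (h : ζ ≠ 0) : Qg ζ < 0 := by
  have h1 := Qg_le h
  have : (0 : ℝ) < ‖ζ‖ ^ (1 / 4 : ℝ) := Real.rpow_pos_of_pos (norm_pos_iff.2 h) _
  linarith

/-- homogeneity of the gauge on rays -/
theorem Qg_smul {ζ : ℂ} (h : ζ ≠ 0) {t : ℝ} (ht : 0 < t) :
    Qg ((t : ℂ) * ζ) = t ^ (1 / 4 : ℝ) * Qg ζ := by
  have h1 : (t : ℂ) * ζ ≠ 0 := mul_ne_zero (by exact_mod_cast ht.ne') h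
  rw [Qg_eq h1, Qg_eq h, norm_mul, Complex.norm_real, Real.norm_of_nonneg ht.le,
    Real.mul_rpow ht.le (norm_nonneg _), neg_mul_eq_mul_neg (t : ℂ) ζ, Complex.arg_real_mul _ ht]
  ring

/-- the gauge decreases along rays -/
theorem Qg_anti {ζ : ℂ} (h : ζ ≠ 0) {t : ℝ} (ht : 1 < t) : Qg ((t : ℂ) * ζ) < Qg ζ := by
  rw [Qg_smul h (by linarith)]
  have h1 := Qg_neg h
  have h2 : 1 < t ^ (1 / 4 : ℝ) := Real.one_lt_rpow ht (by norm_num)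
  nlinarith

theorem Qg_anti' {ζ : ℂ} (h : ζ ≠ 0) {t : ℝ} (ht : 1 ≤ t) : Qg ((t : ℂ) * ζ) ≤ Qg ζ := by
  rcases ht.eq_or_lt with rfl | ht
  · simp
  · exact (Qg_anti h ht).le

/-- `{Q ≥ -K}` is bounded -/
theorem norm_le_of_le_Qg {ζ : ℂ} {K : ℝ} (h : -K ≤ Qg ζ) : ‖ζ‖ ≤ (2 * K) ^ 4 := by
  rcases eq_or_ne ζ 0 with rfl | h0
  · simp; positivity
  have h1 := Qg_le h0
  have h2 : ‖ζ‖ ^ (1 / 4 : ℝ) ≤ 2 * K := by linarith
  calc ‖ζ‖ = (‖ζ‖ ^ (1 / 4 : ℝ)) ^ (4 : ℕ) := by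
        rw [← Real.rpow_natCast, ← Real.rpow_mul (norm_nonneg _)]; norm_num
    _ ≤ (2 * K) ^ 4 := by gcongr

/-- the gauge tends to `-∞` at infinity -/
theorem tendsto_Qg : Tendsto Qg (cocompact ℂ) atBot := by
  rw [tendsto_atBot]
  intro b
  have : ∀ᶠ ζ : ℂ in cocompact ℂ, (2 * |b|) ^ 4 < ‖ζ‖ :=
    (tendsto_norm_cocompact_atTop (E := ℂ)).eventually_gt_atTop _
  filter_upwards [this] with ζ hζ
  by_contra hb
  push Not at hb
  have := norm_le_of_le_Qg ((neg_abs_le b).trans hb.le)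
  linarith

/-- the gauge tends to `0` at `0` -/
theorem tendsto_Qg_zero : Tendsto Qg (𝓝[≠] 0) (𝓝 0) := by
  have h1 : Tendsto (fun ζ : ℂ => -(‖ζ‖ ^ (1 / 4 : ℝ))) (𝓝[≠] 0) (𝓝 0) := by
    have : ContinuousAt (fun ζ : ℂ => -(‖ζ‖ ^ (1 / 4 : ℝ))) 0 := by
      refine (ContinuousAt.rpow_const continuous_norm.continuousAt (Or.inr (by norm_num))).neg
    have h2 := this.tendsto
    simp only [norm_zero] at h2
    rw [Real.zero_rpow (by norm_num), neg_zero] at h2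
    exact h2.mono_left nhdsWithin_le_nhds
  refine tendsto_of_tendsto_of_tendsto_of_le_of_le' h1 tendsto_const_nhds ?_ ?_
  · filter_upwards [self_mem_nhdsWithin] with ζ hζ using le_Qg hζ
  · filter_upwards [self_mem_nhdsWithin] with ζ hζ using (Qg_neg hζ).le

/-- the supremum of the gauge on a nonempty closed set avoiding `[0,∞)` is attained -/
theorem exists_isMaxOn_Qg {C : Set ℂ} (hC : IsClosed C) (hne : C.Nonempty)
    (hr : ∀ ζ ∈ C, OffRay ζ) : ∃ ζ ∈ C, IsMaxOn Qg C ζ := by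
  obtain ⟨ζ₀, h0⟩ := hne
  have hcont : ContinuousOn Qg C := fun ζ hζ => (continuousAt_Qg (hr ζ hζ)).continuousWithinAt
  refine hcont.exists_isMaxOn' hC h0 ?_
  have := tendsto_Qg.eventually_le_atBot (Qg ζ₀)
  exact this.filter_mono inf_le_left

/-- local inverse of the gauge: near `ζ₀ ∉ [0,∞)` the function `gq` has a holomorphic inverse -/
theorem exists_local_inverse {ζ₀ : ℂ} (h : OffRay ζ₀) :
    ∃ Z : ℂ → ℂ, AnalyticAt ℂ Z (gq ζ₀) ∧ Z (gq ζ₀) = ζ₀ ∧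
      (∀ᶠ w in 𝓝 (gq ζ₀), gq (Z w) = w) ∧ ∀ᶠ ζ in 𝓝 ζ₀, Z (gq ζ) = ζ := by
  have hs : HasStrictDerivAt gq (deriv gq ζ₀) ζ₀ :=
    ((analyticAt_gq h).contDiffAt (n := 1)).hasStrictDerivAt (by norm_num)
  have hd := deriv_gq_ne_zero h
  refine ⟨hs.localInverse gq _ ζ₀ hd, ?_, ?_, ?_, ?_⟩
  · have hA := (analyticAt_gq h)
    exact AnalyticAt.analyticAt_localInverse hA hd
  · exact HasStrictFDerivAt.localInverse_apply_image _
  · exact HasStrictFDerivAt.eventually_right_inverse _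
  · exact HasStrictFDerivAt.eventually_left_inverse _

end Vale.Agent.P253.R2.H156
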