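import Vale.Agent.P253.R2.H156.Box

/-!
P253: reversal of time, global action, and the touching property of the escape time.
-/

open scoped Manifold ContDiff Topology
open Set Metric Complex Filter IsManifold Vale.Agent.P253.Mfd

set_option maxSynthPendingDepth 3
set_option linter.unusedSectionVars false

noncomputable section

namespace Vale.Agent.P253.R2.H156

variable {E : Type*} [NormedAddCommGroup E] [NormedSpace ℂ E] [FiniteDimensional ℂ E]
  {M : Type*} [MetricSpace M] [ChartedSpace E M]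
  [IsManifold 𝓘(ℂ, E) 1 M] [IsManifold 𝓘(ℝ, E) ∞ M]
  {ρ : ℝ → M → M}

/-- reversed flow -/
def rev (ρ : ℝ → M → M) : ℝ → M → M := fun t => ρ (-t)

theorem IsHolFlow.rev (hρ : IsHolFlow E ρ) : IsHolFlow E (rev ρ) where
  zero x := by simp only [H156.rev, neg_zero]; exact hρ.zero x
  add s t x := by simp only [H156.rev, neg_add]; exact hρ.add _ _ x
  smooth := by
    have h1 : ContMDiff (𝓘(ℝ, ℝ).prod 𝓘(ℝ, E)) (𝓘(ℝ, ℝ).prod 𝓘(ℝ, E)) ∞
        (fun q : ℝ × M => (-q.1, q.2)) := by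
      refine ContMDiff.prodMk ?_ contMDiff_snd
      exact (contDiff_neg.contMDiff).comp contMDiff_fst
    exact hρ.smooth.comp h1
  holo t := hρ.holo (-t)

theorem rev_rev (ρ : ℝ → M → M) : rev (rev ρ) = ρ := by
  funext t x
  simp only [rev, neg_neg]

theorem IsEq.rev {a b : ℝ} {f : ℂ → M} (h : IsEq E ρ a b f) :
    IsEq E (rev ρ) (-b) (-a) (fun ζ => f (-ζ)) := by
  have hm : ∀ ζ ∈ strip (-b) (-a), -ζ ∈ strip a b := by
    intro ζ hζ
    rw [mem_strip] at hζ ⊢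
    rw [neg_re]
    constructor <;> linarith [hζ.1, hζ.2]
  refine ⟨fun ζ hζ => ?_, fun ζ hζ θ => ?_⟩
  · have h1 : MDifferentiableAt 𝓘(ℂ, ℂ) 𝓘(ℂ, ℂ) (fun ζ : ℂ => -ζ) ζ :=
      differentiableAt_id.neg.mdifferentiableAt
    exact (h.diff _ (hm ζ hζ)).comp ζ h1
  · have h1 := h.eqv (-ζ) (hm ζ hζ) (-θ)
    have h2 : -(ζ + θ * I) = -ζ + ((-θ : ℝ) : ℂ) * I := by push_cast; ring
    rw [h2, h1]
    rfl

theorem mem_DF_rev {ζ : ℂ} {x : M} (h : (ζ, x) ∈ DF E ρ) : (-ζ, x) ∈ DF E (rev ρ) := by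
  obtain ⟨a, b, f, hf, h0, hζ, hx⟩ := h
  refine ⟨-b, -a, _, hf.rev, ?_, ?_, ?_⟩
  · rw [mem_strip] at h0 ⊢
    rw [zero_re] at h0 ⊢
    constructor <;> linarith [h0.1, h0.2]
  · rw [mem_strip] at hζ ⊢
    rw [neg_re]
    constructor <;> linarith [hζ.1, hζ.2]
  · simp only [neg_zero]
    exact hx

theorem mem_DF_rev_iff {ζ : ℂ} {x : M} : (ζ, x) ∈ DF E (rev ρ) ↔ (-ζ, x) ∈ DF E ρ := by
  constructor
  · intro h
    have := mem_DF_rev h
    rwa [rev_rev] at this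
  · intro h
    have := mem_DF_rev h
    rwa [neg_neg] at this

/-- a constant escape time is infinite -/
theorem ep_eq_top_of_const (hρ : IsHolFlow E ρ) {C : EReal} (h : ∀ x, ep E ρ x = C) (x : M) :
    ep E ρ x = ⊤ := by
  by_contra htop
  have hpos := ep_pos hρ x
  obtain ⟨T, hT⟩ : ∃ T : ℝ, ep E ρ x = T := by
    refine ⟨(ep E ρ x).toReal, (EReal.coe_toReal htop ?_).symm⟩
    exact ne_bot_of_gt hpos
  rw [hT] at hpos
  have hT0 : 0 < T := by exact_mod_cast hpos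
  have h1 : (((3 * T / 4 : ℝ) : ℂ), x) ∈ DF E ρ := by
    rw [← lt_ep_iff (by positivity), hT]
    exact_mod_cast (by linarith : 3 * T / 4 < T)
  have h2 : (((3 * T / 4 : ℝ) : ℂ), FF E ρ ((3 * T / 4 : ℝ) : ℂ) x) ∈ DF E ρ := by
    rw [← lt_ep_iff (by positivity), h, ← h x, hT]
    exact_mod_cast (by linarith : 3 * T / 4 < T)
  have h3 := (FF_add h1 h2).1
  rw [← ofReal_add, ← lt_ep_iff (by positivity), hT] at h3
  have h4 : 3 * T / 4 + 3 * T / 4 < T := by exact_mod_cast h3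
  linarith

theorem DF_eq_univ (h1 : ∀ x, ep E ρ x = ⊤) (h2 : ∀ x, ep E (rev ρ) x = ⊤) : DF E ρ = univ := by
  rw [eq_univ_iff_forall]
  rintro ⟨ζ, x⟩
  rcases le_total 0 ζ.re with h | h
  · rw [mem_DF_iff h, h1]
    exact EReal.coe_lt_top _
  · have h3 : (-ζ, x) ∈ DF E (rev ρ) := by
      rw [mem_DF_iff (by rw [neg_re]; linarith), h2]
      exact EReal.coe_lt_top _
    rwa [mem_DF_rev_iff, neg_neg] at h3

/-- holomorphic maps on `ℂ × M` are `C¹` -/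
theorem contMDiffAt_prod {F : ℂ × M → M} {q : ℂ × M} {O : Set (ℂ × M)} (hO : IsOpen O)
    (hq : q ∈ O)
    (h : ∀ p ∈ O, MDifferentiableAt (𝓘(ℂ, ℂ).prod 𝓘(ℂ, E)) 𝓘(ℂ, E) F p) :
    ContMDiffAt (𝓘(ℂ, ℂ).prod 𝓘(ℂ, E)) 𝓘(ℂ, E) 1 F q := by
  have hc : chartAt E q.2 ∈ maximalAtlas 𝓘(ℂ, E) 1 M := chart_mem_maximalAtlas q.2
  have hc' : chartAt E (F q) ∈ maximalAtlas 𝓘(ℂ, E) 1 M := chart_mem_maximalAtlas (F q)
  set c := chartAt E q.2 with hcdef
  set c' := chartAt E (F q) with hcdef'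
  have hxc : q.2 ∈ c.source := mem_chart_source E q.2
  have hxc' : F q ∈ c'.source := mem_chart_source E (F q)
  have hFc : ContinuousOn F O := fun y hy => (h y hy).continuousAt.continuousWithinAt
  have hV : IsOpen (O ∩ F ⁻¹' c'.source) := hFc.isOpen_inter_preimage hO c'.open_source
  set V := O ∩ F ⁻¹' c'.source with hVdef
  have hs : ContinuousOn (fun u : ℂ × E => (u.1, c.symm u.2)) {u | u.2 ∈ c.target} :=
    continuousOn_fst.prodMk (c.continuousOn_symm.comp continuousOn_snd fun u hu => hu)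
  have hN : IsOpen ({u : ℂ × E | u.2 ∈ c.target} ∩ (fun u : ℂ × E => (u.1, c.symm u.2)) ⁻¹' V) :=
    hs.isOpen_inter_preimage (c.open_target.preimage continuous_snd) hV
  set N := {u : ℂ × E | u.2 ∈ c.target} ∩ (fun u : ℂ × E => (u.1, c.symm u.2)) ⁻¹' V with hNdef
  have hdiff : DifferentiableOn ℂ (fun u : ℂ × E => c' (F (u.1, c.symm u.2))) N := by
    intro u hu
    have h1 : MDifferentiableAt 𝓘(ℂ, ℂ × E) (𝓘(ℂ, ℂ).prod 𝓘(ℂ, E))
        (fun u : ℂ × E => (u.1, c.symm u.2)) u := by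
      refine MDifferentiableAt.prodMk differentiableAt_fst.mdifferentiableAt ?_
      exact MDifferentiableAt.comp u (g := c.symm) (f := Prod.snd)
        (mdiff_chart_symm hc hu.1) differentiableAt_snd.mdifferentiableAt
    have h2 : MDifferentiableAt (𝓘(ℂ, ℂ).prod 𝓘(ℂ, E)) 𝓘(ℂ, E) F (u.1, c.symm u.2) :=
      h _ hu.2.1
    have h3 : MDifferentiableAt 𝓘(ℂ, E) 𝓘(ℂ, E) c' (F (u.1, c.symm u.2)) :=
      mdiff_chart hc' hu.2.2
    exact (MDifferentiableAt.comp u (g := c') (f := fun u : ℂ × E => F (u.1, c.symm u.2)) h3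
      (MDifferentiableAt.comp u (g := F) (f := fun u : ℂ × E => (u.1, c.symm u.2)) h2
        h1)).differentiableAt.differentiableWithinAt
  have hsm := contDiffOn_of_differentiableOn_complex hN hdiff
  have hqN : (q.1, c q.2) ∈ N := by
    refine ⟨c.map_source hxc, ?_⟩
    simp only [mem_preimage, c.left_inv hxc]
    exact ⟨hq, hxc'⟩
  have h1 : ContMDiffAt 𝓘(ℂ, ℂ × E) 𝓘(ℂ, E) 1 (fun u : ℂ × E => c' (F (u.1, c.symm u.2)))
      (q.1, c q.2) := ((hsm.contDiffAt (hN.mem_nhds hqN)).of_le (by simp)).contMDiffAt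
  have h2 : ContMDiffAt (𝓘(ℂ, ℂ).prod 𝓘(ℂ, E)) 𝓘(ℂ, ℂ × E) 1
      (fun p : ℂ × M => (p.1, c p.2)) q := by
    refine ContMDiffAt.prodMk_space contMDiffAt_fst ?_
    exact ContMDiffAt.comp q (g := c) (f := Prod.snd)
      ((contMDiffOn_of_mem_maximalAtlas hc).contMDiffAt (c.open_source.mem_nhds hxc))
      contMDiffAt_snd
  have h3 : ContMDiffAt 𝓘(ℂ, E) 𝓘(ℂ, E) 1 c'.symm (c' (F (q.1, c.symm (c q.2)))) :=
    (contMDiffOn_symm_of_mem_maximalAtlas hc').contMDiffAt (c'.open_target.mem_nhds (by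
      rw [c.left_inv hxc]; exact c'.map_source hxc'))
  have h4 := h3.comp q (h1.comp q h2)
  refine h4.congr_of_eventuallyEq ?_
  have hco : ContinuousAt (fun p : ℂ × M => (p.1, c p.2)) q := h2.continuousAt
  have hev1 : ∀ᶠ p in 𝓝 q, p ∈ V := hV.mem_nhds ⟨hq, hxc'⟩
  have hev2 : ∀ᶠ p : ℂ × M in 𝓝 q, p.2 ∈ c.source :=
    continuousAt_snd.eventually (c.open_source.mem_nhds hxc)
  filter_upwards [hev1, hev2] with p hp hp2
  simp only [Function.comp_apply, c.left_inv hp2, c'.left_inv hp.2]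

/-- if the escape times in both directions are infinite, the flow extends to a holomorphic
action of `ℂ` -/
theorem exists_action (hρ : IsHolFlow E ρ) (h1 : ∀ x, ep E ρ x = ⊤)
    (h2 : ∀ x, ep E (rev ρ) x = ⊤) :
    ∃ ψ : ℂ → M → M, (∀ x, ψ 0 x = x) ∧ (∀ s t x, ψ (s + t) x = ψ s (ψ t x)) ∧
      ContMDiff (𝓘(ℂ, ℂ).prod 𝓘(ℂ, E)) 𝓘(ℂ, E) 1 (fun q : ℂ × M => ψ q.1 q.2) ∧
      ∀ (θ : ℝ) (x : M), ψ (θ * I) x = ρ θ x := by
  have hD := DF_eq_univ (E := E) h1 h2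
  have hm : ∀ q : ℂ × M, q ∈ DF E ρ := fun q => hD ▸ mem_univ q
  refine ⟨FF E ρ, FF_zero hρ, fun s t x => (FF_add (hm _) (hm _)).2, fun q => ?_,
    fun θ x => FF_I hρ θ x⟩
  exact contMDiffAt_prod isOpen_univ (mem_univ q) fun p _ => mdiff_FF hρ (hm p)

variable (E) in
/-- no holomorphic disc touches `u` in a strictly subharmonic way (viscosity form of
plurisubharmonicity): there is no disc `a` with `u (a z) ≤ u (a 0) + Re h(z) - c |z|²`. -/
def NoTouch (u : M → EReal) : Prop :=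
  ∀ (a : ℂ → M) (h : ℂ → ℂ) (T c r : ℝ), 0 < c → 0 < r →
    (∀ z ∈ closedBall (0:ℂ) r, MDifferentiableAt 𝓘(ℂ, ℂ) 𝓘(ℂ, E) a z) →
    (∀ z ∈ closedBall (0:ℂ) r, DifferentiableAt ℂ h z) →
    u (a 0) = T → h 0 = 0 →
    (∀ z ∈ closedBall (0:ℂ) r, u (a z) ≤ ((T + (h z).re - c * ‖z‖ ^ 2 : ℝ) : EReal)) → False

variable (E M) in
/-- the key property of `M` (no escaping family of discs) -/
def KP : Prop :=
  ∀ (G : Set E) (Φ : E → M) (c0 c1 : ℂ → E) (U : Set ℂ) (r : ℝ), IsOpen G →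
    MDifferentiableOn 𝓘(ℂ, E) 𝓘(ℂ, E) Φ G →
    (∀ x ∈ G, Function.Injective (mfderiv 𝓘(ℂ, E) 𝓘(ℂ, E) Φ x)) → 0 < r → IsOpen U →
    closedBall 0 r ⊆ U → DifferentiableOn ℂ c0 U → DifferentiableOn ℂ c1 U →
    (∀ s ∈ Icc (0:ℝ) 1, ∀ z ∈ closedBall (0:ℂ) r, (s, z) ≠ (0, 0) → c0 z + s • c1 z ∈ G) →
    c0 0 ∉ G → Tendsto Φ (𝓝[G] (c0 0)) (cocompact M) → False

/-- the negative of the escape time is plurisubharmonic in the viscosity sense -/
theorem noTouch_ep (hKP : KP E M) (hρ : IsHolFlow E ρ) : NoTouch E (fun x => -ep E ρ x) := by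
  intro a h T c r hc hr ha hh hT h0 hle
  have hT' : ep E ρ (a 0) = ((-T : ℝ) : EReal) := by
    have := congrArg (fun x : EReal => -x) hT
    simpa using this
  obtain ⟨G, Φ, c0, c1, U, r', hG, hΦ, hinj, hr', hU, hUr, hc0, hc1, hin, hout, hesc⟩ :=
    exists_config hρ (T := -T) hc hr ha hh hT' h0 (fun z hz => by
      have h1 := EReal.neg_le_neg_iff.2 (hle z hz)
      rw [neg_neg] at h1
      refine le_trans (le_of_eq ?_) h1
      rw [← EReal.coe_neg]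
      congr 1
      ring)
  exact hKP G Φ c0 c1 U r' hG hΦ hinj hr' hU hUr hc0 hc1 hin hout hesc

theorem usc_neg_ep (hρ : IsHolFlow E ρ) : UpperSemicontinuous (fun x => -ep E ρ x) := by
  intro x y hy
  have h1 : -y < ep E ρ x := EReal.neg_lt_comm.1 hy
  filter_upwards [lsc_ep hρ x (-y) h1] with x' hx'
  exact EReal.neg_lt_comm.1 hx'

theorem neg_ep_neg (hρ : IsHolFlow E ρ) (x : M) : -ep E ρ x < 0 := by
  have := ep_pos hρ x
  rw [EReal.neg_lt_comm, neg_zero]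
  exact this

/-- assembly: a Liouville property for functions without touching discs, and the key property,
imply that every smooth one-parameter group of holomorphic maps extends to a holomorphic action
of `ℂ`. -/
theorem complexify (hKP : KP E M)
    (hL : ∀ u : M → EReal, UpperSemicontinuous u → (∀ x, u x ≤ 0) → NoTouch E u →
      ∃ C, ∀ x, u x = C) (hρ : IsHolFlow E ρ) :
    ∃ ψ : ℂ → M → M, (∀ x, ψ 0 x = x) ∧ (∀ s t x, ψ (s + t) x = ψ s (ψ t x)) ∧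
      ContMDiff (𝓘(ℂ, ℂ).prod 𝓘(ℂ, E)) 𝓘(ℂ, E) 1 (fun q : ℂ × M => ψ q.1 q.2) ∧
      ∀ (θ : ℝ) (x : M), ψ (θ * I) x = ρ θ x := by
  have key : ∀ {σ : ℝ → M → M}, IsHolFlow E σ → ∀ x, ep E σ x = ⊤ := by
    intro σ hσ
    obtain ⟨C, hC⟩ := hL _ (usc_neg_ep hσ) (fun x => (neg_ep_neg hσ x).le) (noTouch_ep hKP hσ)
    refine ep_eq_top_of_const (C := -C) hσ fun x => ?_
    rw [← hC x, neg_neg]
  exact exists_action hρ (key hρ) (key hρ.rev)

end Vale.Agent.P253.R2.H156
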