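import Vale.Agent.P253.R2.H156.Gen

/-!
P253: local complex-time flow of a one-parameter group of holomorphic maps.
-/

open scoped Manifold ContDiff Topology
open Set Metric Complex Filter IsManifold Vale.Agent.P253.Mfd

set_option maxSynthPendingDepth 3
set_option linter.unusedSectionVars false

noncomputable section

namespace Vale.Agent.P253.R2.H156

/-- joint complex differentiability from one continuous partial derivative -/
theorem joint_diff {E : Type*} [NormedAddCommGroup E] [NormedSpace ℂ E]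
    {E' : Type*} [NormedAddCommGroup E'] [NormedSpace ℂ E'] {K D : ℂ × E → E'} {q : ℂ × E}
    (h1 : ∀ᶠ p in 𝓝 q, HasDerivAt (fun ζ => K (ζ, p.2)) (D p) p.1) (hD : ContinuousAt D q)
    (h2 : DifferentiableAt ℂ (fun z => K (q.1, z)) q.2) : DifferentiableAt ℂ K q := by
  obtain ⟨L, hL⟩ := h2
  refine ⟨(ContinuousLinearMap.smulRight (1 : ℂ →L[ℂ] ℂ) (D q)).coprod L, ?_⟩
  rw [hasFDerivAt_iff_isLittleO, Asymptotics.isLittleO_iff] at hL ⊢
  intro c hc
  have hc2 : 0 < c / 2 := by positivity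
  have hcont : ∀ᶠ p in 𝓝 q, ‖D p - D q‖ ≤ c / 2 := by
    have := (Metric.tendsto_nhds.1 hD (c / 2) hc2)
    filter_upwards [this] with p hp
    rw [← dist_eq_norm]
    exact hp.le
  obtain ⟨δ, hδ, hball⟩ := Metric.eventually_nhds_iff_ball.1 (h1.and hcont)
  have hL' : ∀ᶠ p : ℂ × E in 𝓝 q, ‖K (q.1, p.2) - K (q.1, q.2) - L (p.2 - q.2)‖ ≤
      c / 2 * ‖p.2 - q.2‖ := (continuousAt_snd (p := q)).eventually (hL hc2)
  filter_upwards [hL', Metric.ball_mem_nhds q hδ] with p hp hpb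
  have hseg : ∀ ζ ∈ segment ℝ q.1 p.1, (ζ, p.2) ∈ ball q δ := by
    intro ζ hζ
    rw [Metric.mem_ball, Prod.dist_eq, max_lt_iff] at hpb ⊢
    refine ⟨?_, hpb.2⟩
    have h3 : ζ ∈ ball q.1 δ := (convex_ball q.1 δ).segment_subset (mem_ball_self hδ) hpb.1 hζ
    exact h3
  have h3 : ‖K (p.1, p.2) - K (q.1, p.2) - (p.1 - q.1) • D q‖ ≤ c / 2 * ‖p.1 - q.1‖ := by
    have h4 := Convex.norm_image_sub_le_of_norm_hasDerivWithin_le (𝕜 := ℂ)
      (f := fun ζ => K (ζ, p.2) - ζ • D q) (f' := fun ζ => D (ζ, p.2) - D q)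
      (s := segment ℝ q.1 p.1) (C := c / 2) (x := q.1) (y := p.1) ?_ ?_ (convex_segment _ _)
      (left_mem_segment _ _ _) (right_mem_segment _ _ _)
    · have h5 : K (p.1, p.2) - p.1 • D q - (K (q.1, p.2) - q.1 • D q) =
          K (p.1, p.2) - K (q.1, p.2) - (p.1 - q.1) • D q := by
        rw [sub_smul]; abel
      rw [h5] at h4
      exact h4
    · intro ζ hζ
      have h5 := (hball _ (hseg ζ hζ)).1
      have h6 : HasDerivAt (fun ζ : ℂ => ζ • D q) ((1 : ℂ) • D q) ζ :=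
        (hasDerivAt_id ζ).smul_const (D q)
      rw [one_smul] at h6
      exact (h5.sub h6).hasDerivWithinAt
    · intro ζ hζ
      exact (hball _ (hseg ζ hζ)).2
  have h4 : K p - K q - ((ContinuousLinearMap.smulRight (1 : ℂ →L[ℂ] ℂ) (D q)).coprod L) (p - q) =
      (K (p.1, p.2) - K (q.1, p.2) - (p.1 - q.1) • D q) +
        (K (q.1, p.2) - K (q.1, q.2) - L (p.2 - q.2)) := by
    simp only [ContinuousLinearMap.coprod_apply, ContinuousLinearMap.smulRight_apply,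
      one_apply_eq_self, Prod.fst_sub, Prod.snd_sub, Prod.mk.eta]
    abel
  rw [h4]
  have h5 : ‖p.1 - q.1‖ ≤ ‖p - q‖ := norm_fst_le (p - q)
  have h6 : ‖p.2 - q.2‖ ≤ ‖p - q‖ := norm_snd_le (p - q)
  calc _ ≤ c / 2 * ‖p.1 - q.1‖ + c / 2 * ‖p.2 - q.2‖ := (norm_add_le _ _).trans (add_le_add h3 hp)
    _ ≤ c / 2 * ‖p - q‖ + c / 2 * ‖p - q‖ := by gcongr
    _ = c * ‖p - q‖ := by ring

variable {E : Type*} [NormedAddCommGroup E] [NormedSpace ℂ E] [FiniteDimensional ℂ E]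
  {M : Type*} [MetricSpace M] [ChartedSpace E M]
  [IsManifold 𝓘(ℂ, E) 1 M] [IsManifold 𝓘(ℝ, E) ∞ M]
  {ρ : ℝ → M → M} {e e' : OpenPartialHomeomorph M E}

theorem hasDerivAt_HF_time (hρ : IsHolFlow E ρ) (he' : e' ∈ maximalAtlas 𝓘(ℂ, E) 1 M)
    {s : ℝ} {z : E} (hz : (s, z) ∈ HΩ ρ e e') :
    HasDerivAt (fun t => HF ρ e e' (t, z)) (xF ρ e' (HF ρ e e' (s, z))) s := by
  have hz' : HF ρ e e' (s, z) ∈ e'.target := e'.map_source hz.2
  have h1 := hasDerivAt_HF_left hρ he' he' (mem_HΩ_zero hρ hz')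
  rw [← xF_eq hρ he' hz'] at h1
  have h2 : HasDerivAt (fun t : ℝ => t - s) 1 s := (hasDerivAt_id s).sub_const s
  have h1' : HasDerivAt (fun t => HF ρ e' e' (t, HF ρ e e' (s, z))) (xF ρ e' (HF ρ e e' (s, z)))
      (s - s) := by rwa [sub_self]
  have h3 := HasDerivAt.scomp (h := fun t : ℝ => t - s) s h1' h2
  rw [one_smul] at h3
  refine h3.congr_of_eventuallyEq (Eventually.of_forall fun t => ?_)
  simp only [HF, Function.comp_apply]
  rw [e'.left_inv hz.2, ← hρ.add, sub_add_cancel]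

theorem hasDerivAt_complex (hρ : IsHolFlow E ρ) (he : e ∈ maximalAtlas 𝓘(ℂ, E) 1 M)
    (he' : e' ∈ maximalAtlas 𝓘(ℂ, E) 1 M) {y : ℝ → E} {ζ : ℂ}
    (hy : HasDerivAt y (vF ρ e (y ζ.re)) ζ.re) (hz : (ζ.im, y ζ.re) ∈ HΩ ρ e e') :
    HasDerivAt (fun w : ℂ => HF ρ e e' (w.im, y w.re)) (vF ρ e' (HF ρ e e' (ζ.im, y ζ.re))) ζ := by
  set K := HF ρ e e' (ζ.im, y ζ.re) with hK
  have h1 := (differentiableAt_HF hρ he he' hz).hasFDerivAt
  have h2 : HasFDerivAt (fun w : ℂ => (w.im, y w.re))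
      (imCLM.prod ((ContinuousLinearMap.smulRight (1 : ℝ →L[ℝ] ℝ) (vF ρ e (y ζ.re))).comp reCLM))
      ζ := by
    refine HasFDerivAt.prodMk imCLM.hasFDerivAt ?_
    exact hy.hasFDerivAt.comp ζ reCLM.hasFDerivAt
  have h3 := h1.comp ζ h2
  have h4 : (fderiv ℝ (HF ρ e e') (ζ.im, y ζ.re)).comp
      (imCLM.prod ((ContinuousLinearMap.smulRight (1 : ℝ →L[ℝ] ℝ) (vF ρ e (y ζ.re))).comp reCLM)) =
      (ContinuousLinearMap.smulRight (1 : ℂ →L[ℂ] ℂ) (vF ρ e' K)).restrictScalars ℝ := by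
    ext w
    have e1 : HF ρ e e' (ζ.im, y ζ.re) = K := rfl
    have hs : (w.im, w.re • vF ρ e (y ζ.re)) =
        w.im • ((1 : ℝ), (0 : E)) + w.re • ((0 : ℝ), vF ρ e (y ζ.re)) := by
      simp
    have e2 : fderiv ℝ (HF ρ e e') (ζ.im, y ζ.re) (1, 0) = xF ρ e' K :=
      (hasDerivAt_HF_left hρ he he' hz).unique (hasDerivAt_HF_time hρ he' hz)
    have e3 : fderiv ℝ (HF ρ e e') (ζ.im, y ζ.re) (0, vF ρ e (y ζ.re)) = vF ρ e' K := by
      rw [← vF_change hρ he he' hz, (hasFDerivAt_HF_right hρ he he' hz).fderiv]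
      rfl
    have e4 : ∀ w : ℂ, (w : ℂ) • vF ρ e' K = w.im • xF ρ e' K + w.re • vF ρ e' K := by
      intro w
      rw [← I_smul_vF ρ e' K]
      conv_lhs => rw [← re_add_im w, add_smul, mul_smul]
      rw [add_comm]
      rfl
    simp only [ContinuousLinearMap.coe_comp, Function.comp_apply, ContinuousLinearMap.prod_apply,
      imCLM_apply, ContinuousLinearMap.smulRight_apply, reCLM_apply, one_apply_eq_self,
      ContinuousLinearMap.coe_restrictScalars']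
    rw [hs, map_add, map_smul, map_smul, e2, e3, e4]
  rw [h4] at h3
  exact hasFDerivAt_of_restrictScalars ℝ h3 rfl

/-- local complex-time flow of a one-parameter group of holomorphic maps -/
theorem exists_local (hρ : IsHolFlow E ρ) (x₀ : M) :
    ∃ δ > 0, ∃ U : Set M, IsOpen U ∧ x₀ ∈ U ∧ U ⊆ (chartAt E x₀).source ∧ ∃ H : ℂ → M → M,
      (∀ x ∈ U, H 0 x = x) ∧ (∀ x ∈ U, ∀ (ζ : ℂ) (θ : ℝ), H (ζ + θ * I) x = ρ θ (H ζ x)) ∧
      (∀ ζ : ℂ, |ζ.re| < δ → ∀ x ∈ U,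
        MDifferentiableAt (𝓘(ℂ, ℂ).prod 𝓘(ℂ, E)) 𝓘(ℂ, E) (fun q : ℂ × M => H q.1 q.2) (ζ, x)) ∧
      ∀ x ∈ U, HasDerivAt (fun ζ => chartAt E x₀ (H ζ x))
        (vF ρ (chartAt E x₀) (chartAt E x₀ x)) 0 := by
  have he : chartAt E x₀ ∈ maximalAtlas 𝓘(ℂ, E) 1 M := chart_mem_maximalAtlas x₀
  set e := chartAt E x₀ with hedef
  have hx₀ : x₀ ∈ e.source := mem_chart_source E x₀
  obtain ⟨ε, hε, r, hr, Y, hball, hY, hYd, hYc⟩ := exists_holoFlow e.open_target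
    (differentiableOn_vF hρ he) (e.map_source hx₀)
  set V := e.source ∩ e ⁻¹' (ball (e x₀) r) with hV
  have hVo : IsOpen V := e.continuousOn.isOpen_inter_preimage e.open_source isOpen_ball
  refine ⟨ε, hε, V, hVo, ⟨hx₀, mem_ball_self hr⟩, inter_subset_left,
    fun ζ x => ρ ζ.im (e.symm (Y ζ.re (e x))), ?_, ?_, ?_, ?_⟩
  · intro x hx
    simp only [zero_im, zero_re]
    rw [(hY (e x) hx.2).1, e.left_inv hx.1, hρ.zero]
  · intro x hx ζ θ
    simp only [add_im, add_re, mul_re, mul_im, ofReal_re, ofReal_im, I_re, I_im, mul_zero, mul_one,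
      sub_zero, add_zero]
    rw [← hρ.add, add_comm θ]
  · intro ζ₀ hζ₀ x₁ hx₁
    set y₀ := ρ ζ₀.im (e.symm (Y ζ₀.re (e x₁))) with hy₀
    have he' : chartAt E y₀ ∈ maximalAtlas 𝓘(ℂ, E) 1 M := chart_mem_maximalAtlas y₀
    set e' := chartAt E y₀ with he'def
    set K : ℂ × E → E := fun q => HF ρ e e' (q.1.im, Y q.1.re q.2) with hK
    set N₀ : Set (ℂ × E) := {q | q.1.re ∈ Ioo (-ε) ε ∧ q.2 ∈ ball (e x₀) r} with hN₀
    have hN₀o : IsOpen N₀ :=
      (isOpen_Ioo.preimage (by fun_prop : Continuous fun q : ℂ × E => q.1.re)).inter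
        (isOpen_ball.preimage continuous_snd)
    have hc0 : ContinuousOn (fun q : ℂ × E => (q.1.im, Y q.1.re q.2)) N₀ := by
      refine ContinuousOn.prodMk (by fun_prop) ?_
      exact hYc.comp (f := fun q : ℂ × E => (q.1.re, q.2)) (by fun_prop) fun q hq => ⟨hq.1, hq.2⟩
    have hNo : IsOpen (N₀ ∩ (fun q : ℂ × E => (q.1.im, Y q.1.re q.2)) ⁻¹' HΩ ρ e e') :=
      hc0.isOpen_inter_preimage hN₀o (isOpen_HΩ hρ)
    set N := N₀ ∩ (fun q : ℂ × E => (q.1.im, Y q.1.re q.2)) ⁻¹' HΩ ρ e e' with hN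
    have hζ₀' : ζ₀.re ∈ Ioo (-ε) ε := abs_lt.1 hζ₀
    have hqN : (ζ₀, e x₁) ∈ N := by
      refine ⟨⟨hζ₀', hx₁.2⟩, ((hY (e x₁) hx₁.2).2 ζ₀.re hζ₀').1, ?_⟩
      exact mem_chart_source E y₀
    have hKc : ContinuousOn K N := by
      have h1 : ContinuousOn (HF ρ e e') (HΩ ρ e e') := (contDiffOn_HF hρ he he').continuousOn
      exact h1.comp (hc0.mono inter_subset_left) fun q hq => hq.2
    have hKd : DifferentiableAt ℂ K (ζ₀, e x₁) := by
      refine joint_diff (D := fun q => vF ρ e' (K q)) ?_ ?_ ?_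
      · filter_upwards [hNo.mem_nhds hqN] with q hq
        exact hasDerivAt_complex hρ he he' (y := fun s => Y s q.2)
          ((hY q.2 hq.1.2).2 q.1.re hq.1.1).2 hq.2
      · have h1 : K (ζ₀, e x₁) ∈ e'.target := e'.map_source hqN.2.2
        have h2 : ContinuousAt (vF ρ e') (K (ζ₀, e x₁)) :=
          ((differentiableOn_vF hρ he').continuousOn).continuousAt (e'.open_target.mem_nhds h1)
        exact ContinuousAt.comp (f := K) (x := (ζ₀, e x₁)) h2 (hKc.continuousAt (hNo.mem_nhds hqN))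
      · have h1 := HΩ_slice_holo hρ he he' hqN.2
        have h2 : DifferentiableAt ℂ (Y ζ₀.re) (e x₁) :=
          ((hYd ζ₀.re hζ₀') (e x₁) hx₁.2).differentiableAt (isOpen_ball.mem_nhds hx₁.2)
        exact DifferentiableAt.comp (g := fun w => HF ρ e e' (ζ₀.im, w)) (f := Y ζ₀.re) (e x₁) h1 h2
    have h1 : MDifferentiableAt 𝓘(ℂ, E) 𝓘(ℂ, E) e x₁ :=
      ((contMDiffOn_of_mem_maximalAtlas he).contMDiffAt
        (e.open_source.mem_nhds hx₁.1)).mdifferentiableAt (by simp)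
    have h2 : MDifferentiableAt (𝓘(ℂ, ℂ).prod 𝓘(ℂ, E)) 𝓘(ℂ, ℂ × E)
        (fun q : ℂ × M => (q.1, e q.2)) (ζ₀, x₁) :=
      mdifferentiableAt_fst.prodMk_space
        (MDifferentiableAt.comp (ζ₀, x₁) (f := Prod.snd) (g := e) h1 mdifferentiableAt_snd)
    have h3 : MDifferentiableAt 𝓘(ℂ, ℂ × E) 𝓘(ℂ, E) K (ζ₀, e x₁) := hKd.mdifferentiableAt
    have h4 : MDifferentiableAt 𝓘(ℂ, E) 𝓘(ℂ, E) e'.symm (K (ζ₀, e x₁)) :=
      ((contMDiffOn_symm_of_mem_maximalAtlas he').contMDiffAt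
        (e'.open_target.mem_nhds (e'.map_source hqN.2.2))).mdifferentiableAt (by simp)
    have h5 := h4.comp (ζ₀, x₁) (h3.comp (ζ₀, x₁) h2)
    refine h5.congr_of_eventuallyEq ?_
    have hcont : ContinuousAt (fun q : ℂ × M => (q.1, e q.2)) (ζ₀, x₁) := h2.continuousAt
    filter_upwards [hcont.preimage_mem_nhds (hNo.mem_nhds hqN)] with q hq
    simp only [Function.comp_apply, hK, HF]
    rw [e'.left_inv hq.2.2]
  · intro x hx
    have h0 : Y 0 (e x) = e x := (hY (e x) hx.2).1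
    have hz : ((0 : ℂ).im, Y (0 : ℂ).re (e x)) ∈ HΩ ρ e e := by
      simp only [zero_im, zero_re, h0]
      exact mem_HΩ_zero hρ (e.map_source hx.1)
    have h1 := hasDerivAt_complex hρ he he (y := fun s => Y s (e x)) (ζ := 0)
      (by
        have := ((hY (e x) hx.2).2 0 ⟨by linarith, hε⟩).2
        simpa using this) hz
    have h2 : HF ρ e e ((0 : ℂ).im, Y (0 : ℂ).re (e x)) = e x := by
      simp only [zero_im, zero_re, h0, HF, hρ.zero, e.left_inv hx.1]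
    simp only [h2] at h1
    exact h1

end Vale.Agent.P253.R2.H156
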