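import Vale.Agent.P253.R2.H156.Local

/-!
P253: equivariant holomorphic orbit maps on strips and the partial complex-time flow.
-/

open scoped Manifold ContDiff Topology
open Set Metric Complex Filter IsManifold Vale.Agent.P253.Mfd

set_option maxSynthPendingDepth 3
set_option linter.unusedSectionVars false

noncomputable section

namespace Vale.Agent.P253.R2.H156

variable {E : Type*} [NormedAddCommGroup E] [NormedSpace ℂ E] [FiniteDimensional ℂ E]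
  {M : Type*} [MetricSpace M] [ChartedSpace E M]
  [IsManifold 𝓘(ℂ, E) 1 M]
  {ρ : ℝ → M → M}

/-- local identity theorem for holomorphic curves in a complex manifold -/
theorem eventuallyEq_of_frequently {f g : ℂ → M} {c : ℂ}
    (hf : ∀ᶠ ζ in 𝓝 c, MDifferentiableAt 𝓘(ℂ, ℂ) 𝓘(ℂ, E) f ζ)
    (hg : ∀ᶠ ζ in 𝓝 c, MDifferentiableAt 𝓘(ℂ, ℂ) 𝓘(ℂ, E) g ζ)
    (h : ∃ᶠ ζ in 𝓝[≠] c, f ζ = g ζ) : f =ᶠ[𝓝 c] g := by
  have hfc : ContinuousAt f c := hf.self_of_nhds.continuousAt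
  have hgc : ContinuousAt g c := hg.self_of_nhds.continuousAt
  have hfg : f c = g c := by
    by_contra hne
    have h0 : Tendsto (fun ζ => (f ζ, g ζ)) (𝓝 c) (𝓝 (f c, g c)) := hfc.prodMk_nhds hgc
    have h1 : ∀ᶠ ζ in 𝓝 c, f ζ ≠ g ζ :=
      h0.eventually ((isClosed_diagonal (X := M)).isOpen_compl.mem_nhds hne)
    exact h (h1.filter_mono nhdsWithin_le_nhds)
  have he : chartAt E (f c) ∈ maximalAtlas 𝓘(ℂ, E) 1 M := chart_mem_maximalAtlas (f c)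
  set e := chartAt E (f c) with hedef
  have hsrc : f c ∈ e.source := mem_chart_source E (f c)
  have key : ∀ {k : ℂ → M}, (∀ᶠ ζ in 𝓝 c, MDifferentiableAt 𝓘(ℂ, ℂ) 𝓘(ℂ, E) k ζ) →
      k c ∈ e.source → AnalyticAt ℂ (fun ζ => e (k ζ)) c := by
    intro k hk hkc
    have h1 : ∀ᶠ ζ in 𝓝 c, k ζ ∈ e.source :=
      hk.self_of_nhds.continuousAt.eventually (e.open_source.mem_nhds hkc)
    rw [Complex.analyticAt_iff_eventually_differentiableAt]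
    filter_upwards [hk, h1] with ζ h2 h3
    have h4 : MDifferentiableAt 𝓘(ℂ, E) 𝓘(ℂ, E) e (k ζ) :=
      ((contMDiffOn_of_mem_maximalAtlas he).contMDiffAt
        (e.open_source.mem_nhds h3)).mdifferentiableAt (by simp)
    exact (h4.comp ζ h2).differentiableAt
  have h1 := key hf hsrc
  have h2 := key hg (hfg ▸ hsrc)
  have h3 : ∃ᶠ ζ in 𝓝[≠] c, e (f ζ) = e (g ζ) := h.mono fun ζ hζ => congrArg e hζ
  have h4 := (h1.frequently_eq_iff_eventually_eq h2).1 h3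
  have h5 : ∀ᶠ ζ in 𝓝 c, f ζ ∈ e.source := hfc.eventually (e.open_source.mem_nhds hsrc)
  have h6 : ∀ᶠ ζ in 𝓝 c, g ζ ∈ e.source :=
    hgc.eventually (e.open_source.mem_nhds (hfg ▸ hsrc))
  filter_upwards [h4, h5, h6] with ζ h7 h8 h9
  exact e.injOn h8 h9 h7

/-- identity theorem for holomorphic curves in a complex manifold -/
theorem eqOn_of_frequently {U : Set ℂ} (hU : IsOpen U) (hUc : IsPreconnected U) {f g : ℂ → M}
    (hf : ∀ ζ ∈ U, MDifferentiableAt 𝓘(ℂ, ℂ) 𝓘(ℂ, E) f ζ)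
    (hg : ∀ ζ ∈ U, MDifferentiableAt 𝓘(ℂ, ℂ) 𝓘(ℂ, E) g ζ) {c : ℂ} (hc : c ∈ U)
    (h : ∃ᶠ ζ in 𝓝[≠] c, f ζ = g ζ) : EqOn f g U := by
  set Z : Set ℂ := {ζ | f =ᶠ[𝓝 ζ] g} with hZ
  have hZo : IsOpen Z := isOpen_setOfPred_eventually_nhds
  have hloc : ∀ ζ ∈ U, (∃ᶠ w in 𝓝[≠] ζ, f w = g w) → ζ ∈ Z := fun ζ hζ h =>
    eventuallyEq_of_frequently (E := E)
      (by filter_upwards [hU.mem_nhds hζ] with w hw using hf w hw)
      (by filter_upwards [hU.mem_nhds hζ] with w hw using hg w hw) h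
  have hsub : U ⊆ Z := by
    refine hUc.subset_of_closure_inter_subset hZo ⟨c, hc, hloc c hc h⟩ ?_
    rintro ζ ⟨hζ, hζU⟩
    by_contra hζZ
    refine hζZ (hloc ζ hζU ?_)
    rw [mem_closure_iff_frequently] at hζ
    rw [frequently_nhdsWithin_iff]
    refine hζ.mono fun w hw => ⟨hw.self_of_nhds, ?_⟩
    rintro rfl
    exact hζZ hw
  exact fun ζ hζ => (hsub hζ).self_of_nhds

/-- the vertical strip `a < Re ζ < b` -/
def strip (a b : ℝ) : Set ℂ := {ζ | a < ζ.re ∧ ζ.re < b}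

theorem isOpen_strip (a b : ℝ) : IsOpen (strip a b) :=
  (isOpen_Ioo (a := a) (b := b)).preimage continuous_re

theorem strip_preconnected (a b : ℝ) : IsPreconnected (strip a b) := by
  have h : Convex ℝ (strip a b) := (convex_Ioo a b).is_linear_preimage
    (f := fun ζ : ℂ => ζ.re) ⟨fun x y => add_re x y, fun c x => by simp⟩
  exact h.isPreconnected

theorem mem_strip {a b : ℝ} {ζ : ℂ} : ζ ∈ strip a b ↔ a < ζ.re ∧ ζ.re < b := Iff.rfl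

theorem strip_of_re {a b : ℝ} {ζ ζ' : ℂ} (h : ζ.re = ζ'.re) : ζ ∈ strip a b ↔ ζ' ∈ strip a b := by
  rw [mem_strip, mem_strip, h]

variable (E) in
/-- `f` is a holomorphic map of the strip `a < Re ζ < b` into `M`, equivariant under
imaginary translations. -/
structure IsEq (ρ : ℝ → M → M) (a b : ℝ) (f : ℂ → M) : Prop where
  diff : ∀ ζ ∈ strip a b, MDifferentiableAt 𝓘(ℂ, ℂ) 𝓘(ℂ, E) f ζ
  eqv : ∀ ζ ∈ strip a b, ∀ θ : ℝ, f (ζ + θ * I) = ρ θ (f ζ)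

theorem IsEq.mono {a b a' b' : ℝ} {f : ℂ → M} (h : IsEq E ρ a b f) (ha : a ≤ a') (hb : b' ≤ b) :
    IsEq E ρ a' b' f :=
  ⟨fun ζ hζ => h.diff ζ ⟨ha.trans_lt hζ.1, hζ.2.trans_le hb⟩,
    fun ζ hζ => h.eqv ζ ⟨ha.trans_lt hζ.1, hζ.2.trans_le hb⟩⟩

theorem IsEq.unique {a b : ℝ} {f g : ℂ → M} (hf : IsEq E ρ a b f) (hg : IsEq E ρ a b g) {c : ℂ}
    (hc : c ∈ strip a b) (h : f c = g c) : EqOn f g (strip a b) := by
  refine eqOn_of_frequently (isOpen_strip a b) (strip_preconnected a b) hf.diff hg.diff hc ?_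
  have h1 : Tendsto (fun θ : ℝ => c + θ * I) (𝓝[≠] 0) (𝓝[≠] c) := by
    refine tendsto_nhdsWithin_of_tendsto_nhds_of_eventually_within _ ?_ ?_
    · have h2 : Continuous (fun θ : ℝ => c + θ * I) := by fun_prop
      have h3 := h2.tendsto 0
      simp only [ofReal_zero, zero_mul, add_zero] at h3
      exact h3.mono_left nhdsWithin_le_nhds
    · filter_upwards [self_mem_nhdsWithin] with θ hθ
      simpa using hθ
  refine h1.frequently (Eventually.frequently (Eventually.of_forall fun θ => ?_))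
  rw [hf.eqv c hc, hg.eqv c hc, h]

theorem IsEq.shift {a b : ℝ} {f : ℂ → M} (h : IsEq E ρ a b f) (c : ℂ) :
    IsEq E ρ (a - c.re) (b - c.re) (fun ζ => f (ζ + c)) := by
  have hm : ∀ ζ ∈ strip (a - c.re) (b - c.re), ζ + c ∈ strip a b := by
    intro ζ hζ
    rw [mem_strip] at hζ ⊢
    rw [add_re]
    constructor <;> linarith [hζ.1, hζ.2]
  refine ⟨fun ζ hζ => ?_, fun ζ hζ θ => ?_⟩
  · have h1 : MDifferentiableAt 𝓘(ℂ, ℂ) 𝓘(ℂ, ℂ) (fun ζ : ℂ => ζ + c) ζ :=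
      (differentiableAt_id.add_const c).mdifferentiableAt
    exact (h.diff _ (hm ζ hζ)).comp ζ h1
  · rw [← h.eqv _ (hm ζ hζ)]
    congr 1
    ring

theorem IsEq.glue {a b a' b' : ℝ} {f g : ℂ → M} (hf : IsEq E ρ a b f) (hg : IsEq E ρ a' b' g)
    {c : ℂ} (hc : c ∈ strip a b) (hc' : c ∈ strip a' b') (h : f c = g c) :
    ∃ k : ℂ → M, IsEq E ρ (min a a') (max b b') k ∧ EqOn k f (strip a b) ∧
      EqOn k g (strip a' b') := by
  classical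
  have hfg : ∀ ζ, ζ ∈ strip a b → ζ ∈ strip a' b' → f ζ = g ζ := by
    intro ζ h1 h2
    refine (hf.mono (le_max_left a a') (min_le_left b b')).unique
      (hg.mono (le_max_right a a') (min_le_right b b')) (c := c) ?_ h ?_
    · exact ⟨max_lt hc.1 hc'.1, lt_min hc.2 hc'.2⟩
    · exact ⟨max_lt h1.1 h2.1, lt_min h1.2 h2.2⟩
  set k : ℂ → M := fun ζ => if ζ ∈ strip a b then f ζ else g ζ with hk
  have hkf : EqOn k f (strip a b) := fun ζ hζ => if_pos hζ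
  have hkg : EqOn k g (strip a' b') := by
    intro ζ hζ
    by_cases h1 : ζ ∈ strip a b
    · rw [hkf h1, hfg ζ h1 hζ]
    · exact if_neg h1
  have hcov : ∀ ζ ∈ strip (min a a') (max b b'), ζ ∈ strip a b ∨ ζ ∈ strip a' b' := by
    intro ζ hζ
    simp only [mem_strip, min_lt_iff, lt_max_iff] at hζ hc hc' ⊢
    by_contra hcon
    push Not at hcon
    rcases hζ.1 with h1 | h1 <;> rcases hζ.2 with h2 | h2
    · exact absurd (hcon.1 h1) (by linarith)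
    · have h3 := hcon.1 h1
      have h4 : ζ.re ≤ a' := by
        by_contra h5
        push Not at h5
        linarith [hcon.2 h5]
      linarith [hc.1, hc.2, hc'.1, hc'.2]
    · have h3 := hcon.2 h1
      have h4 : ζ.re ≤ a := by
        by_contra h5
        push Not at h5
        linarith [hcon.1 h5]
      linarith [hc.1, hc.2, hc'.1, hc'.2]
    · exact absurd (hcon.2 h1) (by linarith)
  have hre : ∀ (ζ : ℂ) (θ : ℝ), (ζ + θ * I).re = ζ.re := by intro ζ θ; simp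
  refine ⟨k, ⟨fun ζ hζ => ?_, fun ζ hζ θ => ?_⟩, hkf, hkg⟩
  · rcases hcov ζ hζ with h1 | h1
    · refine (hf.diff ζ h1).congr_of_eventuallyEq ?_
      filter_upwards [(isOpen_strip a b).mem_nhds h1] with w hw using hkf hw
    · refine (hg.diff ζ h1).congr_of_eventuallyEq ?_
      filter_upwards [(isOpen_strip a' b').mem_nhds h1] with w hw using hkg hw
  · rcases hcov ζ hζ with h1 | h1
    · rw [hkf h1, hkf ((strip_of_re (hre ζ θ)).2 h1), hf.eqv ζ h1]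
    · rw [hkg h1, hkg ((strip_of_re (hre ζ θ)).2 h1), hg.eqv ζ h1]

variable (E) in
/-- domain of the partial complex-time flow -/
def DF (ρ : ℝ → M → M) : Set (ℂ × M) :=
  {q | ∃ (a b : ℝ) (f : ℂ → M), IsEq E ρ a b f ∧ (0 : ℂ) ∈ strip a b ∧ q.1 ∈ strip a b ∧
    f 0 = q.2}

open Classical in
variable (E) in
/-- the partial complex-time flow -/
def FF (ρ : ℝ → M → M) (ζ : ℂ) (x : M) : M :=
  if h : (ζ, x) ∈ DF E ρ then h.choose_spec.choose_spec.choose ζ else x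

theorem FF_eq {a b : ℝ} {f : ℂ → M} (hf : IsEq E ρ a b f) (h0 : (0 : ℂ) ∈ strip a b) {ζ : ℂ}
    (hζ : ζ ∈ strip a b) : (ζ, f 0) ∈ DF E ρ ∧ FF E ρ ζ (f 0) = f ζ := by
  have hD : (ζ, f 0) ∈ DF E ρ := ⟨a, b, f, hf, h0, hζ, rfl⟩
  refine ⟨hD, ?_⟩
  rw [FF, dif_pos hD]
  have hs := hD.choose_spec.choose_spec.choose_spec
  set a' := hD.choose
  set b' := hD.choose_spec.choose
  set g := hD.choose_spec.choose_spec.choose
  refine (hs.1.mono (le_max_right a a') (min_le_right b b')).unique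
    (hf.mono (le_max_left a a') (min_le_left b b')) (c := 0) ?_ hs.2.2.2 ?_
  · exact ⟨max_lt h0.1 hs.2.1.1, lt_min h0.2 hs.2.1.2⟩
  · exact ⟨max_lt hζ.1 hs.2.2.1.1, lt_min hζ.2 hs.2.2.1.2⟩

theorem FF_eq' {a b : ℝ} {f : ℂ → M} {x : M} (hf : IsEq E ρ a b f) (h0 : (0 : ℂ) ∈ strip a b)
    (hx : f 0 = x) {ζ : ℂ} (hζ : ζ ∈ strip a b) : (ζ, x) ∈ DF E ρ ∧ FF E ρ ζ x = f ζ := by
  subst hx
  exact FF_eq hf h0 hζ

theorem exists_orb {ζ : ℂ} {x : M} (h : (ζ, x) ∈ DF E ρ) :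
    ∃ (a b : ℝ) (f : ℂ → M), IsEq E ρ a b f ∧ (0 : ℂ) ∈ strip a b ∧ ζ ∈ strip a b ∧
      f 0 = x ∧ ∀ w ∈ strip a b, (w, x) ∈ DF E ρ ∧ FF E ρ w x = f w := by
  obtain ⟨a, b, f, hf, h0, hζ, hx⟩ := h
  exact ⟨a, b, f, hf, h0, hζ, hx, fun w hw => FF_eq' hf h0 hx hw⟩

theorem exists_orb₂ {ζ ζ' : ℂ} {x : M} (h : (ζ, x) ∈ DF E ρ) (h' : (ζ', x) ∈ DF E ρ) :
    ∃ (a b : ℝ) (f : ℂ → M), IsEq E ρ a b f ∧ (0 : ℂ) ∈ strip a b ∧ ζ ∈ strip a b ∧
      ζ' ∈ strip a b ∧ f 0 = x ∧ ∀ w ∈ strip a b, (w, x) ∈ DF E ρ ∧ FF E ρ w x = f w := by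
  obtain ⟨a, b, f, hf, h0, hζ, hx⟩ := h
  obtain ⟨a', b', f', hf', h0', hζ', hx'⟩ := h'
  obtain ⟨k, hk, hkf, hkg⟩ := hf.glue hf' h0 h0' (hx.trans hx'.symm)
  have h1 : (0 : ℂ) ∈ strip (min a a') (max b b') :=
    ⟨min_lt_of_left_lt h0.1, lt_max_of_lt_left h0.2⟩
  have h2 : k 0 = x := (hkf h0).trans hx
  exact ⟨_, _, k, hk, h1, ⟨min_lt_of_left_lt hζ.1, lt_max_of_lt_left hζ.2⟩,
    ⟨min_lt_of_right_lt hζ'.1, lt_max_of_lt_right hζ'.2⟩, h2, fun w hw => FF_eq' hk h1 h2 hw⟩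

theorem DF_re {ζ ζ' : ℂ} {x : M} (h : (ζ, x) ∈ DF E ρ) (hre : ζ'.re = ζ.re) :
    (ζ', x) ∈ DF E ρ := by
  obtain ⟨a, b, f, hf, h0, hζ, hx⟩ := h
  exact ⟨a, b, f, hf, h0, (strip_of_re hre).2 hζ, hx⟩

theorem FF_im {ζ : ℂ} {x : M} (h : (ζ, x) ∈ DF E ρ) (θ : ℝ) :
    FF E ρ (ζ + θ * I) x = ρ θ (FF E ρ ζ x) := by
  obtain ⟨a, b, f, hf, h0, hζ, hx, hF⟩ := exists_orb h
  have h1 : ζ + θ * I ∈ strip a b := (strip_of_re (by simp)).2 hζ
  rw [(hF _ hζ).2, (hF _ h1).2, hf.eqv ζ hζ]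

/-- the group law -/
theorem FF_add {ζ ζ' : ℂ} {x : M} (h : (ζ, x) ∈ DF E ρ) (h' : (ζ', FF E ρ ζ x) ∈ DF E ρ) :
    (ζ' + ζ, x) ∈ DF E ρ ∧ FF E ρ (ζ' + ζ) x = FF E ρ ζ' (FF E ρ ζ x) := by
  obtain ⟨a, b, f, hf, h0, hζ, hx, hF⟩ := exists_orb h
  obtain ⟨a', b', g, hg, h0', hζ', hx', hF'⟩ := exists_orb h'
  have hg2 := hg.shift (-ζ)
  have hre : ∀ w : ℂ, w ∈ strip a' b' → w + ζ ∈ strip (a' - (-ζ).re) (b' - (-ζ).re) := by
    intro w hw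
    rw [mem_strip] at hw ⊢
    rw [add_re, neg_re]
    constructor <;> linarith [hw.1, hw.2]
  have h1 : ζ ∈ strip (a' - (-ζ).re) (b' - (-ζ).re) := by
    have := hre 0 h0'
    rwa [zero_add] at this
  have h2 : f ζ = (fun w => g (w + -ζ)) ζ := by
    simp only [add_neg_cancel]
    rw [hx', (hF ζ hζ).2]
  obtain ⟨k, hk, hkf, hkg⟩ := hf.glue hg2 hζ h1 h2
  have h3 : (0 : ℂ) ∈ strip (min a (a' - (-ζ).re)) (max b (b' - (-ζ).re)) :=
    ⟨min_lt_of_left_lt h0.1, lt_max_of_lt_left h0.2⟩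
  have h4 := hre ζ' hζ'
  have h5 : ζ' + ζ ∈ strip (min a (a' - (-ζ).re)) (max b (b' - (-ζ).re)) :=
    ⟨min_lt_of_right_lt h4.1, lt_max_of_lt_right h4.2⟩
  have h6 := FF_eq' hk h3 ((hkf h0).trans hx) h5
  refine ⟨h6.1, ?_⟩
  rw [h6.2, hkg h4, (hF' ζ' hζ').2]
  simp only [add_neg_cancel_right]

theorem DF_sub {ζ ζ' : ℂ} {x : M} (h : (ζ, x) ∈ DF E ρ) (h' : (ζ' + ζ, x) ∈ DF E ρ) :
    (ζ', FF E ρ ζ x) ∈ DF E ρ := by
  obtain ⟨a, b, f, hf, h0, hζ, hζ', hx, hF⟩ := exists_orb₂ h h'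
  have h1 := hf.shift ζ
  have h2 : (0 : ℂ) ∈ strip (a - ζ.re) (b - ζ.re) := by
    rw [mem_strip] at hζ ⊢
    rw [zero_re]
    constructor <;> linarith [hζ.1, hζ.2]
  have h3 : ζ' ∈ strip (a - ζ.re) (b - ζ.re) := by
    rw [mem_strip] at hζ' ⊢
    rw [add_re] at hζ'
    constructor <;> linarith [hζ'.1, hζ'.2]
  refine (FF_eq' h1 h2 ?_ h3).1
  simp only [zero_add]
  exact ((hF ζ hζ).2).symm

end Vale.Agent.P253.R2.H156
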