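import Mathlib

/-!
P253, Rosay-Rudin without normal forms, part 1: linear algebra of generalized eigenspaces.
-/

open Module Module.End Set

noncomputable section

namespace Vale.Agent.P253.R2.H156.RR

section la

variable {K V W : Type*} [Field K] [AddCommGroup V] [Module K V] [AddCommGroup W] [Module K W]

/-- picking out the components of a sum of generalized eigenvectors -/
theorem eq_sum_filter {φ : End K V} {ι : Type*} (s : Finset ι) {ν : ι → K} {y : ι → V}
    (hy : ∀ i ∈ s, y i ∈ φ.maxGenEigenspace (ν i)) {μ : K} {x : V}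
    (hx : x ∈ φ.maxGenEigenspace μ) (h : x = ∑ i ∈ s, y i) [DecidablePred fun i => ν i = μ] :
    x = ∑ i ∈ s with ν i = μ, y i := by
  classical
  have h1 := (independent_maxGenEigenspace φ) μ
  rw [Submodule.disjoint_def] at h1
  have h2 : x - ∑ i ∈ s with ν i = μ, y i ∈ φ.maxGenEigenspace μ := by
    refine Submodule.sub_mem _ hx (Submodule.sum_mem _ fun i hi => ?_)
    rw [Finset.mem_filter] at hi
    rw [← hi.2]
    exact hy i hi.1
  have h3 : x - ∑ i ∈ s with ν i = μ, y i = ∑ i ∈ s with ¬ ν i = μ, y i := by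
    rw [h, sub_eq_iff_eq_add, add_comm, Finset.sum_filter_add_sum_filter_not]
  have h4 : x - ∑ i ∈ s with ν i = μ, y i ∈ ⨆ j, ⨆ (_ : j ≠ μ), φ.maxGenEigenspace j := by
    rw [h3]
    refine Submodule.sum_mem _ fun i hi => ?_
    rw [Finset.mem_filter] at hi
    exact Submodule.mem_iSup_of_mem (ν i) (Submodule.mem_iSup_of_mem hi.2 (hy i hi.1))
  exact sub_eq_zero.1 (h1 _ h2 h4)

theorem map_pow_sub {f : End K V} {g : End K W} {π : V →ₗ[K] W}
    (hfg : ∀ v, π (f v) = g (π v)) (μ : K) (k : ℕ) (v : V) :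
    π (((f - μ • (1 : End K V)) ^ k) v) = ((g - μ • (1 : End K W)) ^ k) (π v) := by
  induction k generalizing v with
  | zero => simp
  | succ k ih =>
    rw [pow_succ, pow_succ]
    change π (((f - μ • (1 : End K V)) ^ k) ((f - μ • (1 : End K V)) v)) =
      ((g - μ • (1 : End K W)) ^ k) ((g - μ • (1 : End K W)) (π v))
    rw [ih]
    congr 1
    simp [hfg]

theorem map_mem_maxGen {f : End K V} {g : End K W} {π : V →ₗ[K] W}
    (hfg : ∀ v, π (f v) = g (π v)) {μ : K} {v : V} (hv : v ∈ f.maxGenEigenspace μ) :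
    π v ∈ g.maxGenEigenspace μ := by
  rw [mem_maxGenEigenspace] at hv ⊢
  obtain ⟨k, hk⟩ := hv
  exact ⟨k, by rw [← map_pow_sub hfg, hk, map_zero]⟩

/-- generalized eigenvectors can be lifted along an equivariant surjection -/
theorem exists_lift [IsAlgClosed K] [FiniteDimensional K V] {f : End K V} {g : End K W}
    {π : V →ₗ[K] W} (hπ : Function.Surjective π) (hfg : ∀ v, π (f v) = g (π v)) {μ : K} {w : W}
    (hw : w ∈ g.maxGenEigenspace μ) : ∃ v ∈ f.maxGenEigenspace μ, π v = w := by
  classical
  obtain ⟨v0, hv0⟩ := hπ w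
  have h1 : v0 ∈ ⨆ (μ : K), f.maxGenEigenspace μ := by
    rw [iSup_maxGenEigenspace_eq_top]; trivial
  obtain ⟨a, ha, hav⟩ := (Submodule.mem_iSup_iff_exists_finsupp _ _).1 h1
  have h2 := eq_sum_filter (φ := g) a.support (ν := id) (y := fun i => π (a i))
    (fun i _ => map_mem_maxGen hfg (ha i)) hw (by
      rw [← hv0, ← hav, Finsupp.sum, map_sum])
  refine ⟨∑ i ∈ a.support with id i = μ, a i, ?_, ?_⟩
  · refine Submodule.sum_mem _ fun i hi => ?_
    rw [Finset.mem_filter] at hi
    rw [← hi.2]
    exact ha i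
  · rw [map_sum, ← h2]

/-- a basis of generalized eigenvectors -/
theorem exists_basis [IsAlgClosed K] [FiniteDimensional K V] (f : End K V) :
    ∃ (b : Basis (Fin (finrank K V)) K V) (ν : Fin (finrank K V) → K),
      ∀ i, b i ∈ f.maxGenEigenspace (ν i) := by
  classical
  set s : Set V := ⋃ μ : K, (f.maxGenEigenspace μ : Set V) with hs
  have h1 : ⊤ ≤ Submodule.span K s := by
    rw [← iSup_maxGenEigenspace_eq_top f, hs, Submodule.span_iUnion]
    exact iSup_mono fun μ => Submodule.subset_span
  let b0 := Basis.ofSpan h1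
  have hb0 : ∀ i, b0 i ∈ s := fun i => Basis.ofSpan_subset h1 (mem_range_self i)
  have : Fintype ((linearIndepOn_empty K id).extend (empty_subset s)) :=
    FiniteDimensional.fintypeBasisIndex b0
  let e := Fintype.equivFinOfCardEq (finrank_eq_card_basis b0).symm
  let b := b0.reindex e
  have hb : ∀ i, ∃ μ, b i ∈ f.maxGenEigenspace μ := by
    intro i
    obtain ⟨μ, hμ⟩ := mem_iUnion.1 (hb0 (e.symm i))
    exact ⟨μ, by rw [Basis.reindex_apply]; exact hμ⟩
  choose ν hν using hb
  exact ⟨b, ν, hν⟩

theorem ne_zero_of_injective {f : End K V} (hf : Function.Injective f) {μ : K} {v : V}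
    (hv : v ≠ 0) (h : v ∈ f.maxGenEigenspace μ) : μ ≠ 0 := by
  rintro rfl
  rw [mem_maxGenEigenspace] at h
  obtain ⟨k, hk⟩ := h
  rw [zero_smul, sub_zero] at hk
  apply hv
  have : Function.Injective (f ^ k) := by
    rw [Module.End.coe_pow]
    exact hf.iterate k
  exact this (by rw [hk, map_zero])

end la

section alg

variable {K A : Type*} [Field K] [CommRing A] [Algebra K A]

/-- products of generalized eigenvectors of an algebra endomorphism -/
theorem mul_mem_maxGen (φ : A →ₐ[K] A) {a b : K} {f g : A}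
    (hf : f ∈ maxGenEigenspace φ.toLinearMap a) (hg : g ∈ maxGenEigenspace φ.toLinearMap b) :
    f * g ∈ maxGenEigenspace φ.toLinearMap (a * b) := by
  rw [mem_maxGenEigenspace] at hf hg
  obtain ⟨m, hm⟩ := hf
  obtain ⟨n, hn⟩ := hg
  suffices H : ∀ N m n : ℕ, m + n ≤ N → ∀ f g : A,
      ((φ.toLinearMap - a • (1 : End K A)) ^ m) f = 0 →
      ((φ.toLinearMap - b • (1 : End K A)) ^ n) g = 0 →
      f * g ∈ maxGenEigenspace φ.toLinearMap (a * b) from H (m + n) m n le_rfl f g hm hn
  intro N
  induction N with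
  | zero =>
    intro m n hmn f g hf hg
    have : m = 0 := by omega
    subst this
    have : f = 0 := by simpa using hf
    rw [this, zero_mul]
    exact Submodule.zero_mem _
  | succ N ih =>
    intro m n hmn f g hf hg
    rcases Nat.eq_zero_or_pos m with rfl | hm
    · have : f = 0 := by simpa using hf
      rw [this, zero_mul]
      exact Submodule.zero_mem _
    rcases Nat.eq_zero_or_pos n with rfl | hn
    · have : g = 0 := by simpa using hg
      rw [this, mul_zero]
      exact Submodule.zero_mem _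
    obtain ⟨m, rfl⟩ := Nat.exists_eq_succ_of_ne_zero hm.ne'
    obtain ⟨n, rfl⟩ := Nat.exists_eq_succ_of_ne_zero hn.ne'
    have h1 : (φ.toLinearMap - (a * b) • (1 : End K A)) (f * g) =
        (φ.toLinearMap - a • (1 : End K A)) f * φ g +
          (a • f) * (φ.toLinearMap - b • (1 : End K A)) g := by
      simp only [LinearMap.sub_apply, LinearMap.smul_apply, End.one_apply, AlgHom.toLinearMap_apply,
        map_mul, sub_mul, mul_sub, smul_mul_assoc, mul_smul_comm, smul_smul]
      rw [mul_comm b a]
      abel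
    have hφg : ((φ.toLinearMap - b • (1 : End K A)) ^ (n + 1)) (φ g) = 0 := by
      have := map_pow_sub (f := φ.toLinearMap) (g := φ.toLinearMap) (π := φ.toLinearMap)
        (fun v => rfl) b (n + 1) g
      rw [hg, map_zero] at this
      exact this.symm
    have haf : ((φ.toLinearMap - a • (1 : End K A)) ^ (m + 1)) (a • f) = 0 := by
      rw [map_smul, hf, smul_zero]
    have h2 : (φ.toLinearMap - a • (1 : End K A)) f * φ g ∈
        maxGenEigenspace φ.toLinearMap (a * b) :=
      ih m (n + 1) (by omega) _ _ (by rw [pow_succ] at hf; exact hf) hφg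
    have h3 : (a • f) * (φ.toLinearMap - b • (1 : End K A)) g ∈
        maxGenEigenspace φ.toLinearMap (a * b) :=
      ih (m + 1) n (by omega) _ _ haf (by rw [pow_succ] at hg; exact hg)
    have h4 := Submodule.add_mem _ h2 h3
    rw [← h1, mem_maxGenEigenspace] at h4
    obtain ⟨k, hk⟩ := h4
    rw [mem_maxGenEigenspace]
    exact ⟨k + 1, by rw [pow_succ]; exact hk⟩

end alg

end Vale.Agent.P253.R2.H156.RR
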