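import Mathlib.Analysis.Complex.Schwarz
import Vale.Agent.P253.Bdl.B1

/-!
P253, SG: the generator of a continuous local one-parameter semigroup of holomorphic maps of a
ball (local coordinates part).
-/

open scoped ContDiff Topology Interval
open Set Metric Filter MeasureTheory Vale.Agent.P253.Mfd

set_option maxSynthPendingDepth 3
set_option linter.unusedSectionVars false

noncomputable section

namespace Vale.Agent.P253.R2.H156

variable {E : Type*} [NormedAddCommGroup E] [NormedSpace ℂ E] [FiniteDimensional ℂ E]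

/-- Cauchy estimate -/
theorem norm_fderiv_le_of_bound {f : E → E} {c : E} {R B : ℝ} (hR : 0 < R)
    (hd : DifferentiableOn ℂ f (ball c R)) (hB : ∀ z ∈ ball c R, ‖f z‖ ≤ B) :
    ‖fderiv ℂ f c‖ ≤ 2 * B / R := by
  refine Complex.norm_fderiv_le_div_of_mapsTo_ball hd (fun z hz => ?_) hR
  rw [mem_closedBall, dist_eq_norm]
  calc ‖f z - f c‖ ≤ ‖f z‖ + ‖f c‖ := norm_sub_le _ _
    _ ≤ B + B := add_le_add (hB z hz) (hB c (mem_ball_self hR))
    _ = 2 * B := by ring

variable {F : ℝ → E → E} {z₀ : E} {r : ℝ}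

theorem slice_cont (hc : ContinuousOn (fun p : ℝ × E => F p.1 p.2) (univ ×ˢ ball z₀ r)) {z : E}
    (hz : z ∈ ball z₀ r) : Continuous fun s => F s z := by
  rw [← continuousOn_univ]
  exact hc.comp (by fun_prop : ContinuousOn (fun s : ℝ => (s, z)) univ)
    (fun s _ => ⟨mem_univ _, hz⟩)

/-- uniform continuity in the parameter -/
theorem unif_param (hc : ContinuousOn (fun p : ℝ × E => F p.1 p.2) (univ ×ˢ ball z₀ r))
    {K : Set E} (hK : IsCompact K) (hKr : K ⊆ ball z₀ r) (s₀ : ℝ) {ε : ℝ} (hε : 0 < ε) :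
    ∃ δ > 0, ∀ s, |s - s₀| < δ → ∀ z ∈ K, ‖F s z - F s₀ z‖ < ε := by
  have h1 : IsCompact (Icc (s₀ - 1) (s₀ + 1) ×ˢ K) := isCompact_Icc.prod hK
  have h2 := h1.uniformContinuousOn_of_continuous
    (hc.mono (prod_mono (subset_univ _) hKr))
  rw [Metric.uniformContinuousOn_iff] at h2
  obtain ⟨δ, hδ, h3⟩ := h2 ε hε
  refine ⟨min δ 1, by positivity, fun s hs z hz => ?_⟩
  have hs1 : |s - s₀| < 1 := hs.trans_le (min_le_right _ _)
  rw [abs_lt] at hs1
  have := h3 (s, z) ⟨⟨by linarith [hs1.1], by linarith [hs1.2]⟩, hz⟩ (s₀, z)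
    ⟨⟨by linarith, by linarith⟩, hz⟩ (by
      rw [Prod.dist_eq, dist_self, Real.dist_eq]
      simpa using hs.trans_le (min_le_left _ _))
  rwa [dist_eq_norm] at this

/-- continuity of the differential in the parameter -/
theorem continuous_fderiv_param
    (hc : ContinuousOn (fun p : ℝ × E => F p.1 p.2) (univ ×ˢ ball z₀ r))
    (hd : ∀ s, DifferentiableOn ℂ (F s) (ball z₀ r)) {z : E} (hz : z ∈ ball z₀ r) :
    Continuous fun s => fderiv ℂ (F s) z := by
  have hprop : ProperSpace E := FiniteDimensional.proper ℂ E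
  obtain ⟨ρ, hρ, hρr⟩ := Metric.isOpen_iff.1 isOpen_ball z hz
  have hρ' : closedBall z (ρ / 2) ⊆ ball z₀ r :=
    (closedBall_subset_ball (by linarith)).trans hρr
  rw [continuous_iff_continuousAt]
  intro s₀
  rw [Metric.continuousAt_iff]
  intro ε hε
  obtain ⟨δ, hδ, h⟩ := unif_param hc (isCompact_closedBall z (ρ / 2)) hρ' s₀
    (ε := ε * ρ / 8) (by positivity)
  refine ⟨δ, hδ, fun {s} hs => ?_⟩
  rw [Real.dist_eq] at hs
  have hb : ball z (ρ / 2) ⊆ ball z₀ r := ball_subset_closedBall.trans hρ'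
  have h1 : fderiv ℂ (F s) z - fderiv ℂ (F s₀) z = fderiv ℂ (F s - F s₀) z :=
    (fderiv_sub ((hd s).differentiableAt (isOpen_ball.mem_nhds hz))
      ((hd s₀).differentiableAt (isOpen_ball.mem_nhds hz))).symm
  rw [dist_eq_norm, h1]
  have h2 := norm_fderiv_le_of_bound (f := F s - F s₀) (c := z) (R := ρ / 2) (B := ε * ρ / 8)
    (by positivity) (((hd s).sub (hd s₀)).mono hb)
    (fun w hw => (h s hs w (ball_subset_closedBall hw)).le)
  calc ‖fderiv ℂ (F s - F s₀) z‖ ≤ 2 * (ε * ρ / 8) / (ρ / 2) := h2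
    _ = ε / 2 := by field_simp; ring
    _ < ε := by linarith

/-- integrals of holomorphic maps depending on a parameter are holomorphic -/
theorem differentiableOn_integral
    (hc : ContinuousOn (fun p : ℝ × E => F p.1 p.2) (univ ×ˢ ball z₀ r))
    (hd : ∀ s, DifferentiableOn ℂ (F s) (ball z₀ r)) (a : ℝ) :
    DifferentiableOn ℂ (fun z => ∫ s in (0 : ℝ)..a, F s z) (ball z₀ r) := by
  have hprop : ProperSpace E := FiniteDimensional.proper ℂ E
  have hCE : CompleteSpace E := FiniteDimensional.complete ℂ E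
  intro z hz
  obtain ⟨ρ, hρ, hρr⟩ := Metric.isOpen_iff.1 isOpen_ball z hz
  have hρ' : closedBall z (ρ / 2) ⊆ ball z₀ r :=
    (closedBall_subset_ball (by linarith)).trans hρr
  have hcomp : IsCompact (uIcc 0 a ×ˢ closedBall z (ρ / 2)) :=
    isCompact_uIcc.prod (isCompact_closedBall z (ρ / 2))
  obtain ⟨B, hB⟩ := hcomp.exists_bound_of_continuousOn
    (hc.mono (prod_mono (subset_univ _) hρ'))
  have hmem : ∀ x ∈ ball z (ρ / 4), ball x (ρ / 4) ⊆ closedBall z (ρ / 2) := by
    intro x hx w hw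
    rw [mem_ball] at hx hw
    rw [mem_closedBall]
    linarith [dist_triangle w x z]
  have hin : ∀ x ∈ ball z (ρ / 4), x ∈ ball z₀ r := fun x hx =>
    hρ' (hmem x hx (mem_ball_self (by positivity)))
  have key := intervalIntegral.hasFDerivAt_integral_of_dominated_of_fderiv_le (𝕜 := ℂ)
    (μ := volume) (a := 0) (b := a) (F := fun x s => F s x)
    (F' := fun x s => fderiv ℂ (F s) x) (x₀ := z)
    (s := ball z (ρ / 4)) (bound := fun _ => 2 * B / (ρ / 4))
    (ball_mem_nhds z (by positivity))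
    (by
      filter_upwards [ball_mem_nhds z (by positivity : 0 < ρ / 4)] with x hx
      exact (slice_cont hc (hin x hx)).aestronglyMeasurable)
    ((slice_cont hc hz).intervalIntegrable _ _)
    ((continuous_fderiv_param hc hd hz).aestronglyMeasurable)
    (by
      refine Eventually.of_forall fun s hs x hx => ?_
      refine norm_fderiv_le_of_bound (by positivity)
        ((hd s).mono ((hmem x hx).trans hρ')) fun w hw => ?_
      exact hB (s, w) ⟨uIoc_subset_uIcc hs, hmem x hx hw⟩)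
    intervalIntegrable_const
    (by
      refine Eventually.of_forall fun s _ x hx => ?_
      exact ((hd s).differentiableAt (isOpen_ball.mem_nhds (hin x hx))).hasFDerivAt)
  exact key.differentiableAt.differentiableWithinAt

/-- **The generator of a local semigroup of holomorphic maps.** -/
theorem local_generator {δ : ℝ} (hr : 0 < r) (hδ : 0 < δ)
    (hc : ContinuousOn (fun p : ℝ × E => F p.1 p.2) (univ ×ˢ ball z₀ r))
    (hd : ∀ s, DifferentiableOn ℂ (F s) (ball z₀ r))
    (h0 : ∀ z ∈ ball z₀ r, F 0 z = z)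
    (hs : ∀ s t, 0 ≤ s → 0 ≤ t → s + t ≤ δ → ∀ z ∈ ball z₀ r, F t z ∈ ball z₀ r →
      F (s + t) z = F s (F t z)) :
    ∃ w : E → E, ∃ ρ > 0, ∃ τ > 0, DifferentiableAt ℂ w z₀ ∧ τ ≤ δ ∧
      ∀ z ∈ ball z₀ ρ, ∀ t ∈ Ico 0 τ, F t z ∈ ball z₀ r ∧
        HasDerivWithinAt (fun t => F t z) (w (F t z)) (Ici 0) t := by
  have hprop : ProperSpace E := FiniteDimensional.proper ℂ E
  have hCE : CompleteSpace E := FiniteDimensional.complete ℂ E
  have hz₀ : z₀ ∈ ball z₀ r := mem_ball_self hr
  -- small times are close to the identity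
  obtain ⟨δ₁, hδ₁, h1⟩ := unif_param hc (isCompact_closedBall z₀ (r / 2))
    (closedBall_subset_ball (by linarith)) 0 (ε := r / 16) (by positivity)
  set a : ℝ := min (δ₁ / 2) (δ / 2) with ha
  have ha0 : 0 < a := by positivity
  have haδ : a ≤ δ / 2 := min_le_right _ _
  have haδ₁ : a < δ₁ := (min_le_left _ _).trans_lt (by linarith)
  have hclose : ∀ s ∈ Icc 0 a, ∀ z ∈ closedBall z₀ (r / 2), ‖F s z - z‖ ≤ r / 16 := by
    intro s hs z hz
    have := h1 s (by rw [sub_zero, abs_of_nonneg hs.1]; exact hs.2.trans_lt haδ₁) z hz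
    rw [h0 z (closedBall_subset_ball (by linarith) hz)] at this
    exact this.le
  set I : E → E := fun z => ∫ s in (0 : ℝ)..a, F s z with hI
  set g : E → E := fun z => ((a : ℂ)⁻¹) • I z with hg
  have haC : (a : ℂ) ≠ 0 := by exact_mod_cast ha0.ne'
  have hgd : DifferentiableOn ℂ g (ball z₀ r) := (differentiableOn_integral hc hd a).const_smul _
  have hgC : ContDiffOn ℂ ∞ g (ball z₀ r) := contDiffOn_of_differentiableOn_complex isOpen_ball hgd
  -- `g` is close to the identity
  have hgclose : ∀ z ∈ closedBall z₀ (r / 2), ‖g z - z‖ ≤ r / 16 := by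
    intro z hz
    have hzr : z ∈ ball z₀ r := closedBall_subset_ball (by linarith) hz
    have e1 : g z - z = ((a : ℂ)⁻¹) • ∫ s in (0 : ℝ)..a, (F s z - z) := by
      rw [intervalIntegral.integral_sub ((slice_cont hc hzr).intervalIntegrable _ _)
        intervalIntegrable_const, intervalIntegral.integral_const, sub_zero, smul_sub, hg]
      congr 1
      rw [← Complex.coe_smul a z, smul_smul, inv_mul_cancel₀ haC, one_smul]
    rw [e1, norm_smul, norm_inv, Complex.norm_real, Real.norm_of_nonneg ha0.le]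
    have e2 : ‖∫ s in (0 : ℝ)..a, (F s z - z)‖ ≤ r / 16 * |a - 0| := by
      refine intervalIntegral.norm_integral_le_of_norm_le_const fun s hs => ?_
      rw [uIoc_of_le ha0.le] at hs
      exact hclose s ⟨hs.1.le, hs.2⟩ z hz
    rw [sub_zero, abs_of_pos ha0] at e2
    calc a⁻¹ * ‖∫ s in (0 : ℝ)..a, (F s z - z)‖ ≤ a⁻¹ * (r / 16 * a) := by gcongr
      _ = r / 16 := by field_simp
  have hgD : HasFDerivAt g (fderiv ℂ g z₀) z₀ :=
    (hgd.differentiableAt (isOpen_ball.mem_nhds hz₀)).hasFDerivAt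
  -- the differential of `g` at `z₀` is invertible
  obtain ⟨D, hD⟩ : ∃ D : E ≃L[ℂ] E, (D : E →L[ℂ] E) = fderiv ℂ g z₀ := by
    have e1 : ‖fderiv ℂ (g - id) z₀‖ ≤ 2 * (r / 16) / (r / 2) := by
      refine norm_fderiv_le_of_bound (by positivity) ((hgd.sub differentiableOn_id).mono
        (ball_subset_ball (by linarith))) fun z hz => ?_
      exact hgclose z (ball_subset_closedBall hz)
    have e2 : fderiv ℂ (g - id) z₀ = fderiv ℂ g z₀ - 1 :=
      (hgD.sub (hasFDerivAt_id z₀)).fderiv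
    have e3 : ‖1 - fderiv ℂ g z₀‖ < 1 := by
      rw [← norm_neg, neg_sub, ← e2]
      refine e1.trans_lt ?_
      rw [div_lt_one (by positivity)]
      linarith
    have e4 : IsUnit (fderiv ℂ g z₀) := by
      have := (Units.oneSub _ e3).isUnit
      simpa using this
    obtain ⟨u, hu⟩ := e4
    exact ⟨ContinuousLinearEquiv.unitsEquiv ℂ E u, by rw [← hu]; rfl⟩
  have hgA : ContDiffAt ℂ 2 g z₀ := (hgC.contDiffAt (isOpen_ball.mem_nhds hz₀)).of_le (by
    decide)
  have hgD' : HasFDerivAt g (D : E →L[ℂ] E) z₀ := by rw [hD]; exact hgD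
  have hgS : HasStrictFDerivAt g (D : E →L[ℂ] E) z₀ := hgA.hasStrictFDerivAt' hgD' (by norm_num)
  set G : E → E := hgA.localInverse hgD' (by norm_num) with hG
  have hGC : ContDiffAt ℂ 2 G (g z₀) := hgA.to_localInverse hgD' (by norm_num)
  have hleft : ∀ᶠ z in 𝓝 z₀, G (g z) = z := hgS.eventually_left_inverse
  have hGd : ∀ᶠ y in 𝓝 (g z₀), DifferentiableAt ℂ G y := by
    filter_upwards [hGC.eventually (by simp)] with y hy
    exact hy.differentiableAt (by norm_num)
  have hGd' : ∀ᶠ z in 𝓝 z₀, DifferentiableAt ℂ G (g z) := hgD.continuousAt.eventually hGd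
  -- the generator
  set w : E → E := fun y => fderiv ℂ G (g y) ((a : ℂ)⁻¹ • (F a y - y)) with hw
  have hwd : DifferentiableAt ℂ w z₀ := by
    have e1 : DifferentiableAt ℂ (fderiv ℂ G) (g z₀) :=
      (hGC.fderiv_right (m := 1) (by norm_num)).differentiableAt (by norm_num)
    have e2 : DifferentiableAt ℂ (fun y => fderiv ℂ G (g y)) z₀ :=
      DifferentiableAt.comp z₀ e1 hgD.differentiableAt
    have e3 : DifferentiableAt ℂ (F a) z₀ := (hd a).differentiableAt (isOpen_ball.mem_nhds hz₀)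
    exact e2.clm_apply ((e3.sub differentiableAt_id).const_smul _)
  -- a good neighbourhood
  obtain ⟨ρ₁, hρ₁, hball⟩ := Metric.eventually_nhds_iff_ball.1 (hleft.and hGd')
  set ρ₂ : ℝ := min ρ₁ r with hρ₂
  have hρ₂0 : 0 < ρ₂ := by positivity
  obtain ⟨δ₂, hδ₂, h2⟩ := unif_param hc (isCompact_closedBall z₀ (ρ₂ / 2))
    (closedBall_subset_ball (by linarith [min_le_right ρ₁ r])) 0 (ε := ρ₂ / 2) (by positivity)
  set τ : ℝ := min a δ₂ with hτ
  have hτ0 : 0 < τ := by positivity
  have hmem : ∀ z ∈ ball z₀ (ρ₂ / 2), ∀ t ∈ Ico 0 τ, F t z ∈ ball z₀ ρ₂ := by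
    intro z hz t ht
    have e1 := h2 t (by rw [sub_zero, abs_of_nonneg ht.1]; exact ht.2.trans_le (min_le_right _ _))
      z (ball_subset_closedBall hz)
    rw [h0 z (ball_subset_ball (by linarith [min_le_right ρ₁ r]) hz), ← dist_eq_norm] at e1
    rw [mem_ball] at hz ⊢
    linarith [dist_triangle (F t z) z z₀]
  have hsub1 : ball z₀ ρ₂ ⊆ ball z₀ ρ₁ := ball_subset_ball (min_le_left _ _)
  have hsubr : ball z₀ ρ₂ ⊆ ball z₀ r := ball_subset_ball (min_le_right _ _)
  have hτa : τ ≤ a := min_le_left _ _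
  refine ⟨w, ρ₂ / 2, by positivity, τ, hτ0, hwd, by linarith, fun z hz t ht => ?_⟩
  have hzr : z ∈ ball z₀ r := ball_subset_ball (by linarith [min_le_right ρ₁ r]) hz
  refine ⟨hsubr (hmem z hz t ht), ?_⟩
  -- the averaged orbit
  set H : ℝ → E := fun t => (a : ℂ)⁻¹ • ((∫ s in (0 : ℝ)..(t + a), F s z) - ∫ s in (0 : ℝ)..t, F s z)
    with hH
  have hcz : Continuous fun s => F s z := slice_cont hc hzr
  have hint : ∀ b c : ℝ, IntervalIntegrable (fun s => F s z) volume b c := fun b c =>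
    hcz.intervalIntegrable _ _
  have hHg : ∀ t ∈ Ico 0 τ, g (F t z) = H t := by
    intro t ht
    have e1 : I (F t z) = ∫ s in (0 : ℝ)..a, F (s + t) z := by
      refine intervalIntegral.integral_congr fun s hs' => ?_
      rw [uIcc_of_le ha0.le] at hs'
      exact (hs s t hs'.1 ht.1 (by linarith [hs'.2, ht.2]) z hzr
        (hsubr (hmem z hz t ht))).symm
    have e2 : ∫ s in (0 : ℝ)..a, F (s + t) z = ∫ s in t..(t + a), F s z := by
      rw [intervalIntegral.integral_comp_add_right (fun s => F s z), zero_add, add_comm a t]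
    have e3 : (∫ s in t..(t + a), F s z) =
        (∫ s in (0 : ℝ)..(t + a), F s z) - ∫ s in (0 : ℝ)..t, F s z :=
      (intervalIntegral.integral_interval_sub_left (hint _ _) (hint _ _)).symm
    simp only [hg, hH]
    rw [e1, e2, e3]
  have hHd : HasDerivAt H ((a : ℂ)⁻¹ • (F (t + a) z - F t z)) t := by
    have e1 : HasDerivAt (fun b : ℝ => ∫ s in (0 : ℝ)..b, F s z) (F t z) t :=
      intervalIntegral.integral_hasDerivAt_right (hint _ _)
        (hcz.stronglyMeasurableAtFilter _ _) hcz.continuousAt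
    have e2 : HasDerivAt (fun b : ℝ => ∫ s in (0 : ℝ)..b, F s z) (F (t + a) z) (t + a) :=
      intervalIntegral.integral_hasDerivAt_right (hint _ _)
        (hcz.stronglyMeasurableAtFilter _ _) hcz.continuousAt
    have e3 : HasDerivAt (fun t : ℝ => ∫ s in (0 : ℝ)..(t + a), F s z) (F (t + a) z) t :=
      e2.comp_add_const t a
    exact (e3.sub e1).const_smul _
  have hGH : HasDerivAt (fun t => G (H t)) (w (F t z)) t := by
    have e1 : DifferentiableAt ℂ G (H t) := by
      rw [← hHg t ht]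
      exact (hball _ (hsub1 (hmem z hz t ht))).2
    have e2 : HasFDerivAt G ((fderiv ℂ G (H t)).restrictScalars ℝ) (H t) :=
      e1.hasFDerivAt.restrictScalars ℝ
    have e3 := e2.comp_hasDerivAt t hHd
    have e4 : F (t + a) z = F a (F t z) := by
      rw [add_comm]
      exact hs a t ha0.le ht.1 (by linarith [ht.2]) z hzr (hsubr (hmem z hz t ht))
    rw [e4] at e3
    have e5 : w (F t z) = (fderiv ℂ G (H t)).restrictScalars ℝ
        ((a : ℂ)⁻¹ • (F a (F t z) - F t z)) := by
      simp only [hw, hHg t ht]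
      rfl
    rw [e5]
    exact e3
  refine hGH.hasDerivWithinAt.congr_of_eventuallyEq ?_ ?_
  · have e1 : ∀ᶠ t' in 𝓝[Ici 0] t, t' < τ :=
      (gt_mem_nhds ht.2).filter_mono nhdsWithin_le_nhds
    filter_upwards [e1, self_mem_nhdsWithin] with t' h3 h4
    have h5 : t' ∈ Ico 0 τ := ⟨h4, h3⟩
    rw [← hHg t' h5]
    exact (hball _ (hsub1 (hmem z hz t' h5))).1.symm
  · rw [← hHg t ht]
    exact (hball _ (hsub1 (hmem z hz t ht))).1.symm

end Vale.Agent.P253.R2.H156
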