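import Vale.Agent.P253.R2.H156.VFLift

/-!
P253, VF: lifts of holomorphic `ℂ`-actions along locally biholomorphic maps.
-/

open scoped Manifold ContDiff Topology
open Set Metric Complex Filter IsManifold Vale.Agent.P253.Mfd Vale.Agent.P253.R2.H922
  Vale.Agent.P253.R2.H445

set_option maxSynthPendingDepth 3
set_option linter.unusedSectionVars false

noncomputable section

namespace Vale.Agent.P253.R2.H156

variable {E : Type*} [NormedAddCommGroup E] [NormedSpace ℂ E] [FiniteDimensional ℂ E]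
  {N : Type*} [TopologicalSpace N] [ChartedSpace E N] [IsManifold 𝓘(ℂ, E) 1 N]
  {M : Type*} [MetricSpace M] [ChartedSpace E M] [IsManifold 𝓘(ℂ, E) 1 M]
  [IsManifold 𝓘(ℝ, E) ∞ M]
  {σ : ℂ → N → N}

/-- the differential, as a map of the model space -/
def dm (q : M → N) (x : M) : E →L[ℂ] E := mfderiv 𝓘(ℂ, E) 𝓘(ℂ, E) q x

/-- the lift of the generator of `σ` along `q` -/
def liftField (q : M → N) (σ : ℂ → N → N) (x : M) : E :=
  (dm (E := E) q x).inverse (mfderiv 𝓘(ℂ, ℂ) 𝓘(ℂ, E) (fun ζ => σ ζ (q x)) 0 (1 : ℂ) : E)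

theorem mfderiv_liftField {q : M → N} (hq : IsLocalDiffeomorph 𝓘(ℂ, E) 𝓘(ℂ, E) 1 q) (x : M) :
    dm (E := E) q x (liftField q σ x) =
      (mfderiv 𝓘(ℂ, ℂ) 𝓘(ℂ, E) (fun ζ => σ ζ (q x)) 0 (1 : ℂ) : E) := by
  obtain ⟨D, hD⟩ : ∃ D : E ≃L[ℂ] E, (D : E →L[ℂ] E) = dm (E := E) q x :=
    ⟨(hq x).mfderivToContinuousLinearEquiv (by norm_num),
      (hq x).mfderivToContinuousLinearEquiv_coe (by norm_num)⟩
  unfold liftField
  rw [← hD, ContinuousLinearMap.inverse_equiv]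
  exact D.apply_symm_apply _

/-- the lifted field in a chart given by `q` -/
theorem vfChart_lift {q : M → N} (hq : IsLocalDiffeomorph 𝓘(ℂ, E) 𝓘(ℂ, E) 1 q)
    (hσ : IsHolCFlow E σ) {e : OpenPartialHomeomorph M E}
    {c : OpenPartialHomeomorph N E} (hc : c ∈ maximalAtlas 𝓘(ℂ, E) 1 N)
    (hec : ∀ y ∈ e.source, q y ∈ c.source ∧ e y = c (q y)) {z : E} (hz : z ∈ e.target) :
    vfChart E (liftField q σ) e z = wc σ c z := by
  set y := e.symm z with hy
  have hys : y ∈ e.source := e.map_target hz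
  have hzy : z = e y := (e.right_inv hz).symm
  let D : E →L[ℂ] E := mfderiv 𝓘(ℂ, E) 𝓘(ℂ, E) q y
  let C : E →L[ℂ] E := mfderiv 𝓘(ℂ, E) 𝓘(ℂ, E) c (q y)
  let S : ℂ →L[ℂ] E := mfderiv 𝓘(ℂ, ℂ) 𝓘(ℂ, E) (fun ζ => σ ζ (q y)) 0
  have h1 : HasMFDerivAt 𝓘(ℂ, E) 𝓘(ℂ, E) q y D :=
    ((hq y).contMDiffAt.mdifferentiableAt (by norm_num)).hasMFDerivAt
  have h2 : HasMFDerivAt 𝓘(ℂ, E) 𝓘(ℂ, E) c (q y) C :=
    (mdiff_chart' hc (hec y hys).1).hasMFDerivAt
  have h3 : HasMFDerivAt 𝓘(ℂ, E) 𝓘(ℂ, E) (c ∘ q) y (C.comp D) := h2.comp y h1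
  have h4 : (e : M → E) =ᶠ[𝓝 y] c ∘ q := by
    filter_upwards [e.open_source.mem_nhds hys] with w hw using (hec w hw).2
  have h5 : HasMFDerivAt 𝓘(ℂ, E) 𝓘(ℂ, E) e y (C.comp D) := h3.congr_of_eventuallyEq h4
  have h6 : (mfderiv 𝓘(ℂ, E) 𝓘(ℂ, E) e y : E →L[ℂ] E) = C.comp D := h5.mfderiv
  have h7 : vfChart E (liftField q σ) e z = C (D (liftField q σ y)) := by
    have h7' : vfChart E (liftField q σ) e z =
        (fun A : E →L[ℂ] E => A (liftField q σ y))
          (mfderiv 𝓘(ℂ, E) 𝓘(ℂ, E) e y : E →L[ℂ] E) := rfl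
    rw [h7', h6]
    rfl
  have h8 : D (liftField q σ y) = S 1 := mfderiv_liftField hq y
  have h9 : HasMFDerivAt 𝓘(ℂ, ℂ) 𝓘(ℂ, E) (fun ζ => σ ζ (q y)) 0 S :=
    (mdiff_curve hσ (q y) 0).hasMFDerivAt
  have h10 : HasMFDerivAt 𝓘(ℂ, E) 𝓘(ℂ, E) c (σ 0 (q y)) C := by
    rw [hσ.zero]; exact h2
  have h11 : HasMFDerivAt 𝓘(ℂ, ℂ) 𝓘(ℂ, E) (c ∘ fun ζ => σ ζ (q y)) 0 (C.comp S) :=
    h10.comp 0 h9
  have h12 : HasFDerivAt (c ∘ fun ζ => σ ζ (q y)) (C.comp S) 0 := h11.hasFDerivAt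
  have h13 := h12.hasDerivAt.deriv
  rw [h7, h8]
  have h14 : wc σ c z = deriv (c ∘ fun ζ => σ ζ (q y)) 0 := by
    unfold wc
    rw [hzy, (hec y hys).2, c.left_inv (hec y hys).1]
    rfl
  rw [h14, h13]
  rfl

/-- a vector field which is holomorphic in some chart at each point is holomorphic -/
theorem isHolVectorField_of_local' {X : M → E}
    (h : ∀ x : M, ∃ e ∈ maximalAtlas 𝓘(ℂ, E) 1 M, x ∈ e.source ∧
      DifferentiableAt ℂ (vfChart E X e) (e x)) : IsHolVectorField E X := by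
  intro e' he' z' hz'
  set x := e'.symm z' with hx
  have hxs' : x ∈ e'.source := e'.map_target hz'
  obtain ⟨e, he, hxe, hXe⟩ := h x
  have hCE : CompleteSpace E := FiniteDimensional.complete ℂ E
  -- the change of coordinates
  set O : Set E := e.target ∩ e.symm ⁻¹' e'.source with hO
  have hOo : IsOpen O := e.continuousOn_symm.isOpen_inter_preimage e.open_target e'.open_source
  have hhd : DifferentiableOn ℂ (e' ∘ e.symm) O := by
    intro w hw
    exact ((mdiff_chart he' hw.2).comp w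
      (mdiff_chart_symm he hw.1)).differentiableAt.differentiableWithinAt
  have hh2 : ContDiffOn ℂ ∞ (e' ∘ e.symm) O := contDiffOn_of_differentiableOn_complex hOo hhd
  -- transformation rule
  have key : ∀ y ∈ e.source ∩ e'.source,
      vfChart E X e' (e' y) = fderiv ℂ (e' ∘ e.symm) (e y) (vfChart E X e (e y)) := by
    intro y hy
    set v := vfChart E X e (e y) with hv
    have hyt : e y ∈ e.target := e.map_source hy.1
    have h1 : HasDerivAt (fun w : ℂ => e y + w • v) v 0 := by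
      simpa using ((hasDerivAt_id (0 : ℂ)).smul_const v).const_add (e y)
    have h2 : OrbAt X (fun w : ℂ => e.symm (e y + w • v)) 0 := by
      refine orbit_of_chart he ?_ ?_
      · simpa [hv] using h1
      · simpa using hyt
    have h3 := orbit_chart he' h2 (by
      simp only [zero_smul, add_zero, e.left_inv hy.1]; exact hy.2)
    simp only [zero_smul, add_zero, e.left_inv hy.1] at h3
    have h4 : HasFDerivAt (e' ∘ e.symm) (fderiv ℂ (e' ∘ e.symm) (e y)) (e y + (0 : ℂ) • v) := by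
      rw [zero_smul, add_zero]
      exact (hhd.differentiableAt (hOo.mem_nhds ⟨hyt, by
        simp only [mem_preimage, e.left_inv hy.1]; exact hy.2⟩)).hasFDerivAt
    have h5 := h4.comp_hasDerivAt (0 : ℂ) h1
    exact h3.unique h5
  -- conclusion
  have h1 : DifferentiableAt ℂ (fun z => fderiv ℂ (e' ∘ e.symm) (e (e'.symm z))
      (vfChart E X e (e (e'.symm z)))) z' := by
    have h2 : DifferentiableAt ℂ (fun z => e (e'.symm z)) z' :=
      ((mdiff_chart he hxe).comp z' (mdiff_chart_symm he' hz')).differentiableAt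
    have hmem : e (e'.symm z') ∈ O := ⟨e.map_source hxe, by
      simp only [mem_preimage]; rw [← hx, e.left_inv hxe]; exact hxs'⟩
    have h3 : DifferentiableAt ℂ (fderiv ℂ (e' ∘ e.symm)) (e (e'.symm z')) :=
      ((hh2.contDiffAt (hOo.mem_nhds hmem)).fderiv_right (m := 1)
        (by norm_cast)).differentiableAt (by norm_num)
    have h4 : DifferentiableAt ℂ (vfChart E X e) (e (e'.symm z')) := hXe
    exact DifferentiableAt.clm_apply (DifferentiableAt.comp z' (f := fun z => e (e'.symm z)) h3 h2)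
      (DifferentiableAt.comp z' (f := fun z => e (e'.symm z)) h4 h2)
  refine (h1.congr_of_eventuallyEq ?_).differentiableWithinAt
  have hn : ∀ᶠ z in 𝓝 z', z ∈ e'.target ∧ e'.symm z ∈ e.source := by
    refine (e'.open_target.eventually_mem hz').and ?_
    exact (e'.symm.continuousAt hz').eventually (e.open_source.mem_nhds hxe)
  filter_upwards [hn] with z hz
  have := key (e'.symm z) ⟨hz.2, e'.map_target hz.1⟩
  rw [e'.right_inv hz.1] at this
  exact this

/-- a vector field which is holomorphic in some chart around each point is holomorphic -/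
theorem isHolVectorField_of_local {X : M → E}
    (h : ∀ x : M, ∃ e ∈ maximalAtlas 𝓘(ℂ, E) 1 M, x ∈ e.source ∧
      DifferentiableOn ℂ (vfChart E X e) e.target) : IsHolVectorField E X :=
  isHolVectorField_of_local' fun x => by
    obtain ⟨e, he, hx, hd⟩ := h x
    exact ⟨e, he, hx, hd.differentiableAt (e.open_target.mem_nhds (e.map_source hx))⟩

theorem isHolVectorField_lift {q : M → N} (hq : IsLocalDiffeomorph 𝓘(ℂ, E) 𝓘(ℂ, E) 1 q)
    (hσ : IsHolCFlow E σ) : IsHolVectorField E (liftField q σ) := by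
  refine isHolVectorField_of_local fun x => ?_
  obtain ⟨e, he, c, hc, hx, hec⟩ := exists_qchart hq x
  refine ⟨e, he, hx, ?_⟩
  have hsub : e.target ⊆ c.target := by
    intro z hz
    have := hec (e.symm z) (e.map_target hz)
    rw [← e.right_inv hz, this.2]
    exact c.map_source this.1
  exact ((differentiableOn_wc hσ hc).mono hsub).congr fun z hz => vfChart_lift hq hσ hc hec hz

/-- real curves from complex orbits -/
theorem real_of_orbAt {X : M → E} {f : ℂ → M} {t : ℝ} (h : OrbAt X f (t : ℂ)) :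
    HasMFDerivAt 𝓘(ℝ, ℝ) 𝓘(ℝ, E) (fun s : ℝ => f (s : ℂ)) t
      ((1 : ℝ →L[ℝ] ℝ).smulRight (X (f t)) : ℝ →L[ℝ] E) := by
  let D : ℂ →L[ℂ] E := dir (X (f t))
  have h1 : HasMFDerivAt 𝓘(ℝ, ℂ) 𝓘(ℝ, E) f (t : ℂ) (D.restrictScalars ℝ : ℂ →L[ℝ] E) :=
    ⟨h.1, h.2.restrictScalars ℝ⟩
  have h2 : HasMFDerivAt 𝓘(ℝ, ℝ) 𝓘(ℝ, ℂ) (fun s : ℝ => (s : ℂ)) t ofRealCLM :=
    ofRealCLM.hasFDerivAt.hasMFDerivAt
  have h3 := HasMFDerivAt.comp t h1 h2
  refine h3.congr_mfderiv ?_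
  have key : ∀ r : ℝ, ((1 : ℂ →L[ℂ] ℂ) ((r : ℝ) : ℂ)) • X (f t) =
      ((1 : ℝ →L[ℝ] ℝ) r) • X (f t) := fun r => by simp
  exact ContinuousLinearMap.ext key

/-- a continuous lift of a forward orbit is an integral curve of the lifted field -/
theorem hasMFDerivWithinAt_lift {q : M → N} (hq : IsLocalDiffeomorph 𝓘(ℂ, E) 𝓘(ℂ, E) 1 q)
    (hσ : IsHolCFlow E σ) {y : N} {γ : ℝ → M} {s : Set ℝ} (hγ : ContinuousOn γ s)
    (hl : ∀ t ∈ s, q (γ t) = σ t y) {t : ℝ} (ht : t ∈ s) :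
    HasMFDerivWithinAt 𝓘(ℝ, ℝ) 𝓘(ℝ, E) γ s t
      ((1 : ℝ →L[ℝ] ℝ).smulRight (liftField q σ (γ t)) : ℝ →L[ℝ] E) := by
  obtain ⟨e, he, c, hc, hx, hec⟩ := exists_qchart hq (γ t)
  have h1 : HasDerivAt (fun w => c (σ w y)) (wc σ c (c (σ t y))) (t : ℂ) := by
    refine hasDerivAt_curve hσ hc ?_
    rw [← hl t ht]; exact (hec _ hx).1
  have hk : c (σ t y) = e (γ t) := by rw [← hl t ht]; exact (hec _ hx).2.symm
  have hkt : c (σ t y) ∈ e.target := by rw [hk]; exact e.map_source hx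
  have h2 : OrbAt (liftField q σ : M → E) (fun w : ℂ => e.symm (c (σ w y))) (t : ℂ) := by
    refine orbit_of_chart he ?_ hkt
    rw [vfChart_lift hq hσ hc hec hkt]
    exact h1
  have h3 := real_of_orbAt (E := E) h2
  have hval : e.symm (c (σ t y)) = γ t := by rw [hk, e.left_inv hx]
  have h4 : HasMFDerivAt 𝓘(ℝ, ℝ) 𝓘(ℝ, E) (fun s : ℝ => e.symm (c (σ s y))) t
      ((1 : ℝ →L[ℝ] ℝ).smulRight (liftField q σ (γ t)) : ℝ →L[ℝ] E) := by
    have h5 : (liftField q σ (γ t) : E) = liftField q σ (e.symm (c (σ t y))) := by rw [hval]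
    rw [h5]
    exact h3
  refine h4.hasMFDerivWithinAt.congr_of_eventuallyEq ?_ hval.symm
  have h5 : ∀ᶠ w in 𝓝[s] t, γ w ∈ e.source :=
    (hγ t ht).eventually (e.open_source.mem_nhds hx)
  filter_upwards [h5, self_mem_nhdsWithin] with w hw hws
  rw [← hl w hws, ← (hec _ hw).2, e.left_inv hw]

/-- Let `M` satisfy the Kontinuitätssatz and Liouville's theorem. If the forward orbits of a
holomorphic action `σ` of `ℂ` on a complex manifold `N` lift along the locally biholomorphic map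
`q : M → N`, then `σ` lifts to a holomorphic action of `ℂ` on `M`. -/
theorem lift_flow' [T2Space N] (hKP : KP E M)
    (hL : ∀ u : M → EReal, UpperSemicontinuous u → (∀ x, u x ≤ 0) → NoTouch E u →
      ∃ C, ∀ x, u x = C)
    {q : M → N} (hq : IsLocalDiffeomorph 𝓘(ℂ, E) 𝓘(ℂ, E) 1 q)
    (hσ : IsHolCFlow E σ)
    (hl : ∀ x, ∃ γ : ℝ → M, γ 0 = x ∧ ContinuousOn γ (Ici 0) ∧
      ∀ t : ℝ, 0 ≤ t → q (γ t) = σ t (q x)) :
    ∃ ψ : ℂ → M → M, IsHolCFlow E ψ ∧ ∀ ζ x, q (ψ ζ x) = σ ζ (q x) := by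
  have hX : IsHolVectorField E (liftField q σ : M → E) := isHolVectorField_lift hq hσ
  have hfwd : ∀ (x : M) (γ : ℝ → M), γ 0 = x → ContinuousOn γ (Ici 0) →
      (∀ t : ℝ, 0 ≤ t → q (γ t) = σ t (q x)) → ∀ t : ℝ, 0 ≤ t →
      ((t:ℂ), x) ∈ DS (liftField q σ : M → E) ∧ FS (liftField q σ : M → E) t x = γ t := by
    intro x γ h0 hc hq' t ht
    exact mem_DS_of_curve hX h0
      (fun t ht => hasMFDerivWithinAt_lift hq hσ (y := q x) hc (fun t ht => hq' t ht) ht) ht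
  have hD : DS (liftField q σ : M → E) = univ := by
    refine complete_of_forward hKP hL hX fun x t ht => ?_
    obtain ⟨γ, h0, hc, hq'⟩ := hl x
    exact (hfwd x γ h0 hc hq' t ht).1
  obtain ⟨hψ, horb⟩ := exists_cflow_of_univ hX hD
  refine ⟨_, hψ, fun ζ x => ?_⟩
  have hqm : MDifferentiable 𝓘(ℂ, E) 𝓘(ℂ, E) q := fun x =>
    (hq x).contMDiffAt.mdifferentiableAt (by norm_num)
  have := eq_of_eq_real (E := E) (f := fun ζ => q (FS (liftField q σ : M → E) ζ x))
    (g := fun ζ => σ ζ (q x))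
    (fun ζ => (hqm _).comp ζ (mdiff_curve hψ x ζ)) (fun ζ => mdiff_curve hσ (q x) ζ) (by
      intro t ht
      obtain ⟨γ, h0, hc, hq'⟩ := hl x
      show q (FS (liftField q σ : M → E) t x) = _
      rw [(hfwd x γ h0 hc hq' t ht).2, hq' t ht])
  exact congrFun this ζ

end Vale.Agent.P253.R2.H156
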