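import Vale.Agent.P253.R2.H156.SG1
import Vale.Agent.P253.R2.H156.VFLift2

/-!
P253, SG: the generator of a continuous one-parameter semigroup of holomorphic self-maps of a
complex manifold.
-/

open scoped Manifold ContDiff Topology
open Set Metric Filter IsManifold Vale.Agent.P253.Mfd Vale.Agent.P253.R2.H445

set_option maxSynthPendingDepth 3
set_option linter.unusedSectionVars false

noncomputable section

namespace Vale.Agent.P253.R2

/-- `φ` is a continuous one-parameter semigroup of holomorphic self-maps of `M` (indexed by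
`[0, ∞)`; the values of `φ` at negative times are irrelevant) -/
structure IsHolSemigroup (E : Type*) [NormedAddCommGroup E] [NormedSpace ℂ E]
    {M : Type*} [TopologicalSpace M] [ChartedSpace E M] (φ : ℝ → M → M) : Prop where
  zero : ∀ x, φ 0 x = x
  add : ∀ s t x, 0 ≤ s → 0 ≤ t → φ (s + t) x = φ s (φ t x)
  cont : ContinuousOn (fun q : ℝ × M => φ q.1 q.2) (Ici 0 ×ˢ univ)
  holo : ∀ t, 0 ≤ t → MDifferentiable 𝓘(ℂ, E) 𝓘(ℂ, E) (φ t)

end Vale.Agent.P253.R2

namespace Vale.Agent.P253.R2.H156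

variable {E : Type*} [NormedAddCommGroup E] [NormedSpace ℂ E] [FiniteDimensional ℂ E]
  {M : Type*} [MetricSpace M] [ChartedSpace E M] [IsManifold 𝓘(ℂ, E) 1 M]
  [IsManifold 𝓘(ℝ, E) ∞ M]
  {φ : ℝ → M → M}

/-- the semigroup near a point, in the preferred chart -/
theorem exists_local_gen (h : IsHolSemigroup E φ) (x₀ : M) :
    ∃ w : E → E, ∃ ρ > 0, ∃ τ > 0, DifferentiableAt ℂ w (chartAt E x₀ x₀) ∧
      ball (chartAt E x₀ x₀) ρ ⊆ (chartAt E x₀).target ∧
      ∀ z ∈ ball (chartAt E x₀ x₀) ρ, ∀ t ∈ Ico 0 τ,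
        φ t ((chartAt E x₀).symm z) ∈ (chartAt E x₀).source ∧
        HasDerivWithinAt (fun t => chartAt E x₀ (φ t ((chartAt E x₀).symm z)))
          (w (chartAt E x₀ (φ t ((chartAt E x₀).symm z)))) (Ici 0) t := by
  have he : chartAt E x₀ ∈ maximalAtlas 𝓘(ℂ, E) 1 M := chart_mem_maximalAtlas x₀
  have hx₀ : x₀ ∈ (chartAt E x₀).source := mem_chart_source E x₀
  set e := chartAt E x₀ with hedef
  -- a small box
  have hev : ∀ᶠ p : ℝ × E in 𝓝[Ici 0 ×ˢ univ] (0, e x₀),
      p.2 ∈ e.target ∧ φ p.1 (e.symm p.2) ∈ e.source := by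
    have h1 : ∀ᶠ p : ℝ × E in 𝓝[Ici 0 ×ˢ univ] (0, e x₀), p.2 ∈ e.target :=
      (continuous_snd.continuousAt.eventually
        (e.open_target.mem_nhds (e.map_source hx₀))).filter_mono nhdsWithin_le_nhds
    refine h1.and ?_
    have h2 : ContinuousWithinAt (fun p : ℝ × E => φ p.1 (e.symm p.2)) (Ici 0 ×ˢ univ)
        (0, e x₀) := by
      have h3 : ContinuousWithinAt (fun q : ℝ × M => φ q.1 q.2) (Ici 0 ×ˢ univ)
          ((0 : ℝ), e.symm (e x₀)) :=
        h.cont ((0 : ℝ), e.symm (e x₀)) ⟨mem_Ici.2 le_rfl, mem_univ _⟩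
      have h4 : ContinuousAt (fun p : ℝ × E => (p.1, e.symm p.2)) (0, e x₀) :=
        continuousAt_fst.prodMk (ContinuousAt.comp (x := ((0 : ℝ), e x₀)) (f := Prod.snd)
          (g := e.symm) (e.continuousAt_symm (e.map_source hx₀)) continuousAt_snd)
      have hmaps : MapsTo (fun p : ℝ × E => (p.1, e.symm p.2)) (Ici 0 ×ˢ univ)
          (Ici 0 ×ˢ univ) := fun p hp => ⟨hp.1, mem_univ _⟩
      exact ContinuousWithinAt.comp (f := fun p : ℝ × E => (p.1, e.symm p.2)) h3
        h4.continuousWithinAt hmaps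
    refine h2.eventually ?_
    simp only [e.left_inv hx₀, h.zero]
    exact e.open_source.mem_nhds hx₀
  obtain ⟨V, hV, hVs⟩ := mem_nhdsWithin_iff_exists_mem_nhds_inter.1 hev
  obtain ⟨η, hη, hbox⟩ := Metric.mem_nhds_iff.1 hV
  set δ : ℝ := η / 2 with hδdef
  have hδ : 0 < δ := by positivity
  have hin : ∀ s ∈ Icc 0 δ, ∀ z ∈ ball (e x₀) η, z ∈ e.target ∧ φ s (e.symm z) ∈ e.source := by
    intro s hs z hz
    have hb : ((s, z) : ℝ × E) ∈ ball ((0 : ℝ), e x₀) η := by
      rw [mem_ball, Prod.dist_eq, max_lt_iff]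
      refine ⟨?_, hz⟩
      rw [Real.dist_eq, sub_zero, abs_of_nonneg hs.1]
      linarith [hs.2]
    have hm : ((s, z) : ℝ × E) ∈ V ∩ (Ici 0 ×ˢ univ) := ⟨hbox hb, ⟨hs.1, mem_univ _⟩⟩
    exact hVs hm
  have htar : ball (e x₀) η ⊆ e.target := fun z hz =>
    (hin 0 ⟨le_rfl, hδ.le⟩ z hz).1
  -- clamped semigroup
  set cl : ℝ → ℝ := fun s => max 0 (min s δ) with hcl
  have hclc : Continuous cl := continuous_const.max (continuous_id.min continuous_const)
  have hclm : ∀ s, cl s ∈ Icc 0 δ := fun s =>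
    ⟨le_max_left _ _, max_le hδ.le (min_le_right _ _)⟩
  have hcle : ∀ s ∈ Icc 0 δ, cl s = s := fun s hs => by
    simp only [hcl, min_eq_left hs.2, max_eq_right hs.1]
  set F : ℝ → E → E := fun s z => e (φ (cl s) (e.symm z)) with hF
  have hc : ContinuousOn (fun p : ℝ × E => F p.1 p.2) (univ ×ˢ ball (e x₀) η) := by
    have h1 : ContinuousOn (fun p : ℝ × E => (cl p.1, e.symm p.2)) (univ ×ˢ ball (e x₀) η) :=
      (hclc.comp continuous_fst).continuousOn.prodMk
        (e.continuousOn_symm.comp continuousOn_snd (fun p hp => htar hp.2))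
    have h2 : ContinuousOn (fun p : ℝ × E => φ (cl p.1) (e.symm p.2))
        (univ ×ˢ ball (e x₀) η) :=
      h.cont.comp h1 (fun p _ => ⟨(hclm p.1).1, mem_univ _⟩)
    exact e.continuousOn.comp h2 (fun p hp => (hin _ (hclm p.1) _ hp.2).2)
  have hd : ∀ s, DifferentiableOn ℂ (F s) (ball (e x₀) η) := by
    intro s z hz
    have h1 := hin _ (hclm s) z hz
    exact ((mdiff_chart he h1.2).comp z ((h.holo _ (hclm s).1 _).comp z
      (mdiff_chart_symm he h1.1))).differentiableAt.differentiableWithinAt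
  have h0 : ∀ z ∈ ball (e x₀) η, F 0 z = z := by
    intro z hz
    simp only [hF, hcle 0 ⟨le_rfl, hδ.le⟩, h.zero]
    exact e.right_inv (htar hz)
  have hs : ∀ s t, 0 ≤ s → 0 ≤ t → s + t ≤ δ → ∀ z ∈ ball (e x₀) η, F t z ∈ ball (e x₀) η →
      F (s + t) z = F s (F t z) := by
    intro s t hs ht hst z hz _
    have hs' : s ∈ Icc 0 δ := ⟨hs, by linarith⟩
    have ht' : t ∈ Icc 0 δ := ⟨ht, by linarith⟩
    simp only [hF, hcle (s + t) ⟨by linarith, hst⟩, hcle s hs', hcle t ht']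
    rw [e.left_inv (hin t ht' z hz).2, h.add s t _ hs ht]
  obtain ⟨w, ρ, hρ, τ, hτ, hw, hτδ, hloc⟩ := local_generator hη hδ hc hd h0 hs
  refine ⟨w, min ρ η, by positivity, τ, hτ, hw,
    (ball_subset_ball (min_le_right _ _)).trans htar, fun z hz t ht => ?_⟩
  have hzη : z ∈ ball (e x₀) η := ball_subset_ball (min_le_right _ _) hz
  have htδ : t ∈ Icc 0 δ := ⟨ht.1, ht.2.le.trans hτδ⟩
  obtain ⟨-, h2⟩ := hloc z (ball_subset_ball (min_le_left _ _) hz) t ht
  refine ⟨(hin t htδ z hzη).2, ?_⟩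
  have h3 : F t z = e (φ t (e.symm z)) := by simp only [hF, hcle t htδ]
  rw [h3] at h2
  refine h2.congr_of_eventuallyEq ?_ h3.symm
  have h4 : ∀ᶠ t' in 𝓝[Ici 0] t, t' < τ := (gt_mem_nhds ht.2).filter_mono nhdsWithin_le_nhds
  filter_upwards [h4, self_mem_nhdsWithin] with t' h5 h6
  simp only [hF, hcle t' ⟨h6, h5.le.trans hτδ⟩]

/-- the generator -/
def gen (φ : ℝ → M → M) (x : M) : E :=
  derivWithin (fun t => chartAt E x (φ t x)) (Ici 0) 0

/-- the orbits in the preferred chart -/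
theorem hasDerivWithinAt_gen (h : IsHolSemigroup E φ) (x : M) {t : ℝ} (ht : 0 ≤ t) :
    HasDerivWithinAt (fun t' => chartAt E (φ t x) (φ t' x)) (gen (E := E) φ (φ t x)) (Ici 0) t := by
  set y := φ t x with hy
  obtain ⟨w, ρ, hρ, τ, hτ, hw, htar, hloc⟩ := exists_local_gen h y
  have hys : y ∈ (chartAt E y).source := mem_chart_source E y
  set e := chartAt E y with hedef
  have hey : e.symm (e y) = y := e.left_inv hys
  -- the generator at `y`
  have hgen : gen (E := E) φ y = w (e y) := by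
    have h1 := (hloc (e y) (mem_ball_self hρ) 0 ⟨le_rfl, hτ⟩).2
    rw [hey, h.zero] at h1
    exact h1.derivWithin (uniqueDiffOn_Ici 0 0 (mem_Ici.2 le_rfl))
  rw [hgen]
  rcases ht.eq_or_lt with h0 | h0
  · have h1 := (hloc (e y) (mem_ball_self hρ) 0 ⟨le_rfl, hτ⟩).2
    have hyx : y = x := by rw [hy, ← h0, h.zero]
    rw [hey, h.zero] at h1
    rw [← h0]
    simpa only [hyx] using h1
  · -- go back a little
    have hcx : ContinuousAt (fun s => φ s x) t := by
      have h1 : ContinuousOn (fun s => φ s x) (Ici 0) :=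
        h.cont.comp (by fun_prop : ContinuousOn (fun s : ℝ => (s, x)) (Ici 0))
          (fun s hs => ⟨hs, mem_univ _⟩)
      exact h1.continuousAt (Ici_mem_nhds h0)
    have hev : ∀ᶠ s in 𝓝 t, φ s x ∈ e.source ∧ e (φ s x) ∈ ball (e y) ρ := by
      refine (hcx.eventually (e.open_source.mem_nhds hys)).and ?_
      have h2 : ContinuousAt (fun s => e (φ s x)) t :=
        ContinuousAt.comp (f := fun s => φ s x) (g := e) (e.continuousAt hys) hcx
      exact h2.eventually (isOpen_ball.mem_nhds (mem_ball_self hρ))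
    obtain ⟨ε, hε, hball⟩ := Metric.eventually_nhds_iff_ball.1 hev
    set s : ℝ := min (min (ε / 2) (τ / 2)) (t / 2) with hs
    have hs0 : 0 < s := by positivity
    have hsε : s < ε := ((min_le_left _ _).trans (min_le_left _ _)).trans_lt (by linarith)
    have hsτ : s < τ := ((min_le_left _ _).trans (min_le_right _ _)).trans_lt (by linarith)
    have hst : s < t := (min_le_right _ _).trans_lt (by linarith)
    have hts := hball (t - s) (by
      rw [mem_ball, Real.dist_eq, sub_sub_cancel_left, abs_neg, abs_of_pos hs0]; exact hsε)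
    set x' := φ (t - s) x with hx'
    have hsx' : φ s x' = y := by
      rw [hx', ← h.add s (t - s) x hs0.le (by linarith), hy]
      congr 1; ring
    have h1 := (hloc (e x') hts.2 s ⟨hs0.le, hsτ⟩).2
    rw [e.left_inv hts.1, hsx'] at h1
    have h2 : HasDerivAt (fun r => e (φ r x')) (w (e y)) s := h1.hasDerivAt (Ici_mem_nhds hs0)
    have h3 : HasDerivAt (fun r => e (φ (r - (t - s)) x')) (w (e y)) t := by
      have h4 : HasDerivAt (fun r => e (φ r x')) (w (e y)) (t - (t - s)) := by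
        rw [sub_sub_cancel]; exact h2
      exact h4.comp_sub_const t (t - s)
    refine (h3.congr_of_eventuallyEq ?_).hasDerivWithinAt
    have h5 : ∀ᶠ r in 𝓝 t, t - s < r := lt_mem_nhds (by linarith)
    filter_upwards [h5] with r hr
    rw [hx', ← h.add (r - (t - s)) (t - s) x (by linarith) (by linarith), sub_add_cancel]

theorem hasMFDerivWithinAt_gen (h : IsHolSemigroup E φ) (x : M) {t : ℝ} (ht : 0 ≤ t) :
    HasMFDerivWithinAt 𝓘(ℝ, ℝ) 𝓘(ℝ, E) (fun t => φ t x) (Ici 0) t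
      ((1 : ℝ →L[ℝ] ℝ).smulRight (gen (E := E) φ (φ t x)) : ℝ →L[ℝ] E) := by
  refine ⟨?_, ?_⟩
  · exact (h.cont.comp (by fun_prop : ContinuousOn (fun s : ℝ => (s, x)) (Ici 0))
      (fun s hs => ⟨hs, mem_univ _⟩)) t ht
  · have h1 : HasFDerivWithinAt (fun t' => chartAt E (φ t x) (φ t' x))
        ((1 : ℝ →L[ℝ] ℝ).smulRight (gen (E := E) φ (φ t x))) (Ici 0) t := by
      have h2 := (hasDerivWithinAt_gen h x ht).hasFDerivWithinAt
      rwa [← ContinuousLinearMap.smulRight_one_eq_toSpanSingleton] at h2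
    have h3 : ((extChartAt 𝓘(ℝ, ℝ) t).symm ⁻¹' Ici 0 ∩ range 𝓘(ℝ, ℝ)) = Ici (0 : ℝ) := by
      simp only [modelWithCornersSelf_coe, range_id, inter_univ]
      rfl
    rw [h3]
    exact h1

/-- **The generator of a semigroup of holomorphic maps.** -/
theorem exists_generator (h : IsHolSemigroup E φ) :
    ∃ X : M → E, IsHolVectorField E X ∧ ∀ x, ∀ t ∈ Ici (0 : ℝ),
      HasMFDerivWithinAt 𝓘(ℝ, ℝ) 𝓘(ℝ, E) (fun t => φ t x) (Ici 0) t
        ((1 : ℝ →L[ℝ] ℝ).smulRight (X (φ t x)) : ℝ →L[ℝ] E) := by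
  refine ⟨gen φ, ?_, fun x t ht => hasMFDerivWithinAt_gen h x ht⟩
  refine isHolVectorField_of_local' fun x₀ => ?_
  have he : chartAt E x₀ ∈ maximalAtlas 𝓘(ℂ, E) 1 M := chart_mem_maximalAtlas x₀
  have hx₀ : x₀ ∈ (chartAt E x₀).source := mem_chart_source E x₀
  obtain ⟨w, ρ, hρ, τ, hτ, hw, htar, hloc⟩ := exists_local_gen h x₀
  refine ⟨_, he, hx₀, ?_⟩
  set e := chartAt E x₀ with hedef
  refine hw.congr_of_eventuallyEq ?_
  filter_upwards [isOpen_ball.mem_nhds (mem_ball_self hρ)] with z hz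
  set y := e.symm z with hy
  have hyz : e y = z := e.right_inv (htar hz)
  have hys : y ∈ e.source := e.map_target (htar hz)
  have h1 : HasMFDerivWithinAt 𝓘(ℝ, ℝ) 𝓘(ℝ, E) (fun t => φ t y) (Ici 0) 0
      ((1 : ℝ →L[ℝ] ℝ).smulRight (gen (E := E) φ (φ 0 y)) : ℝ →L[ℝ] E) :=
    hasMFDerivWithinAt_gen h y le_rfl
  have h2 := curve_chart (X := (gen φ : M → E)) he h1 (by
    show φ 0 y ∈ e.source
    rw [h.zero]; exact hys)
  have h3 := (hloc z hz 0 ⟨le_rfl, hτ⟩).2
  have h4 := (uniqueDiffOn_Ici (0 : ℝ) 0 (mem_Ici.2 le_rfl)).eq_deriv _ h2 h3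
  simp only [← hy, h.zero, hyz] at h4
  exact h4

end Vale.Agent.P253.R2.H156
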