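import Vale.Agent.P253.R2.H156.VFLift2
import Vale.Agent.P253.R2.H156.Cor
import Vale.Agent.P253.R2.H451.KPProp
import Vale.Agent.P253.R2.H618.Liou2

/-!
P253, VF: Riemann domains (and open subsets of complex manifolds) which are invariant under a
one-parameter semigroup.
-/

open scoped Manifold ContDiff Topology Bundle
open Set Metric Complex Filter Bundle IsManifold Vale.Agent.P253.Mfd Vale.Agent.P253.R2.H922
  Vale.Agent.P253.R2.H445

set_option maxSynthPendingDepth 3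
set_option linter.unusedSectionVars false

noncomputable section

namespace Vale.Agent.P253.R2.H156

section alg

variable {E : Type*} [NormedAddCommGroup E] [NormedSpace ℂ E] [FiniteDimensional ℂ E]
  {M : Type*} [TopologicalSpace M] [ChartedSpace E M] [IsManifold 𝓘(ℂ, E) 1 M]

theorem IsHolCFlow.cont {N : Type*} [TopologicalSpace N] [ChartedSpace E N] {σ : ℂ → N → N}
    (hσ : IsHolCFlow E σ) : Continuous fun p : ℂ × N => σ p.1 p.2 := hσ.holo.continuous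

/-- holomorphic flows on a vector space -/
theorem isHolCFlow_of_contDiff {σ : ℂ → E → E} (h0 : ∀ x, σ 0 x = x)
    (ha : ∀ s t x, σ (s + t) x = σ s (σ t x))
    (hd : ContDiff ℂ 1 (fun q : ℂ × E => σ q.1 q.2)) : IsHolCFlow E σ := by
  refine ⟨h0, ha, ?_⟩
  have := hd.contMDiff
  rw [modelWithCornersSelf_prod, ← chartedSpaceSelf_prod] at this
  exact this

theorem isHolCFlow_lf (A : E →L[ℂ] E) : IsHolCFlow E (fun ζ z => lf A ζ z) := by
  have hCE : CompleteSpace E := FiniteDimensional.complete ℂ E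
  refine isHolCFlow_of_contDiff (fun x => by rw [lf_zero]; rfl) (fun s t x => lf_add A s t x) ?_
  have h1 : Differentiable ℂ (fun w : ℂ => lf A w) := fun w =>
    (hasDerivAt_lf A w).differentiableAt
  exact (h1.contDiff.comp contDiff_fst).clm_apply contDiff_snd

/-- the translation flow -/
theorem isHolCFlow_trans (v : E) : IsHolCFlow E (fun (ζ : ℂ) (z : E) => z + ζ • v) := by
  refine isHolCFlow_of_contDiff (fun x => by simp) (fun s t x => ?_) ?_
  · rw [add_smul]; abel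
  · fun_prop

/-- the contraction towards `a` -/
theorem isHolCFlow_star (a : E) :
    IsHolCFlow E (fun (ζ : ℂ) (z : E) => a + Complex.exp (-ζ) • (z - a)) := by
  refine isHolCFlow_of_contDiff (fun x => by simp) (fun s t x => ?_) ?_
  · rw [add_sub_cancel_left, smul_smul, ← Complex.exp_add, neg_add]
  · have h1 : ContDiff ℂ 1 (fun q : ℂ × E => Complex.exp (-q.1)) := contDiff_fst.neg.cexp
    exact contDiff_const.add (h1.smul (contDiff_snd.sub contDiff_const))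

variable {σ : ℂ → E → E}

/-- a point over a fixed point is fixed -/
theorem flow_fixed' [T2Space M] {q : M → E} (hq : IsLocalHomeomorph q)
    {ψ : ℂ → M → M} (hψ : IsHolCFlow E ψ) (hl : ∀ ζ x, q (ψ ζ x) = σ ζ (q x))
    {p : M} (hp : ∀ ζ, σ ζ (q p) = q p) (ζ : ℂ) : ψ ζ p = p := by
  have hc : Continuous fun ζ => ψ ζ p :=
    hψ.holo.continuous.comp (by fun_prop : Continuous fun ζ : ℂ => (ζ, p))
  have h0 : (fun ζ => ψ ζ p) 0 = (fun _ => p) 0 := hψ.zero p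
  have := (T2Space.isSeparatedMap q).eq_of_comp_eq hq.isLocallyInjective hc continuous_const
    (by funext ζ; simp [hl, hp]) 0 h0
  exact congrFun this ζ

/-- a Riemann domain to which an absorbing flow lifts is the whole space -/
theorem diffeo_of_absorb [T2Space M] [PreconnectedSpace M] {q : M → E}
    (hq : IsLocalDiffeomorph 𝓘(ℂ, E) 𝓘(ℂ, E) 1 q) (hσ : IsHolCFlow E σ)
    {ψ : ℂ → M → M} (hψ : IsHolCFlow E ψ) (hl : ∀ ζ x, q (ψ ζ x) = σ ζ (q x))
    {p : M} (hp : ∀ ζ, σ ζ (q p) = q p)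
    (habs : ∀ R r : ℝ, 0 < r → ∃ t : ℝ, MapsTo (σ t) (ball (q p) R) (ball (q p) r)) :
    ∃ F : M ≃ₘ^1⟮𝓘(ℂ, E), 𝓘(ℂ, E)⟯ E, ∀ x, F x = q x := by
  refine exists_diffeo_of_not_bddAbove hq (y := p) ?_
  rintro ⟨b, hb⟩
  have key : b + 1 ∈ radii q p := by
    obtain ⟨r, hr, s, hs, hsp⟩ := exists_pos_mem_radii hq.isLocalHomeomorph p
    obtain ⟨t, ht⟩ := habs (b + 1) r hr
    have hneg : ∀ z, σ (-(t : ℂ)) (σ t z) = z := fun z => by
      rw [← hσ.add, neg_add_cancel, hσ.zero]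
    refine ⟨fun z => ψ (-(t : ℂ)) (s (σ t z)), ⟨?_, ?_⟩, ?_⟩
    · have hc : Continuous (ψ (-(t : ℂ))) :=
        hψ.holo.continuous.comp (by fun_prop : Continuous fun x : M => ((-(t : ℂ)), x))
      have hc2 : Continuous (σ (t : ℂ)) :=
        hσ.holo.continuous.comp (by fun_prop : Continuous fun x : E => ((t : ℂ), x))
      exact hc.comp_continuousOn (hs.1.comp hc2.continuousOn ht)
    · intro z hz
      rw [hl, hs.2 _ (ht hz), hneg]
    · show ψ (-(t : ℂ)) (s (σ t (q p))) = p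
      rw [hp, hsp, flow_fixed' hq.isLocalHomeomorph hψ hl hp]
  have := hb key
  linarith

/-- sections along commuting (or not) lifted translations -/
theorem exists_lift_trans {q : M → E} : ∀ (n : ℕ) (v : Fin n → E),
    (∀ i, ∃ ψ : ℂ → M → M, Continuous (fun p : ℂ × M => ψ p.1 p.2) ∧ (∀ x, ψ 0 x = x) ∧
      ∀ ζ x, q (ψ ζ x) = q x + ζ • v i) →
    ∀ x, ∃ Φ : (Fin n → ℂ) → M, Continuous Φ ∧ Φ 0 = x ∧
      ∀ c, q (Φ c) = q x + ∑ i, c i • v i := by
  intro n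
  induction n with
  | zero =>
    intro v _ x
    exact ⟨fun _ => x, continuous_const, rfl, fun c => by simp⟩
  | succ n ih =>
    intro v h x
    obtain ⟨Φ, hΦ, hΦ0, hΦq⟩ := ih (fun i => v i.succ) (fun i => h i.succ) x
    obtain ⟨ψ, hψ, hψ0, hψq⟩ := h 0
    refine ⟨fun c => ψ (c 0) (Φ (Fin.tail c)), ?_, ?_, ?_⟩
    · refine hψ.comp (f := fun c : Fin (n + 1) → ℂ => (c 0, Φ (Fin.tail c))) ?_
      refine (continuous_apply 0).prodMk (hΦ.comp ?_)
      exact continuous_pi fun i => continuous_apply i.succ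
    · have h1 : Fin.tail (0 : Fin (n + 1) → ℂ) = 0 := by
        funext i; simp [Fin.tail]
      simp only [h1, hΦ0, Pi.zero_apply, hψ0]
    · intro c
      simp only [hψq, hΦq, Fin.sum_univ_succ, Fin.tail]
      abel

/-- a Riemann domain to which all translations lift is the whole space -/
theorem diffeo_of_trans [T2Space M] [PreconnectedSpace M] [Nonempty M] {q : M → E}
    (hq : IsLocalDiffeomorph 𝓘(ℂ, E) 𝓘(ℂ, E) 1 q) {G : Set E}
    (hG : Submodule.span ℂ G = ⊤)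
    (h : ∀ v ∈ G, ∃ ψ : ℂ → M → M, Continuous (fun p : ℂ × M => ψ p.1 p.2) ∧
      (∀ x, ψ 0 x = x) ∧ ∀ ζ x, q (ψ ζ x) = q x + ζ • v) :
    ∃ F : M ≃ₘ^1⟮𝓘(ℂ, E), 𝓘(ℂ, E)⟯ E, ∀ x, F x = q x := by
  obtain ⟨p⟩ : Nonempty M := inferInstance
  refine exists_diffeo_of_not_bddAbove hq (y := p) ?_
  rintro ⟨R, hR⟩
  set B := Module.Basis.ofSpan (K := ℂ) hG.ge with hB
  have hfin : Finite ((linearIndepOn_empty ℂ id).extend (empty_subset G)) :=
    Module.Finite.finite_basis B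
  have hft := Fintype.ofFinite ((linearIndepOn_empty ℂ id).extend (empty_subset G))
  set b := B.reindex (Fintype.equivFin _) with hb
  have hbG : ∀ i, b i ∈ G := by
    intro i
    rw [hb, Module.Basis.reindex_apply]
    exact Module.Basis.ofSpan_subset hG.ge ⟨_, rfl⟩
  obtain ⟨Φ, hΦ, hΦ0, hΦq⟩ := exists_lift_trans (q := q) _ (fun i => b i) (fun i => h _ (hbG i)) p
  have key : R + 1 ∈ radii q p := by
    refine ⟨fun z => Φ (b.equivFun (z - q p)), ⟨?_, ?_⟩, ?_⟩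
    · have h1 : Continuous fun z => b.equivFun z :=
        LinearMap.continuous_of_finiteDimensional b.equivFun.toLinearMap
      exact (hΦ.comp (h1.comp (continuous_id.sub continuous_const))).continuousOn
    · intro z _
      have h2 := b.sum_equivFun (z - q p)
      rw [hΦq, h2]
      abel
    · simp only [sub_self, map_zero, hΦ0]
  have := hR key
  linarith

end alg

section main

variable {E : Type*} [NormedAddCommGroup E] [NormedSpace ℂ E] [FiniteDimensional ℂ E]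
  {M : Type*} [MetricSpace M] [ChartedSpace E M] [IsManifold 𝓘(ℂ, E) 1 M]
  [IsManifold 𝓘(ℝ, E) ∞ M]
  [RiemannianBundle (fun x : M => TangentSpace 𝓘(ℝ, E) x)]
  [IsContMDiffRiemannianBundle 𝓘(ℝ, E) ∞ E (fun x : M => TangentSpace 𝓘(ℝ, E) x)]
  [IsRiemannianManifold 𝓘(ℝ, E) M]

/-- lifts of actions to complete Kähler manifolds of nonnegative bisectional curvature -/
theorem lift_flow [CompleteSpace M] [ConnectedSpace M] (hK : IsKahler E M)
    (hnn : ∀ x : M, NonnegBisectionalAt E x)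
    {N : Type*} [TopologicalSpace N] [T2Space N] [ChartedSpace E N] [IsManifold 𝓘(ℂ, E) 1 N]
    {q : M → N} {σ : ℂ → N → N} (hq : IsLocalDiffeomorph 𝓘(ℂ, E) 𝓘(ℂ, E) 1 q)
    (hσ : IsHolCFlow E σ)
    (hl : ∀ x, ∃ γ : ℝ → M, γ 0 = x ∧ ContinuousOn γ (Ici 0) ∧
      ∀ t : ℝ, 0 ≤ t → q (γ t) = σ t (q x)) :
    ∃ ψ : ℂ → M → M, IsHolCFlow E ψ ∧ ∀ ζ x, q (ψ ζ x) = σ ζ (q x) :=
  lift_flow' (H451.kp_prop hK hnn) (H618.liouville_noTouch hK hnn) hq hσ hl

/-- an injective locally biholomorphic map onto `N` is biholomorphic -/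
theorem exists_diffeo_of_bijective
    {N : Type*} [TopologicalSpace N] [ChartedSpace E N] {q : M → N}
    (hq : IsLocalDiffeomorph 𝓘(ℂ, E) 𝓘(ℂ, E) 1 q) (hb : Function.Bijective q) :
    ∃ F : M ≃ₘ^1⟮𝓘(ℂ, E), 𝓘(ℂ, E)⟯ N, ∀ x, F x = q x :=
  ⟨hq.diffeomorphOfBijective hb, fun _ => rfl⟩

/-- forward invariant open subsets of complex manifolds -/
theorem invariant_of_injective [CompleteSpace M] [ConnectedSpace M] (hK : IsKahler E M)
    (hnn : ∀ x : M, NonnegBisectionalAt E x)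
    {N : Type*} [TopologicalSpace N] [T2Space N] [ChartedSpace E N] [IsManifold 𝓘(ℂ, E) 1 N]
    {q : M → N} {σ : ℂ → N → N} (hq : IsLocalDiffeomorph 𝓘(ℂ, E) 𝓘(ℂ, E) 1 q)
    (hσ : IsHolCFlow E σ) (hinj : Function.Injective q)
    (hinv : ∀ (t : ℝ) x, 0 ≤ t → σ t (q x) ∈ range q) :
    (∀ ζ, σ ζ '' range q = range q) ∧
      ((∀ y, ∃ t : ℝ, 0 ≤ t ∧ σ t y ∈ range q) →
        ∃ F : M ≃ₘ^1⟮𝓘(ℂ, E), 𝓘(ℂ, E)⟯ N, ∀ x, F x = q x) := by
  have hemb := hq.isLocalHomeomorph.isOpenEmbedding_of_injective hinj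
  have hlift : ∀ x, ∃ γ : ℝ → M, γ 0 = x ∧ ContinuousOn γ (Ici 0) ∧
      ∀ t : ℝ, 0 ≤ t → q (γ t) = σ t (q x) := by
    intro x
    choose g hg using fun t : Ici (0 : ℝ) => hinv t x t.2
    have hgc : Continuous g := by
      rw [hemb.isInducing.continuous_iff]
      have h1 : q ∘ g = fun t : Ici (0 : ℝ) => σ ((t : ℝ) : ℂ) (q x) := funext hg
      rw [h1]
      exact hσ.holo.continuous.comp
        ((continuous_ofReal.comp continuous_subtype_val).prodMk continuous_const)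
    have h0 : (0 : ℝ) ∈ Ici (0 : ℝ) := mem_Ici.2 le_rfl
    classical
    refine ⟨fun t => if h : t ∈ Ici (0 : ℝ) then g ⟨t, h⟩ else x, ?_, ?_, ?_⟩
    · simp only [h0, dite_true]
      apply hinj
      rw [hg ⟨0, h0⟩]
      simp only [ofReal_zero, hσ.zero]
    · rw [continuousOn_iff_continuous_restrict]
      convert hgc using 1
      funext t
      simp only [restrict_apply]
      rw [dif_pos t.2]
    · intro t ht
      simp only [mem_Ici.2 ht, dite_true]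
      exact hg ⟨t, ht⟩
  obtain ⟨ψ, hψ, hl⟩ := lift_flow hK hnn hq hσ hlift
  have hall : ∀ ζ x, σ ζ (q x) ∈ range q := fun ζ x => ⟨ψ ζ x, hl ζ x⟩
  have heq : ∀ ζ, σ ζ '' range q = range q := by
    intro ζ
    apply Subset.antisymm
    · rintro _ ⟨_, ⟨x, rfl⟩, rfl⟩
      exact hall ζ x
    · rintro _ ⟨x, rfl⟩
      exact ⟨σ (-ζ) (q x), hall _ _, by rw [← hσ.add, add_neg_cancel, hσ.zero]⟩
  refine ⟨heq, fun habs => exists_diffeo_of_bijective hq ⟨hinj, fun y => ?_⟩⟩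
  obtain ⟨t, -, x, hx⟩ := habs y
  have : σ (-(t : ℂ)) (q x) = y := by rw [hx, ← hσ.add, neg_add_cancel, hσ.zero]
  rw [← this]
  exact hall _ _

/-- Riemann domains invariant under a contracting linear semigroup -/
theorem linear_domain [CompleteSpace M] [ConnectedSpace M] (hK : IsKahler E M)
    (hnn : ∀ x : M, NonnegBisectionalAt E x)
    {q : M → E} (hq : IsLocalDiffeomorph 𝓘(ℂ, E) 𝓘(ℂ, E) 1 q) {A : E →L[ℂ] E}
    (hA : ∀ z, Tendsto (fun t : ℝ => NormedSpace.exp (-((t : ℂ) • A)) z) atTop (𝓝 0)) {p : M}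
    (hp : q p = 0)
    (hl : ∀ x, ∃ γ : ℝ → M, γ 0 = x ∧ ContinuousOn γ (Ici 0) ∧
      ∀ t : ℝ, 0 ≤ t → q (γ t) = NormedSpace.exp (-((t : ℂ) • A)) (q x)) :
    ∃ F : M ≃ₘ^1⟮𝓘(ℂ, E), 𝓘(ℂ, E)⟯ E, ∀ x, F x = q x := by
  have hCE : CompleteSpace E := FiniteDimensional.complete ℂ E
  obtain ⟨ψ, hψ, hlψ⟩ := lift_flow hK hnn hq (isHolCFlow_lf A) hl
  refine diffeo_of_absorb hq (isHolCFlow_lf A) hψ hlψ (p := p) (fun ζ => by simp [hp]) ?_
  intro R r hr
  have h1 := tendsto_norm_of_pointwise (T := fun t : ℝ => lf A t) hA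
  rcases le_or_gt R 0 with hR | hR
  · exact ⟨0, fun z hz => by rw [ball_eq_empty.2 hR] at hz; exact hz.elim⟩
  obtain ⟨t, ht⟩ := (h1.eventually_lt_const (u := r / R) (by positivity)).exists
  refine ⟨t, fun z hz => ?_⟩
  rw [hp, mem_ball_zero_iff] at hz ⊢
  calc ‖lf A t z‖ ≤ ‖lf A t‖ * ‖z‖ := (lf A t).le_opNorm z
    _ ≤ r / R * ‖z‖ := by gcongr
    _ < r / R * R := by gcongr
    _ = r := by field_simp

/-- starlike Riemann domains -/
theorem star_domain [CompleteSpace M] [ConnectedSpace M] (hK : IsKahler E M)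
    (hnn : ∀ x : M, NonnegBisectionalAt E x)
    {q : M → E} (hq : IsLocalDiffeomorph 𝓘(ℂ, E) 𝓘(ℂ, E) 1 q) {p : M}
    (hl : ∀ x, ∃ γ : ℝ → M, γ 0 = x ∧ ContinuousOn γ (Ico 0 1) ∧
      ∀ s ∈ Ico (0 : ℝ) 1, q (γ s) = q x + (s : ℂ) • (q p - q x)) :
    ∃ F : M ≃ₘ^1⟮𝓘(ℂ, E), 𝓘(ℂ, E)⟯ E, ∀ x, F x = q x := by
  have hσ := isHolCFlow_star (E := E) (q p)
  obtain ⟨ψ, hψ, hlψ⟩ := lift_flow hK hnn hq hσ (fun x => by
    obtain ⟨γ, h0, hc, hγ⟩ := hl x
    have hmem : ∀ t : ℝ, 0 ≤ t → 1 - Real.exp (-t) ∈ Ico (0 : ℝ) 1 := fun t ht => by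
      have h1 : Real.exp (-t) ≤ 1 := Real.exp_le_one_iff.2 (by linarith)
      have h2 := Real.exp_pos (-t)
      exact ⟨by linarith, by linarith⟩
    refine ⟨fun t => γ (1 - Real.exp (-t)), by simp [h0], ?_, ?_⟩
    · exact hc.comp (by fun_prop) (fun t ht => hmem t ht)
    · intro t ht
      rw [hγ _ (hmem t ht)]
      push_cast
      rw [sub_smul, one_smul]
      rw [show (q x - q p) = -(q p - q x) by abel, smul_neg]
      abel)
  refine diffeo_of_absorb hq hσ hψ hlψ (p := p) (fun ζ => by simp) ?_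
  intro R r hr
  rcases le_or_gt R 0 with hR | hR
  · exact ⟨0, fun z hz => by rw [ball_eq_empty.2 hR] at hz; exact hz.elim⟩
  refine ⟨Real.log (R / r), fun z hz => ?_⟩
  rw [mem_ball, dist_eq_norm] at hz ⊢
  rw [add_sub_cancel_left, norm_smul, Complex.norm_exp]
  have h1 : (-((Real.log (R / r) : ℝ) : ℂ)).re = -Real.log (R / r) := by simp
  rw [h1, Real.exp_neg, Real.exp_log (by positivity), inv_div]
  calc r / R * ‖z - q p‖ < r / R * R := by gcongr
    _ = r := by field_simp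

/-- Riemann domains containing, with each point, half lines in a spanning set of directions -/
theorem tube_domain [CompleteSpace M] [ConnectedSpace M] (hK : IsKahler E M)
    (hnn : ∀ x : M, NonnegBisectionalAt E x)
    {q : M → E} (hq : IsLocalDiffeomorph 𝓘(ℂ, E) 𝓘(ℂ, E) 1 q) {G : Set E}
    (hG : Submodule.span ℂ G = ⊤)
    (hl : ∀ v ∈ G, ∀ x, ∃ γ : ℝ → M, γ 0 = x ∧ ContinuousOn γ (Ici 0) ∧
      ∀ t : ℝ, 0 ≤ t → q (γ t) = q x + (t : ℂ) • v) :
    ∃ F : M ≃ₘ^1⟮𝓘(ℂ, E), 𝓘(ℂ, E)⟯ E, ∀ x, F x = q x := by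
  refine diffeo_of_trans hq hG fun v hv => ?_
  obtain ⟨ψ, hψ, hlψ⟩ := lift_flow hK hnn hq (isHolCFlow_trans v) (hl v hv)
  exact ⟨ψ, hψ.holo.continuous, hψ.zero, hlψ⟩

/-- **Semigroup-invariant domains.** `M` is a complete connected Kähler manifold of nonnegative
bisectional curvature. -/
theorem domains [CompleteSpace M] [ConnectedSpace M] (hK : IsKahler E M)
    (hnn : ∀ x : M, NonnegBisectionalAt E x) :
    (∀ (N : Type*) [TopologicalSpace N] [T2Space N] [ChartedSpace E N] [IsManifold 𝓘(ℂ, E) 1 N]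
      (q : M → N) (σ : ℂ → N → N), IsLocalDiffeomorph 𝓘(ℂ, E) 𝓘(ℂ, E) 1 q → IsHolCFlow E σ →
      ((∀ x, ∃ γ : ℝ → M, γ 0 = x ∧ ContinuousOn γ (Ici 0) ∧
          ∀ t : ℝ, 0 ≤ t → q (γ t) = σ t (q x)) →
        ∃ ψ : ℂ → M → M, IsHolCFlow E ψ ∧ ∀ ζ x, q (ψ ζ x) = σ ζ (q x)) ∧
      (Function.Injective q → (∀ (t : ℝ) x, 0 ≤ t → σ t (q x) ∈ range q) →
        (∀ ζ, σ ζ '' range q = range q) ∧
        ((∀ y, ∃ t : ℝ, 0 ≤ t ∧ σ t y ∈ range q) →
          ∃ F : M ≃ₘ^1⟮𝓘(ℂ, E), 𝓘(ℂ, E)⟯ N, ∀ x, F x = q x))) ∧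
    (∀ q : M → E, IsLocalDiffeomorph 𝓘(ℂ, E) 𝓘(ℂ, E) 1 q →
      ((∃ (A : E →L[ℂ] E) (p : M), q p = 0 ∧
          (∀ z, Tendsto (fun t : ℝ => NormedSpace.exp (-((t : ℂ) • A)) z) atTop (𝓝 0)) ∧
          ∀ x, ∃ γ : ℝ → M, γ 0 = x ∧ ContinuousOn γ (Ici 0) ∧
            ∀ t : ℝ, 0 ≤ t → q (γ t) = NormedSpace.exp (-((t : ℂ) • A)) (q x)) ∨
        (∃ p : M, ∀ x, ∃ γ : ℝ → M, γ 0 = x ∧ ContinuousOn γ (Ico 0 1) ∧
          ∀ s ∈ Ico (0 : ℝ) 1, q (γ s) = q x + (s : ℂ) • (q p - q x)) ∨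
        (∃ G : Set E, Submodule.span ℂ G = ⊤ ∧
          ∀ v ∈ G, ∀ x, ∃ γ : ℝ → M, γ 0 = x ∧ ContinuousOn γ (Ici 0) ∧
            ∀ t : ℝ, 0 ≤ t → q (γ t) = q x + (t : ℂ) • v)) →
      ∃ F : M ≃ₘ^1⟮𝓘(ℂ, E), 𝓘(ℂ, E)⟯ E, ∀ x, F x = q x) := by
  refine ⟨?_, ?_⟩
  · intro N _ _ _ _ q σ hq hσ
    exact ⟨fun h => lift_flow hK hnn hq hσ h,
      fun hi h => invariant_of_injective hK hnn hq hσ hi h⟩
  · rintro q hq (⟨A, p, hp, hA, hl⟩ | ⟨p, hl⟩ | ⟨G, hG, hl⟩)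
    · exact linear_domain hK hnn hq hA hp hl
    · exact star_domain hK hnn hq hl
    · exact tube_domain hK hnn hq hG hl

end main

end Vale.Agent.P253.R2.H156
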