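import Mathlib.Geometry.Manifold.LocalDiffeomorph
import Vale.Agent.P253.R2.H445.VF.Fwd
import Vale.Agent.P253.R2.H922.Etale

/-!
P253, VF: the lift of a holomorphic `ℂ`-action along a locally biholomorphic map.
-/

open scoped Manifold ContDiff Topology
open Set Metric Complex Filter IsManifold Vale.Agent.P253.Mfd Vale.Agent.P253.R2.H922
  Vale.Agent.P253.R2.H445

set_option maxSynthPendingDepth 3
set_option linter.unusedSectionVars false

noncomputable section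

namespace Vale.Agent.P253.R2.H156

section ident

variable {E : Type*} [NormedAddCommGroup E] [NormedSpace ℂ E] [FiniteDimensional ℂ E]
  {N : Type*} [TopologicalSpace N] [T2Space N] [ChartedSpace E N] [IsManifold 𝓘(ℂ, E) 1 N]

/-- local identity theorem for holomorphic curves in a complex manifold -/
theorem eventuallyEq_of_frequently' {f g : ℂ → N} {c : ℂ}
    (hf : ∀ᶠ ζ in 𝓝 c, MDifferentiableAt 𝓘(ℂ, ℂ) 𝓘(ℂ, E) f ζ)
    (hg : ∀ᶠ ζ in 𝓝 c, MDifferentiableAt 𝓘(ℂ, ℂ) 𝓘(ℂ, E) g ζ)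
    (h : ∃ᶠ ζ in 𝓝[≠] c, f ζ = g ζ) : f =ᶠ[𝓝 c] g := by
  have hfc : ContinuousAt f c := hf.self_of_nhds.continuousAt
  have hgc : ContinuousAt g c := hg.self_of_nhds.continuousAt
  have hfg : f c = g c := by
    by_contra hne
    have h0 : Tendsto (fun ζ => (f ζ, g ζ)) (𝓝 c) (𝓝 (f c, g c)) := hfc.prodMk_nhds hgc
    have h1 : ∀ᶠ ζ in 𝓝 c, f ζ ≠ g ζ :=
      h0.eventually ((isClosed_diagonal (X := N)).isOpen_compl.mem_nhds hne)
    exact h (h1.filter_mono nhdsWithin_le_nhds)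
  have he : chartAt E (f c) ∈ maximalAtlas 𝓘(ℂ, E) 1 N := chart_mem_maximalAtlas (f c)
  set e := chartAt E (f c) with hedef
  have hsrc : f c ∈ e.source := mem_chart_source E (f c)
  have key : ∀ {k : ℂ → N}, (∀ᶠ ζ in 𝓝 c, MDifferentiableAt 𝓘(ℂ, ℂ) 𝓘(ℂ, E) k ζ) →
      k c ∈ e.source → AnalyticAt ℂ (fun ζ => e (k ζ)) c := by
    intro k hk hkc
    have h1 : ∀ᶠ ζ in 𝓝 c, k ζ ∈ e.source :=
      hk.self_of_nhds.continuousAt.eventually (e.open_source.mem_nhds hkc)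
    rw [Complex.analyticAt_iff_eventually_differentiableAt]
    filter_upwards [hk, h1] with ζ h2 h3
    have h4 : MDifferentiableAt 𝓘(ℂ, E) 𝓘(ℂ, E) e (k ζ) :=
      ((contMDiffOn_of_mem_maximalAtlas he).contMDiffAt
        (e.open_source.mem_nhds h3)).mdifferentiableAt (by simp)
    exact (h4.comp ζ h2).differentiableAt
  have h1 := key hf hsrc
  have h2 := key hg (hfg ▸ hsrc)
  have h3 : ∃ᶠ ζ in 𝓝[≠] c, e (f ζ) = e (g ζ) := h.mono fun ζ hζ => congrArg e hζ
  have h4 := (h1.frequently_eq_iff_eventually_eq h2).1 h3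
  have h5 : ∀ᶠ ζ in 𝓝 c, f ζ ∈ e.source := hfc.eventually (e.open_source.mem_nhds hsrc)
  have h6 : ∀ᶠ ζ in 𝓝 c, g ζ ∈ e.source :=
    hgc.eventually (e.open_source.mem_nhds (hfg ▸ hsrc))
  filter_upwards [h4, h5, h6] with ζ h7 h8 h9
  exact e.injOn h8 h9 h7

/-- identity theorem: two entire holomorphic curves which agree on `[0, ∞)` are equal -/
theorem eq_of_eq_real {f g : ℂ → N}
    (hf : ∀ ζ, MDifferentiableAt 𝓘(ℂ, ℂ) 𝓘(ℂ, E) f ζ)
    (hg : ∀ ζ, MDifferentiableAt 𝓘(ℂ, ℂ) 𝓘(ℂ, E) g ζ)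
    (h : ∀ t : ℝ, 0 ≤ t → f t = g t) : f = g := by
  set Z : Set ℂ := {ζ | f =ᶠ[𝓝 ζ] g} with hZ
  have hZo : IsOpen Z := isOpen_setOfPred_eventually_nhds
  have hloc : ∀ ζ, (∃ᶠ w in 𝓝[≠] ζ, f w = g w) → ζ ∈ Z := fun ζ h =>
    eventuallyEq_of_frequently' (E := E) (Eventually.of_forall hf) (Eventually.of_forall hg) h
  have h1 : (1 : ℂ) ∈ Z := by
    refine hloc 1 ?_
    have h2 : Tendsto (fun s : ℝ => (s : ℂ)) (𝓝[≠] 1) (𝓝[≠] (1 : ℂ)) := by
      refine tendsto_nhdsWithin_of_tendsto_nhds_of_eventually_within _ ?_ ?_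
      · have := continuous_ofReal.tendsto (1 : ℝ)
        rw [ofReal_one] at this
        exact this.mono_left nhdsWithin_le_nhds
      · filter_upwards [self_mem_nhdsWithin] with s hs
        simpa using hs
    refine h2.frequently (Eventually.frequently ?_)
    have : ∀ᶠ s : ℝ in 𝓝 1, 0 < s := lt_mem_nhds one_pos
    filter_upwards [this.filter_mono nhdsWithin_le_nhds] with s hs using h s hs.le
  have hZu : Z = univ := by
    refine IsClopen.eq_univ ⟨?_, hZo⟩ ⟨1, h1⟩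
    rw [← closure_subset_iff_isClosed]
    intro ζ hζ
    by_contra hζZ
    refine hζZ (hloc ζ ?_)
    rw [mem_closure_iff_frequently] at hζ
    rw [frequently_nhdsWithin_iff]
    refine hζ.mono fun w hw => ⟨hw.self_of_nhds, ?_⟩
    rintro rfl
    exact hζZ hw
  funext ζ
  have : ζ ∈ Z := hZu ▸ mem_univ ζ
  exact this.self_of_nhds

end ident

section lift

variable {E : Type*} [NormedAddCommGroup E] [NormedSpace ℂ E] [FiniteDimensional ℂ E]
  {N : Type*} [TopologicalSpace N] [ChartedSpace E N] [IsManifold 𝓘(ℂ, E) 1 N]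
  {M : Type*} [MetricSpace M] [ChartedSpace E M] [IsManifold 𝓘(ℂ, E) 1 M]

/-- a locally biholomorphic map is the identity in suitable charts -/
theorem exists_qchart {q : M → N} (hq : IsLocalDiffeomorph 𝓘(ℂ, E) 𝓘(ℂ, E) 1 q) (x : M) :
    ∃ e ∈ maximalAtlas 𝓘(ℂ, E) 1 M, ∃ c ∈ maximalAtlas 𝓘(ℂ, E) 1 N, x ∈ e.source ∧
      ∀ y ∈ e.source, q y ∈ c.source ∧ e y = c (q y) := by
  obtain ⟨Ψ, hm, hΨ⟩ := hq x
  set e₀ := Ψ.toOpenPartialHomeomorph with he₀
  have hΨ' : EqOn q e₀ e₀.source := hΨ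
  have hc : chartAt E (q x) ∈ maximalAtlas 𝓘(ℂ, E) 1 N := chart_mem_maximalAtlas (q x)
  set c := chartAt E (q x) with hcdef
  refine ⟨e₀.trans c, ?_, c, hc, ?_, ?_⟩
  · refine mem_maximalAtlas_of_contMDiffOn ?_ ?_
    · have h1 : ContMDiffOn 𝓘(ℂ, E) 𝓘(ℂ, E) 1 e₀ e₀.source := Ψ.contMDiffOn_toFun
      refine (contMDiffOn_of_mem_maximalAtlas hc).comp (h1.mono ?_) ?_
      · intro z hz
        simp only [OpenPartialHomeomorph.trans_source, mem_inter_iff] at hz
        exact hz.1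
      · intro z hz
        simp only [OpenPartialHomeomorph.trans_source, mem_inter_iff] at hz
        exact hz.2
    · have h1 : ContMDiffOn 𝓘(ℂ, E) 𝓘(ℂ, E) 1 e₀.symm e₀.target := Ψ.contMDiffOn_invFun
      refine h1.comp ((contMDiffOn_symm_of_mem_maximalAtlas hc).mono ?_) ?_
      · intro z hz
        simp only [OpenPartialHomeomorph.trans_target, mem_inter_iff] at hz
        exact hz.1
      · intro z hz
        simp only [OpenPartialHomeomorph.trans_target, mem_inter_iff] at hz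
        exact hz.2
  · simp only [OpenPartialHomeomorph.trans_source, mem_inter_iff, mem_preimage]
    refine ⟨hm, ?_⟩
    rw [← hΨ' hm]
    exact mem_chart_source E (q x)
  · intro y hy
    simp only [OpenPartialHomeomorph.trans_source, mem_inter_iff, mem_preimage] at hy
    rw [OpenPartialHomeomorph.coe_trans, Function.comp_apply, hΨ' hy.1]
    exact ⟨hy.2, rfl⟩

/-- the generator of the action `σ` in the chart `c` -/
def wc (σ : ℂ → N → N) (c : OpenPartialHomeomorph N E) (z : E) : E :=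
  deriv (fun ζ => c (σ ζ (c.symm z))) 0

variable {σ : ℂ → N → N} {c : OpenPartialHomeomorph N E}

theorem mdiff_curve (hσ : IsHolCFlow E σ) (y : N) (ζ : ℂ) :
    MDifferentiableAt 𝓘(ℂ, ℂ) 𝓘(ℂ, E) (fun ζ => σ ζ y) ζ := by
  have h1 : MDifferentiable (𝓘(ℂ, ℂ).prod 𝓘(ℂ, E)) 𝓘(ℂ, E) (fun q : ℂ × N => σ q.1 q.2) :=
    hσ.holo.mdifferentiable (by norm_num)
  exact (h1 (ζ, y)).comp ζ ((mdifferentiableAt_id).prodMk mdifferentiableAt_const)

theorem mdiff_chart' (hc : c ∈ maximalAtlas 𝓘(ℂ, E) 1 N) {x : N} (hx : x ∈ c.source) :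
    MDifferentiableAt 𝓘(ℂ, E) 𝓘(ℂ, E) c x :=
  ((contMDiffOn_of_mem_maximalAtlas hc).contMDiffAt
    (c.open_source.mem_nhds hx)).mdifferentiableAt (by simp)

theorem mdiff_chart_symm' (hc : c ∈ maximalAtlas 𝓘(ℂ, E) 1 N) {z : E} (hz : z ∈ c.target) :
    MDifferentiableAt 𝓘(ℂ, E) 𝓘(ℂ, E) c.symm z :=
  ((contMDiffOn_symm_of_mem_maximalAtlas hc).contMDiffAt
    (c.open_target.mem_nhds hz)).mdifferentiableAt (by simp)

theorem diff_curve (hσ : IsHolCFlow E σ) (hc : c ∈ maximalAtlas 𝓘(ℂ, E) 1 N) {y : N} {ζ : ℂ}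
    (h : σ ζ y ∈ c.source) : DifferentiableAt ℂ (fun w => c (σ w y)) ζ :=
  ((mdiff_chart' hc h).comp ζ (mdiff_curve hσ y ζ)).differentiableAt

/-- the orbits in a chart -/
theorem hasDerivAt_curve (hσ : IsHolCFlow E σ) (hc : c ∈ maximalAtlas 𝓘(ℂ, E) 1 N) {y : N} {ζ : ℂ}
    (h : σ ζ y ∈ c.source) : HasDerivAt (fun w => c (σ w y)) (wc σ c (c (σ ζ y))) ζ := by
  have h1 : wc σ c (c (σ ζ y)) = deriv (fun w => c (σ w (σ ζ y))) 0 := by
    unfold wc
    rw [c.left_inv h]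
  have h2 : HasDerivAt (fun w => c (σ w (σ ζ y))) (wc σ c (c (σ ζ y))) 0 := by
    rw [h1]
    exact (diff_curve hσ hc (by rw [hσ.zero]; exact h)).hasDerivAt
  have h3 : HasDerivAt (fun w : ℂ => w - ζ) 1 ζ := (hasDerivAt_id ζ).sub_const ζ
  have h4 : HasDerivAt (fun w => c (σ w (σ ζ y))) (wc σ c (c (σ ζ y))) (ζ - ζ) := by
    rw [sub_self]; exact h2
  have h5 := HasDerivAt.scomp (h := fun w : ℂ => w - ζ) ζ h4 h3
  rw [one_smul] at h5
  convert h5 using 1
  funext w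
  simp only [Function.comp_apply]
  rw [← hσ.add, sub_add_cancel]

/-- the generator is holomorphic in charts -/
theorem differentiableOn_wc (hσ : IsHolCFlow E σ) (hc : c ∈ maximalAtlas 𝓘(ℂ, E) 1 N) :
    DifferentiableOn ℂ (wc σ c) c.target := by
  set F : ℂ × E → E := fun p => c (σ p.1 (c.symm p.2)) with hF
  set O : Set (ℂ × E) := {p | p.2 ∈ c.target ∧ σ p.1 (c.symm p.2) ∈ c.source} with hO
  have hm : MDifferentiable (𝓘(ℂ, ℂ).prod 𝓘(ℂ, E)) 𝓘(ℂ, E) (fun q : ℂ × N => σ q.1 q.2) :=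
    hσ.holo.mdifferentiable (by norm_num)
  have hOo : IsOpen O := by
    have h1 : ContinuousOn (fun p : ℂ × E => σ p.1 (c.symm p.2)) (univ ×ˢ c.target) :=
      hσ.holo.continuous.comp_continuousOn
        (continuousOn_fst.prodMk (c.continuousOn_symm.comp continuousOn_snd
          (fun p hp => hp.2)))
    have h2 := h1.isOpen_inter_preimage (isOpen_univ.prod c.open_target) c.open_source
    convert h2 using 1
    ext p
    simp [hO]
  have hFd : DifferentiableOn ℂ F O := by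
    intro p hp
    have h1 : MDifferentiableAt 𝓘(ℂ, ℂ × E) 𝓘(ℂ, E) (fun p : ℂ × E => c.symm p.2) p :=
      MDifferentiableAt.comp p (f := Prod.snd) (g := c.symm) (mdiff_chart_symm' hc hp.1)
        (differentiableAt_snd.mdifferentiableAt)
    have h2 : MDifferentiableAt 𝓘(ℂ, ℂ × E) (𝓘(ℂ, ℂ).prod 𝓘(ℂ, E))
        (fun p : ℂ × E => (p.1, c.symm p.2)) p :=
      (differentiableAt_fst.mdifferentiableAt).prodMk h1
    have h3 : MDifferentiableAt 𝓘(ℂ, ℂ × E) 𝓘(ℂ, E) (fun p : ℂ × E => σ p.1 (c.symm p.2)) p :=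
      MDifferentiableAt.comp p (f := fun p : ℂ × E => (p.1, c.symm p.2))
        (g := fun q : ℂ × N => σ q.1 q.2) (hm _) h2
    have h4 : MDifferentiableAt 𝓘(ℂ, ℂ × E) 𝓘(ℂ, E) F p :=
      MDifferentiableAt.comp p (f := fun p : ℂ × E => σ p.1 (c.symm p.2)) (g := c)
        (mdiff_chart' hc hp.2) h3
    exact h4.differentiableAt.differentiableWithinAt
  have hCE : CompleteSpace E := FiniteDimensional.complete ℂ E
  have hF2 : ContDiffOn ℂ ∞ F O := contDiffOn_of_differentiableOn_complex hOo hFd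
  have hmem : ∀ z ∈ c.target, ((0 : ℂ), z) ∈ O := fun z hz =>
    ⟨hz, by simp only [hσ.zero]; exact c.map_target hz⟩
  have hw : ∀ z ∈ c.target, wc σ c z = fderiv ℂ F (0, z) (1, 0) := by
    intro z hz
    have h1 : HasFDerivAt F (fderiv ℂ F (0, z)) (0, z) :=
      (hFd.differentiableAt (hOo.mem_nhds (hmem z hz))).hasFDerivAt
    have h2 : HasDerivAt (fun ζ : ℂ => (ζ, z)) ((1 : ℂ), (0 : E)) 0 :=
      (hasDerivAt_id (0 : ℂ)).prodMk (hasDerivAt_const (0 : ℂ) z)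
    exact (h1.comp_hasDerivAt (0 : ℂ) h2).deriv
  have h5 : DifferentiableOn ℂ (fun z : E => fderiv ℂ F (0, z) ((1 : ℂ), (0 : E))) c.target := by
    intro z hz
    have h6 : DifferentiableAt ℂ (fderiv ℂ F) (0, z) := by
      have := (hF2.contDiffAt (hOo.mem_nhds (hmem z hz))).fderiv_right (m := 1) (by norm_cast)
      exact this.differentiableAt (by norm_num)
    have h7 : DifferentiableAt ℂ (fun z : E => fderiv ℂ F (0, z)) z :=
      DifferentiableAt.comp z (f := fun z : E => ((0 : ℂ), z)) h6 (by fun_prop)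
    exact (h7.clm_apply (differentiableAt_const _)).differentiableWithinAt
  exact h5.congr hw

end lift

end Vale.Agent.P253.R2.H156
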